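import Vale.Agent.P205T.CurlBase

/-! # P205T : pointwise algebra of the coframe -/

namespace Vale.Agent.P205T

variable {e : ℝ} {ρ ψ θ : ℝ × ℝ → ℝ}

/-- `ta1 = q * tP`, `ta2 = q * tR`. -/
private theorem ta_eq_aux (hq : ∀ z, 0 < qq ψ z) (z : ℝ × ℝ) :
    ta1 ρ ψ z = qq ψ z * tP ρ ψ z ∧ ta2 ρ ψ z = qq ψ z * tR ρ ψ z := by
  have h := (hq z).ne'
  constructor
  · unfold ta1 tP; field_simp
  · unfold ta2 tR; field_simp

/-- the basic relation `s² = 1 - e q² (P² + R²)` and `0 ≤ s`. -/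
private theorem sS_sq_aux (hq : ∀ z, 0 < qq ψ z)
    (hs : ∀ z, e * (ta1 ρ ψ z ^ 2 + ta2 ρ ψ z ^ 2) < 1) (z : ℝ × ℝ) :
    sS e ρ ψ z ^ 2 = 1 - e * qq ψ z ^ 2 * (tP ρ ψ z ^ 2 + tR ρ ψ z ^ 2) ∧ 0 ≤ sS e ρ ψ z := by
  obtain ⟨h1, h2⟩ := ta_eq_aux (ρ := ρ) hq z
  have h := hs z
  rw [h1, h2] at h
  have hnn : 0 ≤ 1 - e * qq ψ z ^ 2 * (tP ρ ψ z ^ 2 + tR ρ ψ z ^ 2) := by nlinarith
  exact ⟨by unfold sS; exact Real.sq_sqrt hnn, by unfold sS; exact Real.sqrt_nonneg _⟩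

/-- pure algebra behind `det_coframe`. -/
private theorem alg_det (e q P R s : ℝ) (hq : q ≠ 0) (hs1 : 1 + s ≠ 0)
    (h : s ^ 2 = 1 - e * q ^ 2 * (P ^ 2 + R ^ 2)) :
    (1 / q - e * q / (1 + s) * P ^ 2) * (1 / q - e * q / (1 + s) * R ^ 2)
      - (-(e * q / (1 + s) * P * R)) ^ 2 = s / q ^ 2 := by
  field_simp
  linear_combination (-(1 + s)) * h

/-- pure algebra behind `metric_coframe`. -/
private theorem alg_metric (e q P R s v1 v2 w1 w2 : ℝ) (hq : q ≠ 0) (hs1 : 1 + s ≠ 0)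
    (h : s ^ 2 = 1 - e * q ^ 2 * (P ^ 2 + R ^ 2)) :
    ((1 / q - e * q / (1 + s) * P ^ 2) * v1 + (-(e * q / (1 + s) * P * R)) * v2) *
        ((1 / q - e * q / (1 + s) * P ^ 2) * w1 + (-(e * q / (1 + s) * P * R)) * w2) +
      ((-(e * q / (1 + s) * P * R)) * v1 + (1 / q - e * q / (1 + s) * R ^ 2) * v2) *
        ((-(e * q / (1 + s) * P * R)) * w1 + (1 / q - e * q / (1 + s) * R ^ 2) * w2) =
    (v1 * w1 + v2 * w2) / q ^ 2 - e * (P * v1 + R * v2) * (P * w1 + R * w2) := by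
  have key : 2 * (e * q / (1 + s)) / q - (e * q / (1 + s)) ^ 2 * (P ^ 2 + R ^ 2) = e := by
    field_simp
    linear_combination (-e) * h
  set k := e * q / (1 + s) with hk
  have e1 : (1 / q - k * P ^ 2) * v1 + (-(k * P * R)) * v2 = v1 / q - k * P * (P * v1 + R * v2) := by
    ring
  have e2 : (1 / q - k * P ^ 2) * w1 + (-(k * P * R)) * w2 = w1 / q - k * P * (P * w1 + R * w2) := by
    ring
  have e3 : (-(k * P * R)) * v1 + (1 / q - k * R ^ 2) * v2 = v2 / q - k * R * (P * v1 + R * v2) := by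
    ring
  have e4 : (-(k * P * R)) * w1 + (1 / q - k * R ^ 2) * w2 = w2 / q - k * R * (P * w1 + R * w2) := by
    ring
  rw [e1, e2, e3, e4]
  have : (v1 / q - k * P * (P * v1 + R * v2)) * (w1 / q - k * P * (P * w1 + R * w2)) +
      (v2 / q - k * R * (P * v1 + R * v2)) * (w2 / q - k * R * (P * w1 + R * w2)) =
      (v1 * w1 + v2 * w2) / q ^ 2 -
        (2 * k / q - k ^ 2 * (P ^ 2 + R ^ 2)) * (P * v1 + R * v2) * (P * w1 + R * w2) := by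
    field_simp
    ring
  rw [this, key]

/-- `det E = s / q²`. -/
theorem det_coframe (hq : ∀ z, 0 < qq ψ z)
    (hs : ∀ z, e * (ta1 ρ ψ z ^ 2 + ta2 ρ ψ z ^ 2) < 1) (z : ℝ × ℝ) :
    eA e ρ ψ z * eC e ρ ψ z - eB e ρ ψ z ^ 2 = sS e ρ ψ z / qq ψ z ^ 2 := by
  obtain ⟨h, h0⟩ := sS_sq_aux hq hs z
  have := alg_det e (qq ψ z) (tP ρ ψ z) (tR ρ ψ z) (sS e ρ ψ z) (hq z).ne' (by positivity) h
  unfold eA eB eC kaF
  exact this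

/-- `(E¹)² + (E²)² = |dz|² / q² - e dt²`. -/
theorem metric_coframe (hq : ∀ z, 0 < qq ψ z)
    (hs : ∀ z, e * (ta1 ρ ψ z ^ 2 + ta2 ρ ψ z ^ 2) < 1) (z v w : ℝ × ℝ) :
    (eA e ρ ψ z * v.1 + eB e ρ ψ z * v.2) * (eA e ρ ψ z * w.1 + eB e ρ ψ z * w.2) +
      (eB e ρ ψ z * v.1 + eC e ρ ψ z * v.2) * (eB e ρ ψ z * w.1 + eC e ρ ψ z * w.2) =
    (v.1 * w.1 + v.2 * w.2) / qq ψ z ^ 2 -
      e * (tP ρ ψ z * v.1 + tR ρ ψ z * v.2) * (tP ρ ψ z * w.1 + tR ρ ψ z * w.2) := by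
  obtain ⟨h, h0⟩ := sS_sq_aux hq hs z
  have := alg_metric e (qq ψ z) (tP ρ ψ z) (tR ρ ψ z) (sS e ρ ψ z) v.1 v.2 w.1 w.2
    (hq z).ne' (by positivity) h
  unfold eA eB eC kaF
  exact this

/-- The same for the rotated coframe. -/
theorem metric_rotated (hq : ∀ z, 0 < qq ψ z)
    (hs : ∀ z, e * (ta1 ρ ψ z ^ 2 + ta2 ρ ψ z ^ 2) < 1) (z v w : ℝ × ℝ) :
    (xiX1 e ρ ψ θ z * v.1 + xiX2 e ρ ψ θ z * v.2) * (xiX1 e ρ ψ θ z * w.1 + xiX2 e ρ ψ θ z * w.2) +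
      (xiY1 e ρ ψ θ z * v.1 + xiY2 e ρ ψ θ z * v.2) *
        (xiY1 e ρ ψ θ z * w.1 + xiY2 e ρ ψ θ z * w.2) =
    (v.1 * w.1 + v.2 * w.2) / qq ψ z ^ 2 -
      e * (tP ρ ψ z * v.1 + tR ρ ψ z * v.2) * (tP ρ ψ z * w.1 + tR ρ ψ z * w.2) := by
  rw [← metric_coframe hq hs z v w]
  unfold xiX1 xiX2 xiY1 xiY2
  have hcs := Real.sin_sq_add_cos_sq (θ z)
  set c := Real.cos (θ z)
  set sn := Real.sin (θ z)
  set A := eA e ρ ψ z
  set B := eB e ρ ψ z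
  set C := eC e ρ ψ z
  linear_combination ((A * v.1 + B * v.2) * (A * w.1 + B * w.2) +
    (B * v.1 + C * v.2) * (B * w.1 + C * w.2)) * hcs

end Vale.Agent.P205T
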