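import Vale.Agent.P205T.Defs

/-! # P205T : basic facts on `dX`, `dY`, `frm`, `Per` -/

namespace Vale.Agent.P205T

open scoped ContDiff

lemma frm_apply (a b : ℝ) (v : ℝ × ℝ) : frm a b v = a * v.1 + b * v.2 := by
  simp [frm]

private lemma clm_eq_frm (L : ℝ × ℝ →L[ℝ] ℝ) : L = frm (L (1, 0)) (L (0, 1)) := by
  ext
  · simp [frm_apply]
  · simp [frm_apply]

lemma hasFDerivAt_frm {u : ℝ × ℝ → ℝ} {z : ℝ × ℝ} (h : DifferentiableAt ℝ u z) :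
    HasFDerivAt u (frm (dX u z) (dY u z)) z := by
  have h1 := h.hasFDerivAt
  rw [clm_eq_frm (fderiv ℝ u z)] at h1
  exact h1

lemma dX_eq_of_hasFDerivAt {u : ℝ × ℝ → ℝ} {a b : ℝ} {z : ℝ × ℝ}
    (h : HasFDerivAt u (frm a b) z) : dX u z = a := by
  unfold dX
  rw [h.fderiv]
  simp [frm_apply]

lemma dY_eq_of_hasFDerivAt {u : ℝ × ℝ → ℝ} {a b : ℝ} {z : ℝ × ℝ}
    (h : HasFDerivAt u (frm a b) z) : dY u z = b := by
  unfold dY
  rw [h.fderiv]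
  simp [frm_apply]

lemma contDiff_dX {u : ℝ × ℝ → ℝ} (h : ContDiff ℝ ∞ u) : ContDiff ℝ ∞ (dX u) := by
  have h1 : ContDiff ℝ ∞ (fderiv ℝ u) := h.fderiv_right (m := ∞) (by simp)
  exact h1.clm_apply contDiff_const

lemma contDiff_dY {u : ℝ × ℝ → ℝ} (h : ContDiff ℝ ∞ u) : ContDiff ℝ ∞ (dY u) := by
  have h1 : ContDiff ℝ ∞ (fderiv ℝ u) := h.fderiv_right (m := ∞) (by simp)
  exact h1.clm_apply contDiff_const

/-- Symmetry of second derivatives. -/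
lemma dX_dY_comm {u : ℝ × ℝ → ℝ} (h : ContDiff ℝ ∞ u) (z : ℝ × ℝ) :
    dX (dY u) z = dY (dX u) z := by
  have h1 : ContDiff ℝ ∞ (fderiv ℝ u) := h.fderiv_right (m := ∞) (by simp)
  have hd : DifferentiableAt ℝ (fderiv ℝ u) z :=
    (h1.differentiable (by simp)).differentiableAt
  have hs : IsSymmSndFDerivAt ℝ u z :=
    h.contDiffAt.isSymmSndFDerivAt (by
      simp only [minSmoothness_of_isRCLikeNormedField]
      exact WithTop.coe_le_coe.2 le_top)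
  have e1 : ∀ v w : ℝ × ℝ, fderiv ℝ (fun y => fderiv ℝ u y v) z w
      = fderiv ℝ (fderiv ℝ u) z w v := by
    intro v w
    have := (hd.hasFDerivAt.clm_apply (hasFDerivAt_const v z)).fderiv
    rw [this]
    simp
  have a1 : dX (dY u) z = fderiv ℝ (fderiv ℝ u) z (1, 0) (0, 1) := e1 (0, 1) (1, 0)
  have a2 : dY (dX u) z = fderiv ℝ (fderiv ℝ u) z (0, 1) (1, 0) := e1 (1, 0) (0, 1)
  rw [a1, a2]
  exact hs.eq (1, 0) (0, 1)

lemma contDiff_of_hasFDerivAt_frm {u a b : ℝ × ℝ → ℝ} (ha : ContDiff ℝ ∞ a)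
    (hb : ContDiff ℝ ∞ b) (h : ∀ z, HasFDerivAt u (frm (a z) (b z)) z) : ContDiff ℝ ∞ u := by
  have hf : ContDiff ℝ ∞ (fun z => frm (a z) (b z)) := by
    unfold frm
    exact (ha.smul contDiff_const).add (hb.smul contDiff_const)
  have hfd : fderiv ℝ u = fun z => frm (a z) (b z) := by
    funext z
    exact (h z).fderiv
  rw [contDiff_infty_iff_fderiv]
  refine ⟨fun z => (h z).differentiableAt, ?_⟩
  rw [hfd]
  exact hf

private lemma fderiv_shift {u : ℝ × ℝ → ℝ} {w : ℝ × ℝ} (h : ∀ z, u (z + w) = u z) (z : ℝ × ℝ) :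
    fderiv ℝ u (z + w) = fderiv ℝ u z := by
  have h1 : (fun y => u (y + w)) = u := funext h
  have h2 : fderiv ℝ (fun y => u (y + w)) z = fderiv ℝ u (z + w) :=
    fderiv_comp_add_right (f := u) (x := z) w
  rw [← h2, h1]

lemma Per.dX {ω₁ ω₂ : ℝ × ℝ} {u : ℝ × ℝ → ℝ} (h : Per ω₁ ω₂ u) : Per ω₁ ω₂ (dX u) := by
  refine ⟨fun z => ?_, fun z => ?_⟩
  · unfold Vale.Agent.P205T.dX
    rw [fderiv_shift h.1]
  · unfold Vale.Agent.P205T.dX
    rw [fderiv_shift h.2]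

lemma Per.dY {ω₁ ω₂ : ℝ × ℝ} {u : ℝ × ℝ → ℝ} (h : Per ω₁ ω₂ u) : Per ω₁ ω₂ (dY u) := by
  refine ⟨fun z => ?_, fun z => ?_⟩
  · unfold Vale.Agent.P205T.dY
    rw [fderiv_shift h.1]
  · unfold Vale.Agent.P205T.dY
    rw [fderiv_shift h.2]

end Vale.Agent.P205T
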