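import Vale.Agent.P205T.Defs

/-! # P205T : calculus rules for `dX`, `dY` (all are one-line consequences of `fderiv_add`,
`fderiv_mul`, `fderiv_sqrt`, ... ; unfold `dX`, `dY`) -/

namespace Vale.Agent.P205T

section Rules

variable {u v : ℝ × ℝ → ℝ} {z : ℝ × ℝ}

lemma dX_const (c : ℝ) : dX (fun _ => c) z = 0 := by
  unfold dX
  rw [(hasFDerivAt_const c z).fderiv]
  rfl

lemma dY_const (c : ℝ) : dY (fun _ => c) z = 0 := by
  unfold dY
  rw [(hasFDerivAt_const c z).fderiv]
  rfl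

lemma basicB_add (hu : DifferentiableAt ℝ u z) (hv : DifferentiableAt ℝ v z) :
    fderiv ℝ (fun w => u w + v w) z = fderiv ℝ u z + fderiv ℝ v z :=
  (hu.hasFDerivAt.add hv.hasFDerivAt).fderiv

lemma dX_add (hu : DifferentiableAt ℝ u z) (hv : DifferentiableAt ℝ v z) :
    dX (fun w => u w + v w) z = dX u z + dX v z := by
  unfold dX
  rw [basicB_add hu hv]
  rfl

lemma dY_add (hu : DifferentiableAt ℝ u z) (hv : DifferentiableAt ℝ v z) :
    dY (fun w => u w + v w) z = dY u z + dY v z := by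
  unfold dY
  rw [basicB_add hu hv]
  rfl

lemma basicB_sub (hu : DifferentiableAt ℝ u z) (hv : DifferentiableAt ℝ v z) :
    fderiv ℝ (fun w => u w - v w) z = fderiv ℝ u z - fderiv ℝ v z :=
  (hu.hasFDerivAt.sub hv.hasFDerivAt).fderiv

lemma dX_sub (hu : DifferentiableAt ℝ u z) (hv : DifferentiableAt ℝ v z) :
    dX (fun w => u w - v w) z = dX u z - dX v z := by
  unfold dX
  rw [basicB_sub hu hv]
  rfl

lemma dY_sub (hu : DifferentiableAt ℝ u z) (hv : DifferentiableAt ℝ v z) :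
    dY (fun w => u w - v w) z = dY u z - dY v z := by
  unfold dY
  rw [basicB_sub hu hv]
  rfl

lemma basicB_neg : fderiv ℝ (fun w => -u w) z = -fderiv ℝ u z :=
  fderiv_fun_neg

lemma dX_neg : dX (fun w => -u w) z = -dX u z := by
  unfold dX
  rw [basicB_neg]
  rfl

lemma dY_neg : dY (fun w => -u w) z = -dY u z := by
  unfold dY
  rw [basicB_neg]
  rfl

lemma basicB_mul (hu : DifferentiableAt ℝ u z) (hv : DifferentiableAt ℝ v z) :
    fderiv ℝ (fun w => u w * v w) z = u z • fderiv ℝ v z + v z • fderiv ℝ u z :=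
  (hu.hasFDerivAt.mul hv.hasFDerivAt).fderiv

lemma dX_mul (hu : DifferentiableAt ℝ u z) (hv : DifferentiableAt ℝ v z) :
    dX (fun w => u w * v w) z = dX u z * v z + u z * dX v z := by
  unfold dX
  rw [basicB_mul hu hv]
  simp only [add_apply, smul_apply, smul_eq_mul]
  ring

lemma dY_mul (hu : DifferentiableAt ℝ u z) (hv : DifferentiableAt ℝ v z) :
    dY (fun w => u w * v w) z = dY u z * v z + u z * dY v z := by
  unfold dY
  rw [basicB_mul hu hv]
  simp only [add_apply, smul_apply, smul_eq_mul]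
  ring

lemma basicB_comp {φ : ℝ → ℝ} {φ' : ℝ} (hφ : HasDerivAt φ φ' (u z))
    (hu : DifferentiableAt ℝ u z) :
    fderiv ℝ (fun w => φ (u w)) z = φ' • fderiv ℝ u z :=
  (hφ.comp_hasFDerivAt z hu.hasFDerivAt).fderiv

lemma basicB_inv (hv : DifferentiableAt ℝ v z) (h0 : v z ≠ 0) :
    fderiv ℝ (fun w => (v w)⁻¹) z = (-(v z ^ 2)⁻¹) • fderiv ℝ v z :=
  basicB_comp (hasDerivAt_inv h0) hv

lemma basicB_inv_diff (hv : DifferentiableAt ℝ v z) (h0 : v z ≠ 0) :
    DifferentiableAt ℝ (fun w => (v w)⁻¹) z :=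
  ((hasDerivAt_inv h0).comp_hasFDerivAt z hv.hasFDerivAt).differentiableAt

lemma dX_div (hu : DifferentiableAt ℝ u z) (hv : DifferentiableAt ℝ v z) (h0 : v z ≠ 0) :
    dX (fun w => u w / v w) z = (dX u z * v z - u z * dX v z) / v z ^ 2 := by
  have h : (fun w => u w / v w) = fun w => u w * (v w)⁻¹ := by
    funext w
    rw [div_eq_mul_inv]
  rw [h, dX_mul hu (basicB_inv_diff hv h0)]
  unfold dX
  rw [basicB_inv hv h0]
  simp only [smul_apply, smul_eq_mul]
  field_simp
  ring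

lemma dY_div (hu : DifferentiableAt ℝ u z) (hv : DifferentiableAt ℝ v z) (h0 : v z ≠ 0) :
    dY (fun w => u w / v w) z = (dY u z * v z - u z * dY v z) / v z ^ 2 := by
  have h : (fun w => u w / v w) = fun w => u w * (v w)⁻¹ := by
    funext w
    rw [div_eq_mul_inv]
  rw [h, dY_mul hu (basicB_inv_diff hv h0)]
  unfold dY
  rw [basicB_inv hv h0]
  simp only [smul_apply, smul_eq_mul]
  field_simp
  ring

lemma dX_pow (hu : DifferentiableAt ℝ u z) (n : ℕ) :
    dX (fun w => u w ^ n) z = n * u z ^ (n - 1) * dX u z := by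
  unfold dX
  rw [basicB_comp (hasDerivAt_pow n (u z)) hu]
  rfl

lemma dY_pow (hu : DifferentiableAt ℝ u z) (n : ℕ) :
    dY (fun w => u w ^ n) z = n * u z ^ (n - 1) * dY u z := by
  unfold dY
  rw [basicB_comp (hasDerivAt_pow n (u z)) hu]
  rfl

lemma dX_sqrt (hu : DifferentiableAt ℝ u z) (h0 : u z ≠ 0) :
    dX (fun w => Real.sqrt (u w)) z = dX u z / (2 * Real.sqrt (u z)) := by
  unfold dX
  rw [basicB_comp (Real.hasDerivAt_sqrt h0) hu]
  simp only [smul_apply, smul_eq_mul]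
  ring

lemma dY_sqrt (hu : DifferentiableAt ℝ u z) (h0 : u z ≠ 0) :
    dY (fun w => Real.sqrt (u w)) z = dY u z / (2 * Real.sqrt (u z)) := by
  unfold dY
  rw [basicB_comp (Real.hasDerivAt_sqrt h0) hu]
  simp only [smul_apply, smul_eq_mul]
  ring

lemma dX_cos (hu : DifferentiableAt ℝ u z) :
    dX (fun w => Real.cos (u w)) z = -Real.sin (u z) * dX u z := by
  unfold dX
  rw [basicB_comp (Real.hasDerivAt_cos (u z)) hu]
  rfl

lemma dY_cos (hu : DifferentiableAt ℝ u z) :
    dY (fun w => Real.cos (u w)) z = -Real.sin (u z) * dY u z := by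
  unfold dY
  rw [basicB_comp (Real.hasDerivAt_cos (u z)) hu]
  rfl

lemma dX_sin (hu : DifferentiableAt ℝ u z) :
    dX (fun w => Real.sin (u w)) z = Real.cos (u z) * dX u z := by
  unfold dX
  rw [basicB_comp (Real.hasDerivAt_sin (u z)) hu]
  rfl

lemma dY_sin (hu : DifferentiableAt ℝ u z) :
    dY (fun w => Real.sin (u w)) z = Real.cos (u z) * dY u z := by
  unfold dY
  rw [basicB_comp (Real.hasDerivAt_sin (u z)) hu]
  rfl

lemma dX_exp (hu : DifferentiableAt ℝ u z) :
    dX (fun w => Real.exp (u w)) z = Real.exp (u z) * dX u z := by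
  unfold dX
  rw [basicB_comp (Real.hasDerivAt_exp (u z)) hu]
  rfl

lemma dY_exp (hu : DifferentiableAt ℝ u z) :
    dY (fun w => Real.exp (u w)) z = Real.exp (u z) * dY u z := by
  unfold dY
  rw [basicB_comp (Real.hasDerivAt_exp (u z)) hu]
  rfl

end Rules

end Vale.Agent.P205T
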