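import Vale.Agent.P205T.Basic

/-! # P205T : the metric induced by `z ↦ a z • G (Z₁ z, Z₂ z)` for a flat `G` in the unit sphere -/

namespace Vale.Agent.P205T

open scoped ContDiff

/-- `|G| = 1` gives `⟨G, dG v⟩ = 0` (differentiate `⟨G, G⟩ = 1`).  Then
`dF v = (da v) G + a dG (dZ v)` and the cross terms vanish. -/
theorem inner_coneMap {G : ℝ × ℝ → EuclideanSpace ℝ (Fin 4)} (hG : ContDiff ℝ ∞ G)
    (hn : ∀ p, ‖G p‖ = 1)
    (hI : ∀ p v w : ℝ × ℝ, inner ℝ (fderiv ℝ G p v) (fderiv ℝ G p w) = v.1 * w.1 + v.2 * w.2)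
    {a Z₁ Z₂ : ℝ × ℝ → ℝ} {z : ℝ × ℝ} {a₁ a₂ b₁ b₂ c₁ c₂ : ℝ}
    (ha : HasFDerivAt a (frm a₁ a₂) z) (h1 : HasFDerivAt Z₁ (frm b₁ b₂) z)
    (h2 : HasFDerivAt Z₂ (frm c₁ c₂) z) (v w : ℝ × ℝ) :
    inner ℝ (fderiv ℝ (fun z => a z • G (Z₁ z, Z₂ z)) z v)
        (fderiv ℝ (fun z => a z • G (Z₁ z, Z₂ z)) z w) =
      (a₁ * v.1 + a₂ * v.2) * (a₁ * w.1 + a₂ * w.2) +
        a z ^ 2 * ((b₁ * v.1 + b₂ * v.2) * (b₁ * w.1 + b₂ * w.2) +
          (c₁ * v.1 + c₂ * v.2) * (c₁ * w.1 + c₂ * w.2)) := by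
  have hGd : ∀ p, HasFDerivAt G (fderiv ℝ G p) p := fun p =>
    ((hG.differentiable (by simp)) p).hasFDerivAt
  -- orthogonality of `G` and `dG`
  have horth : ∀ p u, inner ℝ (G p) (fderiv ℝ G p u) = 0 := by
    intro p u
    have h1' : HasFDerivAt (fun q => inner ℝ (G q) (G q))
        ((fderivInnerCLM ℝ (G p, G p)).comp ((fderiv ℝ G p).prod (fderiv ℝ G p))) p :=
      (hGd p).inner ℝ (hGd p)
    have hconst : (fun q => inner ℝ (G q) (G q)) = fun _ => (1 : ℝ) := by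
      funext q
      rw [real_inner_self_eq_norm_sq, hn q]; norm_num
    rw [hconst] at h1'
    have h0 := h1'.unique (hasFDerivAt_const (1 : ℝ) p)
    have h2' := congrArg (fun L : ℝ × ℝ →L[ℝ] ℝ => L u) h0
    simp only [ContinuousLinearMap.comp_apply, ContinuousLinearMap.prod_apply,
      fderivInnerCLM_apply, zero_apply] at h2'
    rw [real_inner_comm (G p) (fderiv ℝ G p u)] at h2'
    linarith
  set P : ℝ × ℝ := (Z₁ z, Z₂ z) with hP
  have hZ : HasFDerivAt (fun z => (Z₁ z, Z₂ z)) ((frm b₁ b₂).prod (frm c₁ c₂)) z := h1.prodMk h2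
  have hGZ : HasFDerivAt (fun z => G (Z₁ z, Z₂ z))
      ((fderiv ℝ G P).comp ((frm b₁ b₂).prod (frm c₁ c₂))) z :=
    (hGd P).comp z hZ
  have hF : HasFDerivAt (fun z => a z • G (Z₁ z, Z₂ z))
      (a z • (fderiv ℝ G P).comp ((frm b₁ b₂).prod (frm c₁ c₂))
        + (frm a₁ a₂).smulRight (G (Z₁ z, Z₂ z))) z := ha.smul hGZ
  rw [hF.fderiv]
  have hfrm : ∀ (α β : ℝ) (u : ℝ × ℝ), frm α β u = α * u.1 + β * u.2 := by
    intro α β u
    simp [frm]
  simp only [add_apply, smul_apply,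
    ContinuousLinearMap.comp_apply, ContinuousLinearMap.prod_apply,
    ContinuousLinearMap.smulRight_apply, hfrm]
  have ho1 : ∀ u, inner ℝ (G (Z₁ z, Z₂ z)) (fderiv ℝ G P u) = 0 := fun u => horth P u
  have ho2 : ∀ u, inner ℝ (fderiv ℝ G P u) (G (Z₁ z, Z₂ z)) = 0 := by
    intro u
    rw [real_inner_comm]; exact horth P u
  simp only [inner_add_left, inner_add_right, real_inner_smul_left, real_inner_smul_right, hI,
    ho1, ho2, real_inner_self_eq_norm_sq, hn]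
  ring

end Vale.Agent.P205T
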