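import Vale.Agent.P205T.CurlBase

/-! # P205T : the curvature identity (star) -/

namespace Vale.Agent.P205T

open scoped ContDiff

variable {e : ℝ} {ρ ψ : ℝ × ℝ → ℝ}

private lemma cd_diff {u : ℝ × ℝ → ℝ} (h : ContDiff ℝ ∞ u) (z : ℝ × ℝ) :
    DifferentiableAt ℝ u z :=
  (h.differentiable (by simp)) z

private lemma dX_muF_raw (hρ : ContDiff ℝ ∞ ρ) (hψ : ContDiff ℝ ∞ ψ) (hq : ∀ z, 0 < qq ψ z)
    (hs : ∀ z, e * (ta1 ρ ψ z ^ 2 + ta2 ρ ψ z ^ 2) < 1) (z : ℝ × ℝ) :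
    dX (muF e ρ ψ) z =
      (e * (2 * qq ψ z * dX ψ z) * (sS e ρ ψ z * (1 + sS e ρ ψ z))
        - e * qq ψ z ^ 2 * (dX (sS e ρ ψ) z * (1 + sS e ρ ψ z)
            + sS e ρ ψ z * dX (sS e ρ ψ) z)) / (sS e ρ ψ z * (1 + sS e ρ ψ z)) ^ 2 := by
  have hdq := cd_diff (contDiff_qq hψ) z
  have hds := cd_diff (contDiff_sS hρ hψ hq hs) z
  have hsp := sS_pos hq hs z
  have hc : DifferentiableAt ℝ (fun _ : ℝ × ℝ => e) z := differentiableAt_const _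
  have h1 : DifferentiableAt ℝ (fun _ : ℝ × ℝ => (1 : ℝ)) z := differentiableAt_const _
  have hq2 : DifferentiableAt ℝ (fun w => qq ψ w ^ 2) z := hdq.pow 2
  have h1s : DifferentiableAt ℝ (fun w => 1 + sS e ρ ψ w) z := h1.add hds
  have hnum : DifferentiableAt ℝ (fun w => e * qq ψ w ^ 2) z := hc.mul hq2
  have hden : DifferentiableAt ℝ (fun w => sS e ρ ψ w * (1 + sS e ρ ψ w)) z := hds.mul h1s
  have h : muF e ρ ψ = fun w => (e * qq ψ w ^ 2) / (sS e ρ ψ w * (1 + sS e ρ ψ w)) := rfl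
  rw [h, dX_div hnum hden (by positivity), dX_mul hc hq2, dX_mul hds h1s,
    dX_add h1 hds, dX_pow hdq, dX_const, dX_const, dX_qq hψ]
  congr 1
  simp

private lemma dY_muF_raw (hρ : ContDiff ℝ ∞ ρ) (hψ : ContDiff ℝ ∞ ψ) (hq : ∀ z, 0 < qq ψ z)
    (hs : ∀ z, e * (ta1 ρ ψ z ^ 2 + ta2 ρ ψ z ^ 2) < 1) (z : ℝ × ℝ) :
    dY (muF e ρ ψ) z =
      (e * (2 * qq ψ z * dY ψ z) * (sS e ρ ψ z * (1 + sS e ρ ψ z))
        - e * qq ψ z ^ 2 * (dY (sS e ρ ψ) z * (1 + sS e ρ ψ z)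
            + sS e ρ ψ z * dY (sS e ρ ψ) z)) / (sS e ρ ψ z * (1 + sS e ρ ψ z)) ^ 2 := by
  have hdq := cd_diff (contDiff_qq hψ) z
  have hds := cd_diff (contDiff_sS hρ hψ hq hs) z
  have hsp := sS_pos hq hs z
  have hc : DifferentiableAt ℝ (fun _ : ℝ × ℝ => e) z := differentiableAt_const _
  have h1 : DifferentiableAt ℝ (fun _ : ℝ × ℝ => (1 : ℝ)) z := differentiableAt_const _
  have hq2 : DifferentiableAt ℝ (fun w => qq ψ w ^ 2) z := hdq.pow 2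
  have h1s : DifferentiableAt ℝ (fun w => 1 + sS e ρ ψ w) z := h1.add hds
  have hnum : DifferentiableAt ℝ (fun w => e * qq ψ w ^ 2) z := hc.mul hq2
  have hden : DifferentiableAt ℝ (fun w => sS e ρ ψ w * (1 + sS e ρ ψ w)) z := hds.mul h1s
  have h : muF e ρ ψ = fun w => (e * qq ψ w ^ 2) / (sS e ρ ψ w * (1 + sS e ρ ψ w)) := rfl
  rw [h, dY_div hnum hden (by positivity), dY_mul hc hq2, dY_mul hds h1s,
    dY_add h1 hds, dY_pow hdq, dY_const, dY_const, dY_qq hψ]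
  congr 1
  simp

private lemma dX_upY_raw (hρ : ContDiff ℝ ∞ ρ) (hψ : ContDiff ℝ ∞ ψ) (hq : ∀ z, 0 < qq ψ z)
    (hs : ∀ z, e * (ta1 ρ ψ z ^ 2 + ta2 ρ ψ z ^ 2) < 1) (z : ℝ × ℝ) :
    dX (upY e ρ ψ) z =
      (-(dX (dX ψ) z) * (qq ψ z * sS e ρ ψ z)
          - -(dX ψ z) * (dX ψ z * sS e ρ ψ z + qq ψ z * dX (sS e ρ ψ) z))
          / (qq ψ z * sS e ρ ψ z) ^ 2
        + (dX (muF e ρ ψ) z * (tP ρ ψ z * t22 ρ ψ z - tR ρ ψ z * t12 ρ ψ z)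
          + muF e ρ ψ z * ((t11 ρ ψ z * t22 ρ ψ z + tP ρ ψ z * dY (t12 ρ ψ) z)
              - (t12 ρ ψ z * t12 ρ ψ z + tR ρ ψ z * dX (t12 ρ ψ) z))) := by
  have hdq := cd_diff (contDiff_qq hψ) z
  have hds := cd_diff (contDiff_sS hρ hψ hq hs) z
  have hdm := cd_diff (contDiff_muF hρ hψ hq hs) z
  have hdP := cd_diff (contDiff_tP hρ hψ hq) z
  have hdR := cd_diff (contDiff_tR hρ hψ hq) z
  have hd12 := cd_diff (contDiff_t12 hρ hψ hq) z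
  have hd22 := cd_diff (contDiff_t22 hρ hψ hq) z
  have hdx := cd_diff (contDiff_dX hψ) z
  have hsp := sS_pos hq hs z
  have hqp := hq z
  have hnx : DifferentiableAt ℝ (fun w => -(dX ψ w)) z := hdx.neg
  have hqs : DifferentiableAt ℝ (fun w => qq ψ w * sS e ρ ψ w) z := hdq.mul hds
  have hP22 : DifferentiableAt ℝ (fun w => tP ρ ψ w * t22 ρ ψ w) z := hdP.mul hd22
  have hR12 : DifferentiableAt ℝ (fun w => tR ρ ψ w * t12 ρ ψ w) z := hdR.mul hd12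
  have hsub : DifferentiableAt ℝ (fun w => tP ρ ψ w * t22 ρ ψ w - tR ρ ψ w * t12 ρ ψ w) z :=
    hP22.sub hR12
  have hfst : DifferentiableAt ℝ (fun w => -(dX ψ w) / (qq ψ w * sS e ρ ψ w)) z :=
    (((contDiff_dX hψ).neg.div ((contDiff_qq hψ).mul (contDiff_sS hρ hψ hq hs))
      (fun w => (mul_pos (hq w) (sS_pos hq hs w)).ne')).differentiable (by simp)) z
  have hsnd : DifferentiableAt ℝ
      (fun w => muF e ρ ψ w * (tP ρ ψ w * t22 ρ ψ w - tR ρ ψ w * t12 ρ ψ w)) z := hdm.mul hsub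
  have h : upY e ρ ψ = fun w => -(dX ψ w) / (qq ψ w * sS e ρ ψ w)
      + muF e ρ ψ w * (tP ρ ψ w * t22 ρ ψ w - tR ρ ψ w * t12 ρ ψ w) := rfl
  rw [h, dX_add hfst hsnd, dX_div hnx hqs (mul_pos hqp hsp).ne', dX_mul hdm hsub, dX_sub hP22 hR12,
    dX_mul hdP hd22, dX_mul hdR hd12, dX_mul hdq hds, dX_neg, dX_qq hψ, dX_tP hρ hψ hq,
    dX_tR hρ hψ hq, dX_t22 hρ hψ hq]

private lemma dY_upX_raw (hρ : ContDiff ℝ ∞ ρ) (hψ : ContDiff ℝ ∞ ψ) (hq : ∀ z, 0 < qq ψ z)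
    (hs : ∀ z, e * (ta1 ρ ψ z ^ 2 + ta2 ρ ψ z ^ 2) < 1) (z : ℝ × ℝ) :
    dY (upX e ρ ψ) z =
      (dY (dY ψ) z * (qq ψ z * sS e ρ ψ z)
          - dY ψ z * (dY ψ z * sS e ρ ψ z + qq ψ z * dY (sS e ρ ψ) z))
          / (qq ψ z * sS e ρ ψ z) ^ 2
        + (dY (muF e ρ ψ) z * (tP ρ ψ z * t12 ρ ψ z - tR ρ ψ z * t11 ρ ψ z)
          + muF e ρ ψ z * ((t12 ρ ψ z * t12 ρ ψ z + tP ρ ψ z * dY (t12 ρ ψ) z)
              - (t22 ρ ψ z * t11 ρ ψ z + tR ρ ψ z * dX (t12 ρ ψ) z))) := by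
  have hdq := cd_diff (contDiff_qq hψ) z
  have hds := cd_diff (contDiff_sS hρ hψ hq hs) z
  have hdm := cd_diff (contDiff_muF hρ hψ hq hs) z
  have hdP := cd_diff (contDiff_tP hρ hψ hq) z
  have hdR := cd_diff (contDiff_tR hρ hψ hq) z
  have hd12 := cd_diff (contDiff_t12 hρ hψ hq) z
  have hd11 := cd_diff (contDiff_t11 hρ hψ hq) z
  have hdy := cd_diff (contDiff_dY hψ) z
  have hsp := sS_pos hq hs z
  have hqp := hq z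
  have hqs : DifferentiableAt ℝ (fun w => qq ψ w * sS e ρ ψ w) z := hdq.mul hds
  have hP12 : DifferentiableAt ℝ (fun w => tP ρ ψ w * t12 ρ ψ w) z := hdP.mul hd12
  have hR11 : DifferentiableAt ℝ (fun w => tR ρ ψ w * t11 ρ ψ w) z := hdR.mul hd11
  have hsub : DifferentiableAt ℝ (fun w => tP ρ ψ w * t12 ρ ψ w - tR ρ ψ w * t11 ρ ψ w) z :=
    hP12.sub hR11
  have hfst : DifferentiableAt ℝ (fun w => dY ψ w / (qq ψ w * sS e ρ ψ w)) z :=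
    (((contDiff_dY hψ).div ((contDiff_qq hψ).mul (contDiff_sS hρ hψ hq hs))
      (fun w => (mul_pos (hq w) (sS_pos hq hs w)).ne')).differentiable (by simp)) z
  have hsnd : DifferentiableAt ℝ
      (fun w => muF e ρ ψ w * (tP ρ ψ w * t12 ρ ψ w - tR ρ ψ w * t11 ρ ψ w)) z := hdm.mul hsub
  have h : upX e ρ ψ = fun w => dY ψ w / (qq ψ w * sS e ρ ψ w)
      + muF e ρ ψ w * (tP ρ ψ w * t12 ρ ψ w - tR ρ ψ w * t11 ρ ψ w) := rfl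
  rw [h, dY_add hfst hsnd, dY_div hdy hqs (mul_pos hqp hsp).ne', dY_mul hdm hsub, dY_sub hP12 hR11,
    dY_mul hdP hd12, dY_mul hdR hd11, dY_mul hdq hds, dY_qq hψ, dY_tP hρ hψ hq,
    dY_tR hρ hψ hq, dY_t11 hρ hψ hq]

private lemma mux_simpl (e q s P R T X : ℝ) (hs : 0 < s)
    (hs2 : s ^ 2 = 1 - e * q ^ 2 * (P ^ 2 + R ^ 2)) :
    (e * (2 * q * X) * (s * (1 + s))
        - e * q ^ 2 * ((-(e * q * (X * (P ^ 2 + R ^ 2) + q * T)) / s) * (1 + s)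
            + s * (-(e * q * (X * (P ^ 2 + R ^ 2) + q * T)) / s))) / (s * (1 + s)) ^ 2
      = e * q * X / s ^ 3 + e ^ 2 * q ^ 4 * (1 + 2 * s) * T / (s ^ 3 * (1 + s) ^ 2) := by
  have h1 : (1 + s) ≠ 0 := by positivity
  field_simp
  grind

private lemma curl_alg (e q s P R a b c X Y Xx Yy t3x t3y : ℝ) (hq : 0 < q) (hs : 0 < s)
    (hs2 : s ^ 2 = 1 - e * q ^ 2 * (P ^ 2 + R ^ 2)) :
    ((-Xx * (q * s) - -X * (X * s + q * (-(e * q * (X * (P ^ 2 + R ^ 2) + q * (P * a + R * b))) / s)))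
          / (q * s) ^ 2
        + ((e * q * X / s ^ 3 + e ^ 2 * q ^ 4 * (1 + 2 * s) * (P * a + R * b) / (s ^ 3 * (1 + s) ^ 2))
              * (P * c - R * b)
          + e * q ^ 2 / (s * (1 + s)) * ((a * c + P * t3y) - (b * b + R * t3x))))
      - ((Yy * (q * s) - Y * (Y * s + q * (-(e * q * (Y * (P ^ 2 + R ^ 2) + q * (P * b + R * c))) / s)))
          / (q * s) ^ 2
        + ((e * q * Y / s ^ 3 + e ^ 2 * q ^ 4 * (1 + 2 * s) * (P * b + R * c) / (s ^ 3 * (1 + s) ^ 2))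
              * (P * b - R * a)
          + e * q ^ 2 / (s * (1 + s)) * ((b * b + P * t3y) - (c * a + R * t3x))))
      = -((q * (Xx + Yy) - (X ^ 2 + Y ^ 2)) * (1 - e * q ^ 2 * (P ^ 2 + R ^ 2))
          - e * ((q ^ 2 * a + q * (X * P - Y * R)) * (q ^ 2 * c - q * (X * P - Y * R))
              - (q ^ 2 * b + q * (X * R + Y * P)) ^ 2)) / (q ^ 2 * s ^ 3) := by
  have h1 : (1 + s) ≠ 0 := by positivity
  field_simp
  grind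

/-- `pde` in terms of the derivatives of `t`. -/
private lemma pde_eq (hq : ∀ z, 0 < qq ψ z) (z : ℝ × ℝ) :
    pde e ρ ψ z =
      (qq ψ z * (dX (dX ψ) z + dY (dY ψ) z) - (dX ψ z ^ 2 + dY ψ z ^ 2))
          * (1 - e * qq ψ z ^ 2 * (tP ρ ψ z ^ 2 + tR ρ ψ z ^ 2))
        - e * ((qq ψ z ^ 2 * t11 ρ ψ z + qq ψ z * (dX ψ z * tP ρ ψ z - dY ψ z * tR ρ ψ z))
              * (qq ψ z ^ 2 * t22 ρ ψ z - qq ψ z * (dX ψ z * tP ρ ψ z - dY ψ z * tR ρ ψ z))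
            - (qq ψ z ^ 2 * t12 ρ ψ z
                + qq ψ z * (dX ψ z * tR ρ ψ z + dY ψ z * tP ρ ψ z)) ^ 2) := by
  have hqz : qq ψ z ≠ 0 := (hq z).ne'
  unfold pde bB ta1 ta2 h11 h12 h22 trT tP tR t11 t12 t22
  field_simp
  ring

/-- (star): `dΥ = - pde / (q² s³) dx ∧ dy`. -/
theorem curl_up (hρ : ContDiff ℝ ∞ ρ) (hψ : ContDiff ℝ ∞ ψ) (hq : ∀ z, 0 < qq ψ z)
    (hs : ∀ z, e * (ta1 ρ ψ z ^ 2 + ta2 ρ ψ z ^ 2) < 1) (z : ℝ × ℝ) :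
    dX (upY e ρ ψ) z - dY (upX e ρ ψ) z =
      -(pde e ρ ψ z) / (qq ψ z ^ 2 * sS e ρ ψ z ^ 3) := by
  have hsp := sS_pos hq hs z
  have hs2 := sS_sq hq hs z
  have hmx : dX (muF e ρ ψ) z = e * qq ψ z * dX ψ z / sS e ρ ψ z ^ 3
      + e ^ 2 * qq ψ z ^ 4 * (1 + 2 * sS e ρ ψ z)
          * (tP ρ ψ z * t11 ρ ψ z + tR ρ ψ z * t12 ρ ψ z)
          / (sS e ρ ψ z ^ 3 * (1 + sS e ρ ψ z) ^ 2) := by
    rw [dX_muF_raw hρ hψ hq hs z, dX_sS hρ hψ hq hs z]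
    exact mux_simpl e (qq ψ z) (sS e ρ ψ z) (tP ρ ψ z) (tR ρ ψ z)
      (tP ρ ψ z * t11 ρ ψ z + tR ρ ψ z * t12 ρ ψ z) (dX ψ z) hsp hs2
  have hmy : dY (muF e ρ ψ) z = e * qq ψ z * dY ψ z / sS e ρ ψ z ^ 3
      + e ^ 2 * qq ψ z ^ 4 * (1 + 2 * sS e ρ ψ z)
          * (tP ρ ψ z * t12 ρ ψ z + tR ρ ψ z * t22 ρ ψ z)
          / (sS e ρ ψ z ^ 3 * (1 + sS e ρ ψ z) ^ 2) := by
    rw [dY_muF_raw hρ hψ hq hs z, dY_sS hρ hψ hq hs z]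
    exact mux_simpl e (qq ψ z) (sS e ρ ψ z) (tP ρ ψ z) (tR ρ ψ z)
      (tP ρ ψ z * t12 ρ ψ z + tR ρ ψ z * t22 ρ ψ z) (dY ψ z) hsp hs2
  have hmu : muF e ρ ψ z = e * qq ψ z ^ 2 / (sS e ρ ψ z * (1 + sS e ρ ψ z)) := rfl
  rw [dX_upY_raw hρ hψ hq hs z, dY_upX_raw hρ hψ hq hs z, hmx, hmy, dX_sS hρ hψ hq hs z,
    dY_sS hρ hψ hq hs z, pde_eq hq z, hmu]
  exact curl_alg e (qq ψ z) (sS e ρ ψ z) (tP ρ ψ z) (tR ρ ψ z) (t11 ρ ψ z) (t12 ρ ψ z)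
    (t22 ρ ψ z) (dX ψ z) (dY ψ z) (dX (dX ψ) z) (dY (dY ψ) z) (dX (t12 ρ ψ) z)
    (dY (t12 ρ ψ) z) (hq z) hsp hs2

end Vale.Agent.P205T
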