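import Mathlib

/-!
# P205T : every metric `exp (2 ρ) (dx² + dy²)` on every torus `ℝ² / Λ` immerses in `ℝ⁴`

Common definitions.  See `PROOF.md` in this folder for the mathematics.
-/

namespace Vale.Agent.P205T

open scoped ContDiff

/-- `∂ u / ∂ x`. -/
noncomputable def dX (u : ℝ × ℝ → ℝ) (z : ℝ × ℝ) : ℝ := fderiv ℝ u z (1, 0)

/-- `∂ u / ∂ y`. -/
noncomputable def dY (u : ℝ × ℝ → ℝ) (z : ℝ × ℝ) : ℝ := fderiv ℝ u z (0, 1)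

/-- The covector `a dx + b dy`. -/
noncomputable def frm (a b : ℝ) : ℝ × ℝ →L[ℝ] ℝ :=
  a • ContinuousLinearMap.fst ℝ ℝ ℝ + b • ContinuousLinearMap.snd ℝ ℝ ℝ

/-- `u` is invariant under the translations by `ω₁` and `ω₂`. -/
def Per (ω₁ ω₂ : ℝ × ℝ) {X : Type*} (u : ℝ × ℝ → X) : Prop :=
  (∀ z, u (z + ω₁) = u z) ∧ (∀ z, u (z + ω₂) = u z)

section Jets

variable (e : ℝ) (ρ ψ : ℝ × ℝ → ℝ) (z : ℝ × ℝ)

/-- `q = 1 + ψ`. -/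
noncomputable def qq : ℝ := 1 + ψ z

/-- `t_x`, where `t = ρ + log q`. -/
noncomputable def tP : ℝ := dX ρ z + dX ψ z / qq ψ z

/-- `t_y`. -/
noncomputable def tR : ℝ := dY ρ z + dY ψ z / qq ψ z

/-- `t_xx`. -/
noncomputable def t11 : ℝ := dX (dX ρ) z + dX (dX ψ) z / qq ψ z - dX ψ z ^ 2 / qq ψ z ^ 2

/-- `t_xy`. -/
noncomputable def t12 : ℝ := dY (dX ρ) z + dY (dX ψ) z / qq ψ z - dX ψ z * dY ψ z / qq ψ z ^ 2

/-- `t_yy`. -/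
noncomputable def t22 : ℝ := dY (dY ρ) z + dY (dY ψ) z / qq ψ z - dY ψ z ^ 2 / qq ψ z ^ 2

/-- `s = sqrt (1 - e q² |∇ t|²)`. -/
noncomputable def sS : ℝ := Real.sqrt (1 - e * qq ψ z ^ 2 * (tP ρ ψ z ^ 2 + tR ρ ψ z ^ 2))

/-- `μ = e q² / (s (1 + s))`. -/
noncomputable def muF : ℝ := e * qq ψ z ^ 2 / (sS e ρ ψ z * (1 + sS e ρ ψ z))

/-- `κ = e q / (1 + s)`. -/
noncomputable def kaF : ℝ := e * qq ψ z / (1 + sS e ρ ψ z)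

/-- `x`-component of the connection form `Υ`. -/
noncomputable def upX : ℝ :=
  dY ψ z / (qq ψ z * sS e ρ ψ z) +
    muF e ρ ψ z * (tP ρ ψ z * t12 ρ ψ z - tR ρ ψ z * t11 ρ ψ z)

/-- `y`-component of the connection form `Υ`. -/
noncomputable def upY : ℝ :=
  -(dX ψ z) / (qq ψ z * sS e ρ ψ z) +
    muF e ρ ψ z * (tP ρ ψ z * t22 ρ ψ z - tR ρ ψ z * t12 ρ ψ z)

/-- The symmetric coframe matrix `[[eA, eB], [eB, eC]] = (1/q) I - κ ∇t ∇tᵀ`. -/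
noncomputable def eA : ℝ := 1 / qq ψ z - kaF e ρ ψ z * tP ρ ψ z ^ 2

noncomputable def eB : ℝ := -(kaF e ρ ψ z * tP ρ ψ z * tR ρ ψ z)

noncomputable def eC : ℝ := 1 / qq ψ z - kaF e ρ ψ z * tR ρ ψ z ^ 2

/-- `τ₁ = q ρ_x + ψ_x`. -/
noncomputable def ta1 : ℝ := qq ψ z * dX ρ z + dX ψ z

/-- `τ₂ = q ρ_y + ψ_y`. -/
noncomputable def ta2 : ℝ := qq ψ z * dY ρ z + dY ψ z

/-- `B = q Δψ - |∇ψ|²`. -/
noncomputable def bB : ℝ :=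
  qq ψ z * (dX (dX ψ) z + dY (dY ψ) z) - (dX ψ z ^ 2 + dY ψ z ^ 2)

/-- the trace term `q ∇ψ·∇ρ + |∇ψ|²`. -/
noncomputable def trT : ℝ :=
  qq ψ z * (dX ψ z * dX ρ z + dY ψ z * dY ρ z) + (dX ψ z ^ 2 + dY ψ z ^ 2)

noncomputable def h11 : ℝ :=
  qq ψ z ^ 2 * dX (dX ρ) z + qq ψ z * dX (dX ψ) z + dX ψ z ^ 2 +
    2 * qq ψ z * (dX ψ z * dX ρ z) - trT ρ ψ z

noncomputable def h12 : ℝ :=
  qq ψ z ^ 2 * dY (dX ρ) z + qq ψ z * dY (dX ψ) z + dX ψ z * dY ψ z +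
    qq ψ z * (dX ψ z * dY ρ z + dY ψ z * dX ρ z)

noncomputable def h22 : ℝ :=
  qq ψ z ^ 2 * dY (dY ρ) z + qq ψ z * dY (dY ψ) z + dY ψ z ^ 2 +
    2 * qq ψ z * (dY ψ z * dY ρ z) - trT ρ ψ z

/-- The polynomial form of the flatness equation. -/
noncomputable def pde : ℝ :=
  bB ψ z * (1 - e * (ta1 ρ ψ z ^ 2 + ta2 ρ ψ z ^ 2)) -
    e * (h11 ρ ψ z * h22 ρ ψ z - h12 ρ ψ z ^ 2)

end Jets

/-- The radial primitive of the 1-form `P dx + Q dy`. -/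
noncomputable def prim (P Q : ℝ × ℝ → ℝ) (z : ℝ × ℝ) : ℝ :=
  ∫ t in (0 : ℝ)..1, (P (t • z) * z.1 + Q (t • z) * z.2)

section Dev

variable (e : ℝ) (ρ ψ θ : ℝ × ℝ → ℝ) (z : ℝ × ℝ)

/-- `dx`-coefficient of `cos θ E¹ - sin θ E²`. -/
noncomputable def xiX1 : ℝ := Real.cos (θ z) * eA e ρ ψ z - Real.sin (θ z) * eB e ρ ψ z

/-- `dy`-coefficient of `cos θ E¹ - sin θ E²`. -/
noncomputable def xiX2 : ℝ := Real.cos (θ z) * eB e ρ ψ z - Real.sin (θ z) * eC e ρ ψ z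

/-- `dx`-coefficient of `sin θ E¹ + cos θ E²`. -/
noncomputable def xiY1 : ℝ := Real.sin (θ z) * eA e ρ ψ z + Real.cos (θ z) * eB e ρ ψ z

/-- `dy`-coefficient of `sin θ E¹ + cos θ E²`. -/
noncomputable def xiY2 : ℝ := Real.sin (θ z) * eB e ρ ψ z + Real.cos (θ z) * eC e ρ ψ z

end Dev

/-- The angle function: primitive of `Υ`. -/
noncomputable def thF (e : ℝ) (ρ ψ : ℝ × ℝ → ℝ) : ℝ × ℝ → ℝ := prim (upX e ρ ψ) (upY e ρ ψ)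

/-- First coordinate of the developing map. -/
noncomputable def devX (e : ℝ) (ρ ψ : ℝ × ℝ → ℝ) : ℝ × ℝ → ℝ :=
  prim (xiX1 e ρ ψ (thF e ρ ψ)) (xiX2 e ρ ψ (thF e ρ ψ))

/-- Second coordinate of the developing map. -/
noncomputable def devY (e : ℝ) (ρ ψ : ℝ × ℝ → ℝ) : ℝ × ℝ → ℝ :=
  prim (xiY1 e ρ ψ (thF e ρ ψ)) (xiY2 e ρ ψ (thF e ρ ψ))

/-- `1 + |k₁| + |k₂|`. -/
noncomputable def nrm (k : ℤ × ℤ) : ℝ := 1 + |(k.1 : ℝ)| + |(k.2 : ℝ)|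

/-- Rapidly decreasing families of coefficients. -/
def RD (c : ℤ × ℤ → ℂ) : Prop := ∀ m : ℕ, Summable fun k => ‖c k‖ * nrm k ^ m

/-- Hermitian symmetry (coefficients of a real function). -/
def Herm (c : ℤ × ℤ → ℂ) : Prop := ∀ k, c (-k) = (starRingEnd ℂ) (c k)

/-- The frequencies of a lattice: two additive maps `α, β : ℤ² → ℝ`; the characters are
`exp (i (α k x + β k y))`. -/
structure Freq where
  α : ℤ × ℤ →+ ℝ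
  β : ℤ × ℤ →+ ℝ
  C : ℝ
  hα : ∀ k, |α k| ≤ C * nrm k
  hβ : ∀ k, |β k| ≤ C * nrm k
  m : ℝ
  hm : 0 < m
  ell : ∀ k, k ≠ 0 → m ≤ α k ^ 2 + β k ^ 2

/-- The character `exp (i (α k x + β k y))`. -/
noncomputable def chr (Φ : Freq) (k : ℤ × ℤ) (z : ℝ × ℝ) : ℂ :=
  Complex.exp (Complex.I * ((Φ.α k * z.1 + Φ.β k * z.2 : ℝ) : ℂ))

/-- The sum of the trigonometric series with coefficients `c`. -/
noncomputable def evs (Φ : Freq) (c : ℤ × ℤ → ℂ) (z : ℝ × ℝ) : ℂ := ∑' k, c k * chr Φ k z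

/-- Its real part. -/
noncomputable def evr (Φ : Freq) (c : ℤ × ℤ → ℂ) (z : ℝ × ℝ) : ℝ := (evs Φ c z).re

/-- Coefficients of the `x`-derivative. -/
noncomputable def Da (Φ : Freq) (c : ℤ × ℤ → ℂ) (k : ℤ × ℤ) : ℂ := Complex.I * (Φ.α k : ℂ) * c k

/-- Coefficients of the `y`-derivative. -/
noncomputable def Db (Φ : Freq) (c : ℤ × ℤ → ℂ) (k : ℤ × ℤ) : ℂ := Complex.I * (Φ.β k : ℂ) * c k

/-- An admissible weight. -/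
structure Wt where
  W : ℤ × ℤ → ℝ
  one_le : ∀ k, 1 ≤ W k
  submul : ∀ k l, W (k + l) ≤ W k * W l
  even : ∀ k, W (-k) = W k
  superpoly : ∀ m : ℕ, ∃ C : ℝ, ∀ k, nrm k ^ m ≤ C * W k

end Vale.Agent.P205T
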