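import Vale.Agent.P205T.Basic

/-! # P205T : the integral of `dΥ` over a period cell vanishes -/

namespace Vale.Agent.P205T

open scoped ContDiff

private lemma fderiv_apply_eq (u : ℝ × ℝ → ℝ) (z w : ℝ × ℝ) :
    fderiv ℝ u z w = w.1 * dX u z + w.2 * dY u z := by
  have hw : w = w.1 • ((1 : ℝ), (0 : ℝ)) + w.2 • ((0 : ℝ), (1 : ℝ)) := by
    ext <;> simp
  conv_lhs => rw [hw]
  rw [map_add, map_smul, map_smul]
  simp [dX, dY]

/-- If `P dx + Q dy` is smooth and periodic and its exterior derivative is `c κ dx ∧ dy` with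
`κ > 0` continuous, then `c = 0`.  (Pull back by `(u, v) ↦ u ω₁ + v ω₂`, integrate over the unit
square with `MeasureTheory.integral2_divergence_prod_of_hasFDerivAt_off_countable` or with two
applications of the fundamental theorem of calculus and Fubini; the boundary terms cancel.) -/
theorem const_eq_zero_of_curl {ω₁ ω₂ : ℝ × ℝ} (hω : ω₁.1 * ω₂.2 - ω₁.2 * ω₂.1 ≠ 0)
    {P Q κ : ℝ × ℝ → ℝ} (hP : ContDiff ℝ ∞ P) (hQ : ContDiff ℝ ∞ Q)
    (pP : Per ω₁ ω₂ P) (pQ : Per ω₁ ω₂ Q) (hκ : Continuous κ) (hpos : ∀ z, 0 < κ z) {c : ℝ}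
    (h : ∀ z, dX Q z - dY P z = c * κ z) : c = 0 := by
  classical
  obtain ⟨L, hLap⟩ : ∃ L : ℝ × ℝ →L[ℝ] ℝ × ℝ, ∀ p : ℝ × ℝ, L p = p.1 • ω₁ + p.2 • ω₂ :=
    ⟨(ContinuousLinearMap.fst ℝ ℝ ℝ).smulRight ω₁ + (ContinuousLinearMap.snd ℝ ℝ ℝ).smulRight ω₂,
      fun p => by simp⟩
  have dP : ∀ z, HasFDerivAt P (fderiv ℝ P z) z := fun z =>
    ((hP.differentiable (by simp)) z).hasFDerivAt
  have dQ : ∀ z, HasFDerivAt Q (fderiv ℝ Q z) z := fun z =>
    ((hQ.differentiable (by simp)) z).hasFDerivAt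
  have hL10 : L (1, 0) = ω₁ := by rw [hLap]; simp
  have hL01 : L (0, 1) = ω₂ := by rw [hLap]; simp
  have hf : ∀ p, HasFDerivAt (fun p => P (L p) * ω₂.1 + Q (L p) * ω₂.2)
      (ω₂.1 • ((fderiv ℝ P (L p)).comp L) + ω₂.2 • ((fderiv ℝ Q (L p)).comp L)) p := by
    intro p
    have h1 : HasFDerivAt (fun p => P (L p)) ((fderiv ℝ P (L p)).comp L) p :=
      (dP (L p)).comp p L.hasFDerivAt
    have h2 : HasFDerivAt (fun p => Q (L p)) ((fderiv ℝ Q (L p)).comp L) p :=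
      (dQ (L p)).comp p L.hasFDerivAt
    exact (h1.mul_const ω₂.1).add (h2.mul_const ω₂.2)
  have hg : ∀ p, HasFDerivAt (fun p => -(P (L p) * ω₁.1 + Q (L p) * ω₁.2))
      (-(ω₁.1 • ((fderiv ℝ P (L p)).comp L) + ω₁.2 • ((fderiv ℝ Q (L p)).comp L))) p := by
    intro p
    have h1 : HasFDerivAt (fun p => P (L p)) ((fderiv ℝ P (L p)).comp L) p :=
      (dP (L p)).comp p L.hasFDerivAt
    have h2 : HasFDerivAt (fun p => Q (L p)) ((fderiv ℝ Q (L p)).comp L) p :=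
      (dQ (L p)).comp p L.hasFDerivAt
    exact ((h1.mul_const ω₁.1).add (h2.mul_const ω₁.2)).neg
  have hint : ∀ p : ℝ × ℝ,
      (ω₂.1 • ((fderiv ℝ P (L p)).comp L) + ω₂.2 • ((fderiv ℝ Q (L p)).comp L)) (1, 0)
        + (-(ω₁.1 • ((fderiv ℝ P (L p)).comp L) + ω₁.2 • ((fderiv ℝ Q (L p)).comp L))) (0, 1)
      = (ω₁.1 * ω₂.2 - ω₁.2 * ω₂.1) * c * κ (L p) := by
    intro p
    simp only [ContinuousLinearMap.add_apply, ContinuousLinearMap.neg_apply,
      ContinuousLinearMap.smul_apply, ContinuousLinearMap.comp_apply, hL10, hL01, smul_eq_mul]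
    rw [fderiv_apply_eq P, fderiv_apply_eq Q, fderiv_apply_eq P, fderiv_apply_eq Q]
    have := h (L p)
    linear_combination (ω₁.1 * ω₂.2 - ω₁.2 * ω₂.1) * this
  have hcP : Continuous (fun p => P (L p)) := hP.continuous.comp L.continuous
  have hcQ : Continuous (fun p => Q (L p)) := hQ.continuous.comp L.continuous
  have hcκ : Continuous (fun p => κ (L p)) := hκ.comp L.continuous
  have key := MeasureTheory.integral2_divergence_prod_of_hasFDerivAt_off_countable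
    (fun p => P (L p) * ω₂.1 + Q (L p) * ω₂.2) (fun p => -(P (L p) * ω₁.1 + Q (L p) * ω₁.2))
    (fun p => ω₂.1 • ((fderiv ℝ P (L p)).comp L) + ω₂.2 • ((fderiv ℝ Q (L p)).comp L))
    (fun p => -(ω₁.1 • ((fderiv ℝ P (L p)).comp L) + ω₁.2 • ((fderiv ℝ Q (L p)).comp L)))
    0 0 1 1 ∅ Set.countable_empty
    ((hcP.mul continuous_const).add (hcQ.mul continuous_const)).continuousOn
    ((hcP.mul continuous_const).add (hcQ.mul continuous_const)).neg.continuousOn
    (fun x _ => hf x) (fun x _ => hg x)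
    (by
      simp only [hint]
      exact ((continuous_const.mul hcκ).continuousOn).integrableOn_compact
        (isCompact_uIcc.prod isCompact_uIcc))
  simp only [hint] at key
  -- the boundary terms cancel
  have e1 : ∀ x : ℝ, L (x, 1) = L (x, 0) + ω₂ := by
    intro x; rw [hLap, hLap]; simp
  have e2 : ∀ y : ℝ, L (1, y) = L (0, y) + ω₁ := by
    intro y; rw [hLap, hLap]; simp [add_comm]
  have b1 : ∀ x : ℝ, -(P (L (x, 1)) * ω₁.1 + Q (L (x, 1)) * ω₁.2)
      = -(P (L (x, 0)) * ω₁.1 + Q (L (x, 0)) * ω₁.2) := by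
    intro x; rw [e1, pP.2, pQ.2]
  have b2 : ∀ y : ℝ, P (L (1, y)) * ω₂.1 + Q (L (1, y)) * ω₂.2
      = P (L (0, y)) * ω₂.1 + Q (L (0, y)) * ω₂.2 := by
    intro y; rw [e2, pP.1, pQ.1]
  simp only [b1, b2] at key
  have key0 : (∫ x in (0 : ℝ)..1, ∫ y in (0 : ℝ)..1,
      (ω₁.1 * ω₂.2 - ω₁.2 * ω₂.1) * c * κ (L (x, y))) = 0 := by
    rw [key]; ring
  -- positivity of the integral of κ
  have hinner : Continuous (fun x : ℝ => ∫ y in (0 : ℝ)..1, κ (L (x, y))) := by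
    apply intervalIntegral.continuous_parametric_intervalIntegral_of_continuous'
    exact hcκ
  have hposI : 0 < ∫ x in (0 : ℝ)..1, ∫ y in (0 : ℝ)..1, κ (L (x, y)) := by
    apply intervalIntegral.intervalIntegral_pos_of_pos (hinner.intervalIntegrable 0 1) _ one_pos
    intro x
    apply intervalIntegral.intervalIntegral_pos_of_pos _ (fun y => hpos _) one_pos
    exact (hcκ.comp (Continuous.prodMk_right x)).intervalIntegrable 0 1
  have hfac : (∫ x in (0 : ℝ)..1, ∫ y in (0 : ℝ)..1,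
      (ω₁.1 * ω₂.2 - ω₁.2 * ω₂.1) * c * κ (L (x, y)))
      = (ω₁.1 * ω₂.2 - ω₁.2 * ω₂.1) * c * ∫ x in (0 : ℝ)..1, ∫ y in (0 : ℝ)..1, κ (L (x, y)) := by
    simp only [intervalIntegral.integral_const_mul]
  rw [hfac] at key0
  rcases mul_eq_zero.1 key0 with h1 | h1
  · rcases mul_eq_zero.1 h1 with h2 | h2
    · exact absurd h2 hω
    · exact h2
  · exact absurd h1 hposI.ne'

end Vale.Agent.P205T
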