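import Vale.Agent.P205T.Basic

/-! # P205T : the developing map of a flat torus has translational holonomy -/

namespace Vale.Agent.P205T

open scoped ContDiff

/-- A function on the plane with vanishing derivative is constant. -/
private lemma hol_const {f : ℝ × ℝ → ℝ} (h : ∀ z, HasFDerivAt f (0 : ℝ × ℝ →L[ℝ] ℝ) z)
    (z : ℝ × ℝ) : f z = f 0 :=
  is_const_of_fderiv_eq_zero (𝕜 := ℝ) (fun z => (h z).differentiableAt)
    (fun z => (h z).fderiv) z 0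

/-- The effect of one period on the developing map: a rotation followed by a translation. -/
private lemma hol_shift {w : ℝ × ℝ} {U₁ U₂ A B C θ X Y : ℝ × ℝ → ℝ}
    (pU₁ : ∀ z, U₁ (z + w) = U₁ z) (pU₂ : ∀ z, U₂ (z + w) = U₂ z)
    (pA : ∀ z, A (z + w) = A z) (pB : ∀ z, B (z + w) = B z) (pC : ∀ z, C (z + w) = C z)
    (hθ : ∀ z, HasFDerivAt θ (frm (U₁ z) (U₂ z)) z)
    (hX : ∀ z, HasFDerivAt X (frm (Real.cos (θ z) * A z - Real.sin (θ z) * B z)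
      (Real.cos (θ z) * B z - Real.sin (θ z) * C z)) z)
    (hY : ∀ z, HasFDerivAt Y (frm (Real.sin (θ z) * A z + Real.cos (θ z) * B z)
      (Real.sin (θ z) * B z + Real.cos (θ z) * C z)) z) :
    ∃ c p q : ℝ, (∀ z, X (z + w) = Real.cos c * X z - Real.sin c * Y z + p) ∧
      (∀ z, Y (z + w) = Real.sin c * X z + Real.cos c * Y z + q) := by
  have h1 : ∀ z, HasFDerivAt (fun z => θ (z + w) - θ z) (0 : ℝ × ℝ →L[ℝ] ℝ) z := by
    intro z
    have a := ((hasFDerivAt_comp_add_right w).2 (hθ (z + w))).sub (hθ z)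
    rw [pU₁, pU₂, sub_self] at a
    exact a
  have hc : ∀ z, θ (z + w) = θ z + (θ (0 + w) - θ 0) := by
    intro z
    have := hol_const h1 z
    linarith
  generalize θ (0 + w) - θ 0 = c at hc
  have h2 : ∀ z, HasFDerivAt (fun z => X (z + w) - (Real.cos c * X z - Real.sin c * Y z))
      (0 : ℝ × ℝ →L[ℝ] ℝ) z := by
    intro z
    have a := ((hasFDerivAt_comp_add_right w).2 (hX (z + w))).sub
      (((hX z).const_mul (Real.cos c)).sub ((hY z).const_mul (Real.sin c)))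
    have e : frm (Real.cos (θ (z + w)) * A (z + w) - Real.sin (θ (z + w)) * B (z + w))
        (Real.cos (θ (z + w)) * B (z + w) - Real.sin (θ (z + w)) * C (z + w)) -
      (Real.cos c • frm (Real.cos (θ z) * A z - Real.sin (θ z) * B z)
          (Real.cos (θ z) * B z - Real.sin (θ z) * C z) -
        Real.sin c • frm (Real.sin (θ z) * A z + Real.cos (θ z) * B z)
          (Real.sin (θ z) * B z + Real.cos (θ z) * C z)) = 0 := by
      apply ContinuousLinearMap.ext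
      intro v
      simp only [zero_apply, sub_apply, smul_apply, frm_apply, smul_eq_mul]
      rw [hc z, pA, pB, pC, Real.cos_add, Real.sin_add]
      ring
    rw [e] at a
    exact a
  have h3 : ∀ z, HasFDerivAt (fun z => Y (z + w) - (Real.sin c * X z + Real.cos c * Y z))
      (0 : ℝ × ℝ →L[ℝ] ℝ) z := by
    intro z
    have a := ((hasFDerivAt_comp_add_right w).2 (hY (z + w))).sub
      (((hX z).const_mul (Real.sin c)).add ((hY z).const_mul (Real.cos c)))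
    have e : frm (Real.sin (θ (z + w)) * A (z + w) + Real.cos (θ (z + w)) * B (z + w))
        (Real.sin (θ (z + w)) * B (z + w) + Real.cos (θ (z + w)) * C (z + w)) -
      (Real.sin c • frm (Real.cos (θ z) * A z - Real.sin (θ z) * B z)
          (Real.cos (θ z) * B z - Real.sin (θ z) * C z) +
        Real.cos c • frm (Real.sin (θ z) * A z + Real.cos (θ z) * B z)
          (Real.sin (θ z) * B z + Real.cos (θ z) * C z)) = 0 := by
      apply ContinuousLinearMap.ext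
      intro v
      simp only [zero_apply, sub_apply, add_apply, smul_apply, frm_apply, smul_eq_mul]
      rw [hc z, pA, pB, pC, Real.cos_add, Real.sin_add]
      ring
    rw [e] at a
    exact a
  refine ⟨c, X (0 + w) - (Real.cos c * X 0 - Real.sin c * Y 0),
    Y (0 + w) - (Real.sin c * X 0 + Real.cos c * Y 0), fun z => ?_, fun z => ?_⟩
  · have := hol_const h2 z
    linarith
  · have := hol_const h3 z
    linarith

/-- A continuous doubly periodic function has a global maximum. -/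
private lemma hol_max {ω₁ ω₂ : ℝ × ℝ} (hω : ω₁.1 * ω₂.2 - ω₁.2 * ω₂.1 ≠ 0) {N : ℝ × ℝ → ℝ}
    (hc : Continuous N) (h1 : ∀ z, N (z + ω₁) = N z) (h2 : ∀ z, N (z + ω₂) = N z) :
    ∃ z₀, ∀ z, N z ≤ N z₀ := by
  have hK : IsCompact (Set.Icc (0 : ℝ) 1 ×ˢ Set.Icc (0 : ℝ) 1) := isCompact_Icc.prod isCompact_Icc
  have hM : Continuous (fun st : ℝ × ℝ => N (st.1 • ω₁ + st.2 • ω₂)) := by
    apply hc.comp
    fun_prop
  obtain ⟨st₀, -, hst₀⟩ := hK.exists_isMaxOn ⟨(0, 0), by simp⟩ hM.continuousOn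
  refine ⟨st₀.1 • ω₁ + st₀.2 • ω₂, fun z => ?_⟩
  set D := ω₁.1 * ω₂.2 - ω₁.2 * ω₂.1 with hD
  set s := (z.1 * ω₂.2 - z.2 * ω₂.1) / D with hs
  set t := (ω₁.1 * z.2 - ω₁.2 * z.1) / D with ht
  have hz : z = s • ω₁ + t • ω₂ := by
    apply Prod.ext
    · simp only [Prod.fst_add, Prod.smul_fst, smul_eq_mul, hs, ht]
      field_simp
      rw [hD]
      ring
    · simp only [Prod.snd_add, Prod.smul_snd, smul_eq_mul, hs, ht]
      field_simp
      rw [hD]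
      ring
  have p1 : Function.Periodic (fun s : ℝ => N (s • ω₁ + t • ω₂)) 1 := by
    intro s
    simp only
    rw [← h1 (s • ω₁ + t • ω₂)]
    congr 1
    rw [add_smul, one_smul]
    abel
  obtain ⟨s', hs', e1⟩ := p1.exists_mem_Ico₀ one_pos s
  have p2 : Function.Periodic (fun t : ℝ => N (s' • ω₁ + t • ω₂)) 1 := by
    intro t
    simp only
    rw [← h2 (s' • ω₁ + t • ω₂)]
    congr 1
    rw [add_smul, one_smul]
    abel
  obtain ⟨t', ht', e2⟩ := p2.exists_mem_Ico₀ one_pos t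
  rw [hz, e1, e2]
  exact hst₀ (a := (s', t')) ⟨⟨hs'.1, hs'.2.le⟩, ⟨ht'.1, ht'.2.le⟩⟩

/-- If the squared distance to a point is doubly periodic we get a contradiction. -/
private lemma hol_crit {ω₁ ω₂ : ℝ × ℝ} (hω : ω₁.1 * ω₂.2 - ω₁.2 * ω₂.1 ≠ 0)
    {A B C θ X Y : ℝ × ℝ → ℝ} (hdet : ∀ z, A z * C z - B z ^ 2 ≠ 0)
    (hX : ∀ z, HasFDerivAt X (frm (Real.cos (θ z) * A z - Real.sin (θ z) * B z)
      (Real.cos (θ z) * B z - Real.sin (θ z) * C z)) z)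
    (hY : ∀ z, HasFDerivAt Y (frm (Real.sin (θ z) * A z + Real.cos (θ z) * B z)
      (Real.sin (θ z) * B z + Real.cos (θ z) * C z)) z) {a b : ℝ}
    (hN1 : ∀ z, (X (z + ω₁) - a) ^ 2 + (Y (z + ω₁) - b) ^ 2 = (X z - a) ^ 2 + (Y z - b) ^ 2)
    (hN2 : ∀ z, (X (z + ω₂) - a) ^ 2 + (Y (z + ω₂) - b) ^ 2 = (X z - a) ^ 2 + (Y z - b) ^ 2) :
    False := by
  have hXc : Continuous X := continuous_iff_continuousAt.mpr fun z => (hX z).continuousAt
  have hYc : Continuous Y := continuous_iff_continuousAt.mpr fun z => (hY z).continuousAt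
  have hNc : Continuous (fun z => (X z - a) ^ 2 + (Y z - b) ^ 2) := by fun_prop
  obtain ⟨z₀, hz₀⟩ := hol_max hω hNc hN1 hN2
  have hloc : IsLocalMax (fun z => (X z - a) ^ 2 + (Y z - b) ^ 2) z₀ :=
    Filter.Eventually.of_forall hz₀
  have hder := (((hX z₀).sub_const a).pow 2).add (((hY z₀).sub_const b).pow 2)
  have hzero := hloc.hasFDerivAt_eq_zero hder
  have g1 := congrArg (fun L : ℝ × ℝ →L[ℝ] ℝ => L (1, 0)) hzero
  have g2 := congrArg (fun L : ℝ × ℝ →L[ℝ] ℝ => L (0, 1)) hzero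
  simp only [add_apply, smul_apply, frm_apply,
    smul_eq_mul, zero_apply, mul_one, mul_zero, add_zero, zero_add] at g1 g2
  have hcs : Real.cos (θ z₀) ^ 2 + Real.sin (θ z₀) ^ 2 = 1 := Real.cos_sq_add_sin_sq _
  have two1 : (2 - 1 : ℕ) = 1 := rfl
  rw [two1] at g1 g2
  simp only [pow_one, nsmul_eq_mul, Nat.cast_ofNat] at g1 g2
  clear hder hzero hloc hNc
  generalize Real.cos (θ z₀) = cs at g1 g2 hcs
  generalize Real.sin (θ z₀) = sn at g1 g2 hcs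
  have hx0 : X z₀ - a = 0 := by
    have : (A z₀ * C z₀ - B z₀ ^ 2) * (X z₀ - a) = 0 := by
      linear_combination (1 / 2) * (sn * B z₀ + cs * C z₀) * g1
        - (1 / 2) * (sn * A z₀ + cs * B z₀) * g2
        - (A z₀ * C z₀ - B z₀ ^ 2) * (X z₀ - a) * hcs
    exact (mul_eq_zero.mp this).resolve_left (hdet z₀)
  have hy0 : Y z₀ - b = 0 := by
    have : (A z₀ * C z₀ - B z₀ ^ 2) * (Y z₀ - b) = 0 := by
      linear_combination (1 / 2) * (cs * A z₀ - sn * B z₀) * g2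
        - (1 / 2) * (cs * B z₀ - sn * C z₀) * g1
        - (A z₀ * C z₀ - B z₀ ^ 2) * (Y z₀ - b) * hcs
    exact (mul_eq_zero.mp this).resolve_left (hdet z₀)
  have hXa : X = fun _ => a := by
    funext z
    have h1 := hz₀ z
    rw [hx0, hy0] at h1
    have h2 : (X z - a) ^ 2 = 0 := by
      have := sq_nonneg (X z - a)
      have := sq_nonneg (Y z - b)
      linarith
    have h3 := pow_eq_zero_iff (two_ne_zero) |>.mp h2
    linarith
  have dX0 := (hX 0).unique (by rw [hXa]; exact hasFDerivAt_const a 0)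
  have m1 := congrArg (fun L : ℝ × ℝ →L[ℝ] ℝ => L (1, 0)) dX0
  have m2 := congrArg (fun L : ℝ × ℝ →L[ℝ] ℝ => L (0, 1)) dX0
  simp only [frm_apply, zero_apply, mul_one, mul_zero, add_zero, zero_add] at m1 m2
  have hcs0 : Real.cos (θ 0) ^ 2 + Real.sin (θ 0) ^ 2 = 1 := Real.cos_sq_add_sin_sq _
  apply hdet 0
  generalize Real.cos (θ 0) = cs0 at m1 m2 hcs0
  generalize Real.sin (θ 0) = sn0 at m1 m2 hcs0
  linear_combination (sn0 * B 0 + cs0 * C 0) * m1 - (sn0 * A 0 + cs0 * B 0) * m2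
    - (A 0 * C 0 - B 0 ^ 2) * hcs0

/-- Algebra: a nontrivial rotation has a fixed point, which is fixed by the commuting map. -/
private lemma hol_alg {k₁ s₁ p₁ q₁ k₂ s₂ p₂ q₂ : ℝ} (hk : k₁ ≠ 1)
    (E1 : k₂ * p₁ - s₂ * q₁ + p₂ = k₁ * p₂ - s₁ * q₂ + p₁)
    (E2 : s₂ * p₁ + k₂ * q₁ + q₂ = s₁ * p₂ + k₁ * q₂ + q₁) :
    ∃ a b : ℝ, (1 - k₁) * a + s₁ * b = p₁ ∧ -s₁ * a + (1 - k₁) * b = q₁ ∧
      0 = (k₂ - 1) * a - s₂ * b + p₂ ∧ 0 = s₂ * a + (k₂ - 1) * b + q₂ := by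
  have hk' : 1 - k₁ ≠ 0 := sub_ne_zero.mpr (Ne.symm hk)
  have hΔpos : 0 < (1 - k₁) ^ 2 + s₁ ^ 2 := by positivity
  obtain ⟨Δ, hΔ⟩ : ∃ Δ, Δ = (1 - k₁) ^ 2 + s₁ ^ 2 := ⟨_, rfl⟩
  have hΔ0 : Δ ≠ 0 := by
    rw [hΔ]
    exact hΔpos.ne'
  obtain ⟨a, ha'⟩ : ∃ a, a = ((1 - k₁) * p₁ - s₁ * q₁) / Δ := ⟨_, rfl⟩
  obtain ⟨b, hb'⟩ : ∃ b, b = (s₁ * p₁ + (1 - k₁) * q₁) / Δ := ⟨_, rfl⟩
  have ha : (1 - k₁) * a + s₁ * b = p₁ := by
    rw [ha', hb']
    field_simp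
    rw [hΔ]
    ring
  have hb : -s₁ * a + (1 - k₁) * b = q₁ := by
    rw [ha', hb']
    field_simp
    rw [hΔ]
    ring
  obtain ⟨u, hu⟩ : ∃ u, u = (k₂ - 1) * a - s₂ * b + p₂ := ⟨_, rfl⟩
  obtain ⟨v, hv⟩ : ∃ v, v = s₂ * a + (k₂ - 1) * b + q₂ := ⟨_, rfl⟩
  have L1 : (1 - k₁) * u + s₁ * v = 0 := by
    rw [hu, hv]
    linear_combination (k₂ - 1) * ha - s₂ * hb + E1
  have L2 : -s₁ * u + (1 - k₁) * v = 0 := by
    rw [hu, hv]
    linear_combination (k₂ - 1) * hb + s₂ * ha + E2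
  have hu0 : u = 0 := by
    have : Δ * u = 0 := by
      rw [hΔ]
      linear_combination (1 - k₁) * L1 - s₁ * L2
    exact (mul_eq_zero.mp this).resolve_left hΔ0
  have hv0 : v = 0 := by
    have : Δ * v = 0 := by
      rw [hΔ]
      linear_combination s₁ * L1 + (1 - k₁) * L2
    exact (mul_eq_zero.mp this).resolve_left hΔ0
  rw [hu0] at hu
  rw [hv0] at hv
  exact ⟨a, b, ha, hb, hu, hv⟩

/-- The rotation part of the holonomy is trivial. -/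
private lemma hol_key {ω₁ ω₂ : ℝ × ℝ} (hω : ω₁.1 * ω₂.2 - ω₁.2 * ω₂.1 ≠ 0)
    {A B C θ X Y : ℝ × ℝ → ℝ} (hdet : ∀ z, A z * C z - B z ^ 2 ≠ 0)
    (hX : ∀ z, HasFDerivAt X (frm (Real.cos (θ z) * A z - Real.sin (θ z) * B z)
      (Real.cos (θ z) * B z - Real.sin (θ z) * C z)) z)
    (hY : ∀ z, HasFDerivAt Y (frm (Real.sin (θ z) * A z + Real.cos (θ z) * B z)
      (Real.sin (θ z) * B z + Real.cos (θ z) * C z)) z)
    {k₁ s₁ p₁ q₁ k₂ s₂ p₂ q₂ : ℝ} (hks₁ : k₁ ^ 2 + s₁ ^ 2 = 1) (hks₂ : k₂ ^ 2 + s₂ ^ 2 = 1)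
    (hX1 : ∀ z, X (z + ω₁) = k₁ * X z - s₁ * Y z + p₁)
    (hY1 : ∀ z, Y (z + ω₁) = s₁ * X z + k₁ * Y z + q₁)
    (hX2 : ∀ z, X (z + ω₂) = k₂ * X z - s₂ * Y z + p₂)
    (hY2 : ∀ z, Y (z + ω₂) = s₂ * X z + k₂ * Y z + q₂) :
    k₁ = 1 ∧ s₁ = 0 := by
  by_contra hcon
  have hk : k₁ ≠ 1 := by
    intro hk
    apply hcon
    refine ⟨hk, ?_⟩
    rw [hk] at hks₁
    have h2 : s₁ ^ 2 = 0 := by linarith
    exact pow_eq_zero_iff (two_ne_zero) |>.mp h2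
  -- the two affine maps commute
  have hcomm : (0 : ℝ × ℝ) + ω₁ + ω₂ = 0 + ω₂ + ω₁ := by abel
  have E1 : k₂ * p₁ - s₂ * q₁ + p₂ = k₁ * p₂ - s₁ * q₂ + p₁ := by
    have h1 := hX2 (0 + ω₁)
    have h2 := hX1 (0 + ω₂)
    rw [hcomm, h2, hX1 0, hY1 0, hX2 0, hY2 0] at h1
    linear_combination -h1
  have E2 : s₂ * p₁ + k₂ * q₁ + q₂ = s₁ * p₂ + k₁ * q₂ + q₁ := by
    have h1 := hY2 (0 + ω₁)
    have h2 := hY1 (0 + ω₂)
    rw [hcomm, h2, hX1 0, hY1 0, hX2 0, hY2 0] at h1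
    linear_combination -h1
  obtain ⟨a, b, ha, hb, hu, hv⟩ := hol_alg hk E1 E2
  -- the squared distance to the fixed point
  have hN1 : ∀ z, (X (z + ω₁) - a) ^ 2 + (Y (z + ω₁) - b) ^ 2 = (X z - a) ^ 2 + (Y z - b) ^ 2 := by
    intro z
    have x1 : X (z + ω₁) - a = k₁ * (X z - a) - s₁ * (Y z - b) := by
      rw [hX1 z]
      linear_combination -ha
    have y1 : Y (z + ω₁) - b = s₁ * (X z - a) + k₁ * (Y z - b) := by
      rw [hY1 z]
      linear_combination -hb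
    rw [x1, y1]
    linear_combination ((X z - a) ^ 2 + (Y z - b) ^ 2) * hks₁
  have hN2 : ∀ z, (X (z + ω₂) - a) ^ 2 + (Y (z + ω₂) - b) ^ 2 = (X z - a) ^ 2 + (Y z - b) ^ 2 := by
    intro z
    have x1 : X (z + ω₂) - a = k₂ * (X z - a) - s₂ * (Y z - b) := by
      rw [hX2 z]
      linear_combination -hu
    have y1 : Y (z + ω₂) - b = s₂ * (X z - a) + k₂ * (Y z - b) := by
      rw [hY2 z]
      linear_combination -hv
    rw [x1, y1]
    linear_combination ((X z - a) ^ 2 + (Y z - b) ^ 2) * hks₂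
  exact hol_crit hω hdet hX hY hN1 hN2

/-- Let `θ, X, Y` satisfy `dθ = Υ`, `dX + i dY = exp (i θ) (E¹ + i E²)`, where
`Υ = U₁ dx + U₂ dy`, `E¹ = A dx + B dy`, `E² = B dx + C dy` are periodic and `A C - B² ≠ 0`.
Then `(X, Y) (z + ω) = (X, Y) z + const` for both periods.

Proof.  `θ (z + ω) - θ z` is a constant `c ω`.  With `ζ = X + i Y`,
`ζ (z + ω) = exp (i c ω) ζ z + d ω`.  If `λ₁ = exp (i c ω₁) ≠ 1`, the affine map `T₁ w = λ₁ w + d₁`
has a unique fixed point `w₁`; `T₂` commutes with `T₁` (both compositions agree on the image of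
`ζ`, which has at least two points because `dζ ≠ 0`), so `T₂ w₁ = w₁`, so `|ζ - w₁|²` is periodic and
continuous, so it has a maximum at some `z₀`; there `Re (conj (ζ z₀ - w₁) dζ v) = 0` for all `v`,
and `dζ` is onto, so `ζ z₀ = w₁`, so `ζ` is constant: contradiction.  Same with the roles of
`ω₁, ω₂` exchanged. -/
theorem translational_holonomy {ω₁ ω₂ : ℝ × ℝ} (hω : ω₁.1 * ω₂.2 - ω₁.2 * ω₂.1 ≠ 0)
    {U₁ U₂ A B C θ X Y : ℝ × ℝ → ℝ}
    (pU₁ : Per ω₁ ω₂ U₁) (pU₂ : Per ω₁ ω₂ U₂) (pA : Per ω₁ ω₂ A) (pB : Per ω₁ ω₂ B)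
    (pC : Per ω₁ ω₂ C) (hdet : ∀ z, A z * C z - B z ^ 2 ≠ 0)
    (hθ : ∀ z, HasFDerivAt θ (frm (U₁ z) (U₂ z)) z)
    (hX : ∀ z, HasFDerivAt X (frm (Real.cos (θ z) * A z - Real.sin (θ z) * B z)
      (Real.cos (θ z) * B z - Real.sin (θ z) * C z)) z)
    (hY : ∀ z, HasFDerivAt Y (frm (Real.sin (θ z) * A z + Real.cos (θ z) * B z)
      (Real.sin (θ z) * B z + Real.cos (θ z) * C z)) z) :
    (∀ z, X (z + ω₁) = X z + (X ω₁ - X 0)) ∧ (∀ z, Y (z + ω₁) = Y z + (Y ω₁ - Y 0)) ∧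
    (∀ z, X (z + ω₂) = X z + (X ω₂ - X 0)) ∧ (∀ z, Y (z + ω₂) = Y z + (Y ω₂ - Y 0)) := by
  obtain ⟨c₁, p₁, q₁, hX1, hY1⟩ := hol_shift pU₁.1 pU₂.1 pA.1 pB.1 pC.1 hθ hX hY
  obtain ⟨c₂, p₂, q₂, hX2, hY2⟩ := hol_shift pU₁.2 pU₂.2 pA.2 pB.2 pC.2 hθ hX hY
  have e1 : Real.cos c₁ ^ 2 + Real.sin c₁ ^ 2 = 1 := Real.cos_sq_add_sin_sq c₁
  have e2 : Real.cos c₂ ^ 2 + Real.sin c₂ ^ 2 = 1 := Real.cos_sq_add_sin_sq c₂
  have hω' : ω₂.1 * ω₁.2 - ω₂.2 * ω₁.1 ≠ 0 := by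
    intro h
    apply hω
    linarith
  obtain ⟨a1, b1⟩ := hol_key hω hdet hX hY e1 e2 hX1 hY1 hX2 hY2
  obtain ⟨a2, b2⟩ := hol_key hω' hdet hX hY e2 e1 hX2 hY2 hX1 hY1
  rw [a1, b1] at hX1 hY1
  rw [a2, b2] at hX2 hY2
  have f1 := hX1 0
  have f2 := hY1 0
  have f3 := hX2 0
  have f4 := hY2 0
  rw [zero_add] at f1 f2 f3 f4
  refine ⟨fun z => ?_, fun z => ?_, fun z => ?_, fun z => ?_⟩
  · rw [hX1 z, f1]
    ring
  · rw [hY1 z, f2]
    ring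
  · rw [hX2 z, f3]
    ring
  · rw [hY2 z, f4]
    ring

end Vale.Agent.P205T
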