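import Vale.Agent.P205T.Basic

/-! # P205T : primitives of closed 1-forms on the plane -/

namespace Vale.Agent.P205T

open scoped ContDiff

lemma prim_zero (P Q : ℝ × ℝ → ℝ) : prim P Q 0 = 0 := by
  simp [prim]

private lemma fderiv_apply_eq {u : ℝ × ℝ → ℝ} {z : ℝ × ℝ} (x : ℝ × ℝ) :
    fderiv ℝ u z x = dX u z * x.1 + dY u z * x.2 := by
  have hx : x = x.1 • ((1 : ℝ), (0 : ℝ)) + x.2 • ((0 : ℝ), (1 : ℝ)) := by
    ext <;> simp
  conv_lhs => rw [hx]
  rw [map_add, map_smul, map_smul]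
  simp only [dX, dY, smul_eq_mul]
  ring

private lemma hasFDerivAt_form {P Q : ℝ × ℝ → ℝ} (hP : ContDiff ℝ ∞ P) (hQ : ContDiff ℝ ∞ Q)
    (a : ℝ × ℝ) :
    HasFDerivAt (fun z => frm (P z) (Q z))
      ((fderiv ℝ P a).smulRight (ContinuousLinearMap.fst ℝ ℝ ℝ) +
        (fderiv ℝ Q a).smulRight (ContinuousLinearMap.snd ℝ ℝ ℝ)) a := by
  have h1 : HasFDerivAt P (fderiv ℝ P a) a :=
    (hP.differentiable (by simp)).differentiableAt.hasFDerivAt
  have h2 : HasFDerivAt Q (fderiv ℝ Q a) a :=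
    (hQ.differentiable (by simp)).differentiableAt.hasFDerivAt
  exact (h1.smul_const (ContinuousLinearMap.fst ℝ ℝ ℝ)).add
    (h2.smul_const (ContinuousLinearMap.snd ℝ ℝ ℝ))

/-- Poincare lemma with the explicit radial primitive.  (Use
`Convex.exists_forall_hasFDerivAt_of_fderiv_symmetric` to get some primitive `f`, then the
fundamental theorem of calculus along `t ↦ t • z` shows `prim P Q z = f z - f 0`.) -/
theorem hasFDerivAt_prim {P Q : ℝ × ℝ → ℝ} (hP : ContDiff ℝ ∞ P) (hQ : ContDiff ℝ ∞ Q)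
    (h : ∀ z, dY P z = dX Q z) (z : ℝ × ℝ) : HasFDerivAt (prim P Q) (frm (P z) (Q z)) z := by
  obtain ⟨f, hf⟩ : ∃ f : ℝ × ℝ → ℝ, ∀ a ∈ (Set.univ : Set (ℝ × ℝ)),
      HasFDerivAt f (frm (P a) (Q a)) a := by
    apply convex_univ.exists_forall_hasFDerivAt_of_fderiv_symmetric isOpen_univ
    · intro a _
      exact (hasFDerivAt_form hP hQ a).differentiableAt.differentiableWithinAt
    · intro a _ x y
      rw [(hasFDerivAt_form hP hQ a).fderiv]
      simp only [add_apply, ContinuousLinearMap.smulRight_apply,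
        smul_apply, ContinuousLinearMap.coe_fst', ContinuousLinearMap.coe_snd',
        smul_eq_mul, fderiv_apply_eq, h a]
      ring
  have key : ∀ w, prim P Q w = f w - f 0 := by
    intro w
    have hder : ∀ t ∈ Set.uIcc (0 : ℝ) 1,
        HasDerivAt (fun t : ℝ => f (t • w)) (P (t • w) * w.1 + Q (t • w) * w.2) t := by
      intro t _
      have h1 : HasDerivAt (fun t : ℝ => t • w) w t := by
        simpa using (hasDerivAt_id t).smul_const w
      have h2 := (hf (t • w) (Set.mem_univ _)).comp_hasDerivAt t h1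
      rw [frm_apply] at h2
      exact h2
    have hcont : Continuous fun t : ℝ => P (t • w) * w.1 + Q (t • w) * w.2 := by
      have hPc := hP.continuous
      have hQc := hQ.continuous
      fun_prop
    have := intervalIntegral.integral_eq_sub_of_hasDerivAt hder (hcont.intervalIntegrable 0 1)
    rw [prim, this]
    simp
  have hfun : prim P Q = fun w => f w - f 0 := funext key
  rw [hfun]
  exact (hf z (Set.mem_univ _)).sub_const (f 0)

theorem contDiff_prim {P Q : ℝ × ℝ → ℝ} (hP : ContDiff ℝ ∞ P) (hQ : ContDiff ℝ ∞ Q)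
    (h : ∀ z, dY P z = dX Q z) : ContDiff ℝ ∞ (prim P Q) :=
  contDiff_of_hasFDerivAt_frm hP hQ (hasFDerivAt_prim hP hQ h)

/-- Continuity in parameters. -/
theorem continuous_prim {X : Type*} [TopologicalSpace X] {P Q : X → ℝ × ℝ → ℝ}
    (hP : Continuous fun p : X × (ℝ × ℝ) => P p.1 p.2)
    (hQ : Continuous fun p : X × (ℝ × ℝ) => Q p.1 p.2) :
    Continuous fun p : X × (ℝ × ℝ) => prim (P p.1) (Q p.1) p.2 := by
  unfold prim
  apply intervalIntegral.continuous_parametric_intervalIntegral_of_continuous'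
  have h1 : Continuous fun a : (X × (ℝ × ℝ)) × ℝ => P a.1.1 (a.2 • a.1.2) :=
    hP.comp (f := fun a : (X × (ℝ × ℝ)) × ℝ => (a.1.1, a.2 • a.1.2)) (by fun_prop)
  have h2 : Continuous fun a : (X × (ℝ × ℝ)) × ℝ => Q a.1.1 (a.2 • a.1.2) :=
    hQ.comp (f := fun a : (X × (ℝ × ℝ)) × ℝ => (a.1.1, a.2 • a.1.2)) (by fun_prop)
  simp only [Function.uncurry_def]
  fun_prop

end Vale.Agent.P205T
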