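import Vale.Agent.P205T.Struct

/-! # P205T : closedness and smoothness of the rotated coframe -/

namespace Vale.Agent.P205T

open scoped ContDiff

variable {e : ℝ} {ρ ψ θ : ℝ × ℝ → ℝ}

section

variable (hρ : ContDiff ℝ ∞ ρ) (hψ : ContDiff ℝ ∞ ψ) (hq : ∀ z, 0 < qq ψ z)
  (hs : ∀ z, e * (ta1 ρ ψ z ^ 2 + ta2 ρ ψ z ^ 2) < 1) (hθ : ContDiff ℝ ∞ θ)

include hρ hψ hq hs hθ in
lemma contDiff_xiX1 : ContDiff ℝ ∞ (xiX1 e ρ ψ θ) := by
  show ContDiff ℝ ∞ (fun z => Real.cos (θ z) * eA e ρ ψ z - Real.sin (θ z) * eB e ρ ψ z)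
  exact ((Real.contDiff_cos.comp hθ).mul (contDiff_eA hρ hψ hq hs)).sub
    ((Real.contDiff_sin.comp hθ).mul (contDiff_eB hρ hψ hq hs))

include hρ hψ hq hs hθ in
lemma contDiff_xiX2 : ContDiff ℝ ∞ (xiX2 e ρ ψ θ) := by
  show ContDiff ℝ ∞ (fun z => Real.cos (θ z) * eB e ρ ψ z - Real.sin (θ z) * eC e ρ ψ z)
  exact ((Real.contDiff_cos.comp hθ).mul (contDiff_eB hρ hψ hq hs)).sub
    ((Real.contDiff_sin.comp hθ).mul (contDiff_eC hρ hψ hq hs))

include hρ hψ hq hs hθ in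
lemma contDiff_xiY1 : ContDiff ℝ ∞ (xiY1 e ρ ψ θ) := by
  show ContDiff ℝ ∞ (fun z => Real.sin (θ z) * eA e ρ ψ z + Real.cos (θ z) * eB e ρ ψ z)
  exact ((Real.contDiff_sin.comp hθ).mul (contDiff_eA hρ hψ hq hs)).add
    ((Real.contDiff_cos.comp hθ).mul (contDiff_eB hρ hψ hq hs))

include hρ hψ hq hs hθ in
lemma contDiff_xiY2 : ContDiff ℝ ∞ (xiY2 e ρ ψ θ) := by
  show ContDiff ℝ ∞ (fun z => Real.sin (θ z) * eB e ρ ψ z + Real.cos (θ z) * eC e ρ ψ z)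
  exact ((Real.contDiff_sin.comp hθ).mul (contDiff_eB hρ hψ hq hs)).add
    ((Real.contDiff_cos.comp hθ).mul (contDiff_eC hρ hψ hq hs))

include hρ hψ hq hs hθ in
theorem closedX (h1 : ∀ z, dX θ z = upX e ρ ψ z) (h2 : ∀ z, dY θ z = upY e ρ ψ z) (z : ℝ × ℝ) :
    dY (xiX1 e ρ ψ θ) z = dX (xiX2 e ρ ψ θ) z := by
  have dθ : DifferentiableAt ℝ θ z := (hθ.differentiable (by simp)) z
  have dA : DifferentiableAt ℝ (eA e ρ ψ) z :=
    ((contDiff_eA hρ hψ hq hs).differentiable (by simp)) z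
  have dB : DifferentiableAt ℝ (eB e ρ ψ) z :=
    ((contDiff_eB hρ hψ hq hs).differentiable (by simp)) z
  have dC : DifferentiableAt ℝ (eC e ρ ψ) z :=
    ((contDiff_eC hρ hψ hq hs).differentiable (by simp)) z
  have dc : DifferentiableAt ℝ (fun w => Real.cos (θ w)) z := dθ.cos
  have dsn : DifferentiableAt ℝ (fun w => Real.sin (θ w)) z := dθ.sin
  have e1 : xiX1 e ρ ψ θ = fun w => (fun w => (fun w => Real.cos (θ w)) w * eA e ρ ψ w) w -
      (fun w => (fun w => Real.sin (θ w)) w * eB e ρ ψ w) w := rfl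
  have e2 : xiX2 e ρ ψ θ = fun w => (fun w => (fun w => Real.cos (θ w)) w * eB e ρ ψ w) w -
      (fun w => (fun w => Real.sin (θ w)) w * eC e ρ ψ w) w := rfl
  have s1 := struct1 hρ hψ hq hs z
  have s2 := struct2 hρ hψ hq hs z
  have m1 : DifferentiableAt ℝ (fun w => (fun w => Real.cos (θ w)) w * eA e ρ ψ w) z := dc.mul dA
  have m2 : DifferentiableAt ℝ (fun w => (fun w => Real.sin (θ w)) w * eB e ρ ψ w) z := dsn.mul dB
  have m3 : DifferentiableAt ℝ (fun w => (fun w => Real.cos (θ w)) w * eB e ρ ψ w) z := dc.mul dB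
  have m4 : DifferentiableAt ℝ (fun w => (fun w => Real.sin (θ w)) w * eC e ρ ψ w) z := dsn.mul dC
  rw [e1, e2, dY_sub m1 m2, dX_sub m3 m4,
    dY_mul dc dA, dY_mul dsn dB, dX_mul dc dB, dX_mul dsn dC,
    dY_cos dθ, dY_sin dθ, dX_cos dθ, dX_sin dθ, h1 z, h2 z]
  linear_combination Real.cos (θ z) * s1 - Real.sin (θ z) * s2

include hρ hψ hq hs hθ in
theorem closedY (h1 : ∀ z, dX θ z = upX e ρ ψ z) (h2 : ∀ z, dY θ z = upY e ρ ψ z) (z : ℝ × ℝ) :
    dY (xiY1 e ρ ψ θ) z = dX (xiY2 e ρ ψ θ) z := by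
  have dθ : DifferentiableAt ℝ θ z := (hθ.differentiable (by simp)) z
  have dA : DifferentiableAt ℝ (eA e ρ ψ) z :=
    ((contDiff_eA hρ hψ hq hs).differentiable (by simp)) z
  have dB : DifferentiableAt ℝ (eB e ρ ψ) z :=
    ((contDiff_eB hρ hψ hq hs).differentiable (by simp)) z
  have dC : DifferentiableAt ℝ (eC e ρ ψ) z :=
    ((contDiff_eC hρ hψ hq hs).differentiable (by simp)) z
  have dc : DifferentiableAt ℝ (fun w => Real.cos (θ w)) z := dθ.cos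
  have dsn : DifferentiableAt ℝ (fun w => Real.sin (θ w)) z := dθ.sin
  have e1 : xiY1 e ρ ψ θ = fun w => (fun w => (fun w => Real.sin (θ w)) w * eA e ρ ψ w) w +
      (fun w => (fun w => Real.cos (θ w)) w * eB e ρ ψ w) w := rfl
  have e2 : xiY2 e ρ ψ θ = fun w => (fun w => (fun w => Real.sin (θ w)) w * eB e ρ ψ w) w +
      (fun w => (fun w => Real.cos (θ w)) w * eC e ρ ψ w) w := rfl
  have s1 := struct1 hρ hψ hq hs z
  have s2 := struct2 hρ hψ hq hs z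
  have m1 : DifferentiableAt ℝ (fun w => (fun w => Real.sin (θ w)) w * eA e ρ ψ w) z := dsn.mul dA
  have m2 : DifferentiableAt ℝ (fun w => (fun w => Real.cos (θ w)) w * eB e ρ ψ w) z := dc.mul dB
  have m3 : DifferentiableAt ℝ (fun w => (fun w => Real.sin (θ w)) w * eB e ρ ψ w) z := dsn.mul dB
  have m4 : DifferentiableAt ℝ (fun w => (fun w => Real.cos (θ w)) w * eC e ρ ψ w) z := dc.mul dC
  rw [e1, e2, dY_add m1 m2, dX_add m3 m4,
    dY_mul dsn dA, dY_mul dc dB, dX_mul dsn dB, dX_mul dc dC,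
    dY_cos dθ, dY_sin dθ, dX_cos dθ, dX_sin dθ, h1 z, h2 z]
  linear_combination Real.sin (θ z) * s1 + Real.cos (θ z) * s2

end

end Vale.Agent.P205T
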