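import Vale.Agent.P205T.Curl
import Vale.Agent.P205T.Rotated
import Vale.Agent.P205T.Alg
import Vale.Agent.P205T.Prim
import Vale.Agent.P205T.Green
import Vale.Agent.P205T.Holonomy

/-! # P205T : the developing map for a fixed `e` -/

namespace Vale.Agent.P205T

open scoped ContDiff

variable {e : ℝ} {ρ ψ : ℝ × ℝ → ℝ} {ω₁ ω₂ : ℝ × ℝ}

section

variable (hω : ω₁.1 * ω₂.2 - ω₁.2 * ω₂.1 ≠ 0)
  (hρ : ContDiff ℝ ∞ ρ) (hψ : ContDiff ℝ ∞ ψ) (pρ : Per ω₁ ω₂ ρ) (pψ : Per ω₁ ω₂ ψ)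
  (hq : ∀ z, 0 < qq ψ z) (hs : ∀ z, e * (ta1 ρ ψ z ^ 2 + ta2 ρ ψ z ^ 2) < 1)
  (hsol : ∃ c : ℝ, ∀ z, pde e ρ ψ z = c)

/- `curl_up` + `const_eq_zero_of_curl` with `κ = 1 / (q² s³)` and the constant `-c`. -/
include hω hρ hψ pρ pψ hq hs hsol in
theorem closed_up (z : ℝ × ℝ) : dY (upX e ρ ψ) z = dX (upY e ρ ψ) z := by
  obtain ⟨c, hc⟩ := hsol
  have hden : ∀ z, 0 < qq ψ z ^ 2 * sS e ρ ψ z ^ 3 := fun z =>
    mul_pos (pow_pos (hq z) 2) (pow_pos (sS_pos hq hs z) 3)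
  have hκ : Continuous fun z => 1 / (qq ψ z ^ 2 * sS e ρ ψ z ^ 3) := by
    refine Continuous.div continuous_const ?_ (fun z => (hden z).ne')
    exact ((contDiff_qq hψ).continuous.pow 2).mul ((contDiff_sS hρ hψ hq hs).continuous.pow 3)
  have hpos : ∀ z, 0 < 1 / (qq ψ z ^ 2 * sS e ρ ψ z ^ 3) := fun z => one_div_pos.mpr (hden z)
  have hcurl : ∀ z, dX (upY e ρ ψ) z - dY (upX e ρ ψ) z
      = (-c) * (1 / (qq ψ z ^ 2 * sS e ρ ψ z ^ 3)) := by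
    intro z
    rw [curl_up hρ hψ hq hs z, hc z]
    ring
  have h0 : -c = 0 := const_eq_zero_of_curl hω (contDiff_upX hρ hψ hq hs)
    (contDiff_upY hρ hψ hq hs) (per_upX pρ pψ) (per_upY pρ pψ) hκ hpos hcurl
  have h1 := hcurl z
  rw [h0, zero_mul] at h1
  linarith

include hω hρ hψ pρ pψ hq hs hsol in
theorem hasFDerivAt_thF (z : ℝ × ℝ) :
    HasFDerivAt (thF e ρ ψ) (frm (upX e ρ ψ z) (upY e ρ ψ z)) z :=
  hasFDerivAt_prim (contDiff_upX hρ hψ hq hs) (contDiff_upY hρ hψ hq hs)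
    (closed_up hω hρ hψ pρ pψ hq hs hsol) z

include hω hρ hψ pρ pψ hq hs hsol in
theorem contDiff_thF : ContDiff ℝ ∞ (thF e ρ ψ) :=
  contDiff_prim (contDiff_upX hρ hψ hq hs) (contDiff_upY hρ hψ hq hs)
    (closed_up hω hρ hψ pρ pψ hq hs hsol)

include hω hρ hψ pρ pψ hq hs hsol in
theorem hasFDerivAt_devX (z : ℝ × ℝ) : HasFDerivAt (devX e ρ ψ)
    (frm (xiX1 e ρ ψ (thF e ρ ψ) z) (xiX2 e ρ ψ (thF e ρ ψ) z)) z := by
  have hθ := contDiff_thF hω hρ hψ pρ pψ hq hs hsol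
  exact hasFDerivAt_prim (contDiff_xiX1 hρ hψ hq hs hθ) (contDiff_xiX2 hρ hψ hq hs hθ)
    (closedX hρ hψ hq hs hθ
      (fun z => dX_eq_of_hasFDerivAt (hasFDerivAt_thF hω hρ hψ pρ pψ hq hs hsol z))
      (fun z => dY_eq_of_hasFDerivAt (hasFDerivAt_thF hω hρ hψ pρ pψ hq hs hsol z))) z

include hω hρ hψ pρ pψ hq hs hsol in
theorem hasFDerivAt_devY (z : ℝ × ℝ) : HasFDerivAt (devY e ρ ψ)
    (frm (xiY1 e ρ ψ (thF e ρ ψ) z) (xiY2 e ρ ψ (thF e ρ ψ) z)) z := by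
  have hθ := contDiff_thF hω hρ hψ pρ pψ hq hs hsol
  exact hasFDerivAt_prim (contDiff_xiY1 hρ hψ hq hs hθ) (contDiff_xiY2 hρ hψ hq hs hθ)
    (closedY hρ hψ hq hs hθ
      (fun z => dX_eq_of_hasFDerivAt (hasFDerivAt_thF hω hρ hψ pρ pψ hq hs hsol z))
      (fun z => dY_eq_of_hasFDerivAt (hasFDerivAt_thF hω hρ hψ pρ pψ hq hs hsol z))) z

include hω hρ hψ pρ pψ hq hs hsol in
theorem contDiff_devX : ContDiff ℝ ∞ (devX e ρ ψ) := by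
  have hθ := contDiff_thF hω hρ hψ pρ pψ hq hs hsol
  exact contDiff_prim (contDiff_xiX1 hρ hψ hq hs hθ) (contDiff_xiX2 hρ hψ hq hs hθ)
    (closedX hρ hψ hq hs hθ
      (fun z => dX_eq_of_hasFDerivAt (hasFDerivAt_thF hω hρ hψ pρ pψ hq hs hsol z))
      (fun z => dY_eq_of_hasFDerivAt (hasFDerivAt_thF hω hρ hψ pρ pψ hq hs hsol z)))

include hω hρ hψ pρ pψ hq hs hsol in
theorem contDiff_devY : ContDiff ℝ ∞ (devY e ρ ψ) := by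
  have hθ := contDiff_thF hω hρ hψ pρ pψ hq hs hsol
  exact contDiff_prim (contDiff_xiY1 hρ hψ hq hs hθ) (contDiff_xiY2 hρ hψ hq hs hθ)
    (closedY hρ hψ hq hs hθ
      (fun z => dX_eq_of_hasFDerivAt (hasFDerivAt_thF hω hρ hψ pρ pψ hq hs hsol z))
      (fun z => dY_eq_of_hasFDerivAt (hasFDerivAt_thF hω hρ hψ pρ pψ hq hs hsol z)))

/- `translational_holonomy` with `U = up`, `A, B, C = eA, eB, eC` (`det_coframe`, `sS_pos`,
`per_upX`, ...); `devX 0 = 0` by `prim_zero`. -/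
include hω hρ hψ pρ pψ hq hs hsol in
theorem dev_translate :
    (∀ z, devX e ρ ψ (z + ω₁) = devX e ρ ψ z + devX e ρ ψ ω₁) ∧
    (∀ z, devY e ρ ψ (z + ω₁) = devY e ρ ψ z + devY e ρ ψ ω₁) ∧
    (∀ z, devX e ρ ψ (z + ω₂) = devX e ρ ψ z + devX e ρ ψ ω₂) ∧
    (∀ z, devY e ρ ψ (z + ω₂) = devY e ρ ψ z + devY e ρ ψ ω₂) := by
  have hdet : ∀ z, eA e ρ ψ z * eC e ρ ψ z - eB e ρ ψ z ^ 2 ≠ 0 := by
    intro z
    rw [det_coframe hq hs z]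
    exact (div_pos (sS_pos hq hs z) (pow_pos (hq z) 2)).ne'
  have h := translational_holonomy hω (per_upX (e := e) pρ pψ) (per_upY (e := e) pρ pψ)
    (per_eA (e := e) pρ pψ) (per_eB (e := e) pρ pψ) (per_eC (e := e) pρ pψ) hdet
    (hasFDerivAt_thF hω hρ hψ pρ pψ hq hs hsol)
    (X := devX e ρ ψ) (Y := devY e ρ ψ)
    (hasFDerivAt_devX hω hρ hψ pρ pψ hq hs hsol)
    (hasFDerivAt_devY hω hρ hψ pρ pψ hq hs hsol)
  have hX0 : devX e ρ ψ 0 = 0 := prim_zero _ _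
  have hY0 : devY e ρ ψ 0 = 0 := prim_zero _ _
  rw [hX0, hY0] at h
  simpa using h

end

end Vale.Agent.P205T
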