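import Mathlib

/-! # P205T : an abstract branch of fixed points from the implicit function theorem -/

namespace Vale.Agent.P205T

open Set

/-- Let `N : ℝ × A → A` be `C¹` with `N (0, t g) = t² N (0, g)`, equivariant under a continuous
linear map `cj`.  Then there are `δ > 0` and a continuous `φ : ℝ → A`, `φ 0 = 0`, `‖φ e‖ ≤ η`,
`cj (φ e) = φ e`, with `φ e = N (e, φ e)` for `e ∈ [0, δ]`.

Proof.  `Ψ (e, f) = f - N (e, f)` is `C¹`, `Ψ (0, 0) = 0`, and the derivative of `Ψ` at `(0, 0)`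
restricted to `{0} × A` is the identity (the derivative of `t ↦ N (0, t g) = t² N (0, g)` at `0`
vanishes).  Use `ContDiffAt.implicitFunction`, `eventually_apply_implicitFunction`,
`eventually_apply_eq_iff_implicitFunction` (local uniqueness, gives `cj (φ e) = φ e` because
`cj (φ e)` is another small solution), `contDiffAt_implicitFunction` (continuity on a
neighbourhood of `0`), all in Mathlib/Analysis/Calculus/ImplicitContDiff.lean.  Finally replace `φ` by
`φ ∘ (projection of ℝ onto [0, δ])` (`Set.projIcc`, `ContinuousOn.IccExtend`) to make it globally continuous. -/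
theorem exists_branch {A : Type*} [NormedAddCommGroup A] [NormedSpace ℝ A] [CompleteSpace A]
    (N : ℝ × A → A) (hN : ContDiff ℝ 1 N)
    (hquad : ∀ (g : A) (t : ℝ), N (0, t • g) = t ^ 2 • N (0, g))
    (cj : A →L[ℝ] A) (hcj : ∀ (e : ℝ) (f : A), cj (N (e, f)) = N (e, cj f))
    {η : ℝ} (hη : 0 < η) :
    ∃ (δ : ℝ) (φ : ℝ → A), 0 < δ ∧ Continuous φ ∧ φ 0 = 0 ∧ (∀ e, ‖φ e‖ ≤ η) ∧
      (∀ e, cj (φ e) = φ e) ∧ ∀ e ∈ Icc 0 δ, φ e = N (e, φ e) := by
  classical
  -- the implicit equation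
  set Ψ : ℝ × A → A := fun p => p.2 - N p with hΨ
  have hΨc : ContDiff ℝ 1 Ψ := contDiff_snd.sub hN
  have hN0 : N ((0 : ℝ), (0 : A)) = 0 := by
    have := hquad 0 0
    simpa using this
  have hΨ0 : Ψ ((0 : ℝ), (0 : A)) = 0 := by simp [hΨ, hN0]
  have hNd : DifferentiableAt ℝ N ((0 : ℝ), (0 : A)) :=
    (hN.differentiable (by norm_num)).differentiableAt
  -- the derivative of N in the second variable vanishes
  have hder : ∀ g : A, fderiv ℝ N ((0 : ℝ), (0 : A)) ((0 : ℝ), g) = 0 := by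
    intro g
    have hc : HasDerivAt (fun t : ℝ => ((0 : ℝ), t • g)) ((0 : ℝ), g) 0 := by
      have h1 : HasDerivAt (fun t : ℝ => t • g) g 0 := by
        simpa using (hasDerivAt_id (0 : ℝ)).smul_const g
      exact (hasDerivAt_const (0 : ℝ) (0 : ℝ)).prodMk h1
    have h2 : HasDerivAt (fun t : ℝ => N ((0 : ℝ), t • g))
        (fderiv ℝ N ((0 : ℝ), (0 : A)) ((0 : ℝ), g)) 0 := by
      have hN' : HasFDerivAt N (fderiv ℝ N ((0 : ℝ), (0 : A))) ((0 : ℝ), (0 : ℝ) • g) := by
        simpa using hNd.hasFDerivAt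
      exact hN'.comp_hasDerivAt (0 : ℝ) hc
    have h3 : HasDerivAt (fun t : ℝ => N ((0 : ℝ), t • g)) (0 : A) 0 := by
      have h4 : HasDerivAt (fun t : ℝ => t ^ 2 • N ((0 : ℝ), g)) (0 : A) 0 := by
        have := ((hasDerivAt_id (0 : ℝ)).pow 2).smul_const (N ((0 : ℝ), g))
        simpa using this
      have : (fun t : ℝ => N ((0 : ℝ), t • g)) = fun t : ℝ => t ^ 2 • N ((0 : ℝ), g) := by
        funext t; exact hquad g t
      rw [this]; exact h4
    exact h2.unique h3
  have hfd : fderiv ℝ Ψ ((0 : ℝ), (0 : A)) ∘L ContinuousLinearMap.inr ℝ ℝ A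
      = ContinuousLinearMap.id ℝ A := by
    ext g
    have h1 : fderiv ℝ Ψ ((0 : ℝ), (0 : A))
        = ContinuousLinearMap.snd ℝ ℝ A - fderiv ℝ N ((0 : ℝ), (0 : A)) := by
      have := (hasFDerivAt_snd (𝕜 := ℝ) (p := ((0 : ℝ), (0 : A)))).sub hNd.hasFDerivAt
      exact this.fderiv
    simp [h1, hder g]
  have hinv : (fderiv ℝ Ψ ((0 : ℝ), (0 : A)) ∘L ContinuousLinearMap.inr ℝ ℝ A).IsInvertible := by
    rw [hfd]
    exact ContinuousLinearMap.isInvertible_equiv (f := ContinuousLinearEquiv.refl ℝ A)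
  have cdf : ContDiffAt ℝ 1 Ψ ((0 : ℝ), (0 : A)) := hΨc.contDiffAt
  have pn : (1 : WithTop ℕ∞) ≠ 0 := one_ne_zero
  set ψ : ℝ → A := cdf.implicitFunction pn hinv with hψ
  have hψ0 : ψ 0 = 0 := cdf.implicitFunction_apply_self pn hinv
  have hψc : ContDiffAt ℝ 1 ψ 0 := cdf.contDiffAt_implicitFunction pn hinv
  have e1 : ∀ᶠ e in nhds (0 : ℝ), Ψ (e, ψ e) = 0 := by
    have := cdf.eventually_apply_implicitFunction pn hinv
    simpa [hΨ0] using this
  have e2 : ∀ᶠ e in nhds (0 : ℝ), ContinuousAt ψ e := by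
    have := hψc.eventually (by simp)
    exact this.mono fun e he => he.continuousAt
  have e3 : ∀ᶠ e in nhds (0 : ℝ), ‖ψ e‖ ≤ η := by
    have hc : ContinuousAt (fun e => ‖ψ e‖) 0 := hψc.continuousAt.norm
    have : ∀ᶠ e in nhds (0 : ℝ), ‖ψ e‖ < η := by
      apply hc.eventually_lt continuousAt_const
      simpa [hψ0] using hη
    exact this.mono fun e he => he.le
  have e4 : ∀ᶠ e in nhds (0 : ℝ), (Ψ (e, cj (ψ e)) = 0 ↔ ψ e = cj (ψ e)) := by
    have hu := cdf.eventually_apply_eq_iff_implicitFunction pn hinv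
    have hcont : ContinuousAt (fun e : ℝ => (e, cj (ψ e))) 0 :=
      continuousAt_id.prodMk (cj.continuous.continuousAt.comp hψc.continuousAt)
    have htend : Filter.Tendsto (fun e : ℝ => (e, cj (ψ e))) (nhds 0) (nhds ((0 : ℝ), (0 : A))) := by
      have := hcont.tendsto
      simpa [hψ0] using this
    have := htend.eventually hu
    simpa [hΨ0] using this
  obtain ⟨ε, hε, hball⟩ := Metric.eventually_nhds_iff.mp (e1.and (e2.and (e3.and e4)))
  have hgood : ∀ e ∈ Icc (0 : ℝ) (ε / 2), Ψ (e, ψ e) = 0 ∧ ContinuousAt ψ e ∧ ‖ψ e‖ ≤ η ∧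
      (Ψ (e, cj (ψ e)) = 0 ↔ ψ e = cj (ψ e)) := by
    intro e he
    apply hball
    rw [Real.dist_eq, sub_zero, abs_of_nonneg he.1]
    linarith [he.2]
  have hδ : (0 : ℝ) < ε / 2 := by linarith
  set cl : ℝ → ℝ := fun e => max 0 (min (ε / 2) e) with hcl
  have hclmem : ∀ e, cl e ∈ Icc (0 : ℝ) (ε / 2) := by
    intro e
    refine ⟨le_max_left _ _, max_le hδ.le (min_le_left _ _)⟩
  have hclc : Continuous cl := continuous_const.max (continuous_const.min continuous_id)
  have hclid : ∀ e ∈ Icc (0 : ℝ) (ε / 2), cl e = e := by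
    intro e he
    simp only [hcl]
    rw [min_eq_right he.2, max_eq_right he.1]
  refine ⟨ε / 2, fun e => ψ (cl e), hδ, ?_, ?_, ?_, ?_, ?_⟩
  · rw [continuous_iff_continuousAt]
    intro e
    exact ContinuousAt.comp (hgood _ (hclmem e)).2.1 hclc.continuousAt
  · have : cl 0 = 0 := hclid 0 ⟨le_refl _, hδ.le⟩
    simp only [this, hψ0]
  · intro e
    exact (hgood _ (hclmem e)).2.2.1
  · intro e
    obtain ⟨h1, -, -, h4⟩ := hgood _ (hclmem e)
    have : Ψ (cl e, cj (ψ (cl e))) = 0 := by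
      have h5 : Ψ (cl e, cj (ψ (cl e))) = cj (Ψ (cl e, ψ (cl e))) := by
        simp only [hΨ, map_sub, hcj]
      rw [h5, h1, map_zero]
    exact (h4.mp this).symm
  · intro e he
    have h1 := (hgood e he).1
    simp only [hclid e he]
    have : ψ e - N (e, ψ e) = 0 := h1
    exact sub_eq_zero.mp this

end Vale.Agent.P205T
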