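import Vale.Agent.P205T.NNrv

/-! # P205T : a symmetric fixed point gives a pointwise solution of `pde = const` -/

namespace Vale.Agent.P205T

variable (Φ : Freq) (w : Wt) (D : RhoData)

section

variable {ρ : ℝ × ℝ → ℝ} {f : AA}
  (s1 : cj D.R1 = D.R1) (s2 : cj D.R2 = D.R2) (s11 : cj D.R11 = D.R11)
  (s12 : cj D.R12 = D.R12) (s22 : cj D.R22 = D.R22) (sf : cj f = f)
  (r1 : ∀ z, dX ρ z = rv Φ w D.R1 z) (r2 : ∀ z, dY ρ z = rv Φ w D.R2 z)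
  (r11 : ∀ z, dX (dX ρ) z = rv Φ w D.R11 z) (r12 : ∀ z, dY (dX ρ) z = rv Φ w D.R12 z)
  (r22 : ∀ z, dY (dY ρ) z = rv Φ w D.R22 z)

/- From `f = Π₀ (N₀ + e N₁)`: `Δψ = rv (M11 f + M22 f) = rv (P0 f) = rv f = rv (N₀ + e N₁) - const`
(`M11_add_M22`, `P0_P0`, `rv_P0`), and
`pde = Δψ + ψ Δψ - |∇ψ|² - e (B |τ|² + det Ĥ) = Δψ - rv (N₀ + e N₁)`. -/
include sf s1 s2 s11 s12 s22 r1 r2 r11 r12 r22 in
theorem pde_const {e : ℝ} (hf : f = NN Φ w D (e, f)) :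
    ∃ c : ℝ, ∀ z, pde e ρ (rv Φ w (M0 Φ f)) z = c := by
  obtain ⟨N, hN⟩ : ∃ N : AA, N = N0f Φ w f + e • N1f Φ w D f := ⟨_, rfl⟩
  have hfN : f = P0 N := by
    rw [hN]
    exact hf
  refine ⟨-(coef w N 0).re, fun z => ?_⟩
  have hQ : cj (Qf Φ w f) = Qf Φ w f := cj_Qf Φ w sf
  have h0 : cj (M0 Φ f) = M0 Φ f := by rw [cj_M0, sf]
  have h11 : cj (M11 Φ f) = M11 Φ f := by rw [cj_M11, sf]
  have h22 : cj (M22 Φ f) = M22 Φ f := by rw [cj_M22, sf]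
  have hL : cj (M11 Φ f + M22 Φ f) = M11 Φ f + M22 Φ f := nnrv_cj_add h11 h22
  have hB : cj (Bf Φ w f) = Bf Φ w f := cj_Bf Φ w sf
  have hT1 : cj (T1f Φ w D f) = T1f Φ w D f := cj_T1f Φ w D s1 sf
  have hT2 : cj (T2f Φ w D f) = T2f Φ w D f := cj_T2f Φ w D s2 sf
  have hH11 : cj (H11f Φ w D f) = H11f Φ w D f := cj_H11f Φ w D s1 s2 s11 sf
  have hH12 : cj (H12f Φ w D f) = H12f Φ w D f := cj_H12f Φ w D s1 s2 s12 sf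
  have hH22 : cj (H22f Φ w D f) = H22f Φ w D f := cj_H22f Φ w D s1 s2 s22 sf
  have eL : rv Φ w (M11 Φ f + M22 Φ f) z = rv Φ w N z - (coef w N 0).re := by
    have e1 : M11 Φ f + M22 Φ f = P0 N := by
      rw [M11_add_M22]
      calc P0 f = P0 (P0 N) := by rw [← hfN]
        _ = P0 N := P0_P0 N
    rw [e1, rv_P0]
  have e0 : rv Φ w (N0f Φ w f) z =
      -(rv Φ w (M0 Φ f) z * rv Φ w (M11 Φ f + M22 Φ f) z) + rv Φ w (Gf Φ w f) z := by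
    unfold N0f
    rw [rv_add, rv_neg, rv_conv Φ w h0 hL]
  have e1 : rv Φ w (N1f Φ w D f) z =
      bB (rv Φ w (M0 Φ f)) z *
        (ta1 ρ (rv Φ w (M0 Φ f)) z ^ 2 + ta2 ρ (rv Φ w (M0 Φ f)) z ^ 2) +
      (Vale.Agent.P205T.h11 ρ (rv Φ w (M0 Φ f)) z * Vale.Agent.P205T.h22 ρ (rv Φ w (M0 Φ f)) z
        - h12 ρ (rv Φ w (M0 Φ f)) z ^ 2) := by
    unfold N1f
    rw [rv_add,
      rv_conv Φ w hB (nnrv_cj_add (nnrv_cj_conv w hT1 hT1) (nnrv_cj_conv w hT2 hT2)),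
      rv_add, rv_conv Φ w hT1 hT1, rv_conv Φ w hT2 hT2, rv_sub, rv_conv Φ w hH11 hH22,
      rv_conv Φ w hH12 hH12, rv_Bf Φ w sf, rv_T1f Φ w D s1 sf r1, rv_T2f Φ w D s2 sf r2,
      rv_H11f Φ w D s1 s2 s11 sf r1 r2 r11, rv_H12f Φ w D s1 s2 s12 sf r1 r2 r12,
      rv_H22f Φ w D s1 s2 s22 sf r1 r2 r22]
    ring
  have eB : bB (rv Φ w (M0 Φ f)) z =
      (1 + rv Φ w (M0 Φ f) z) * rv Φ w (M11 Φ f + M22 Φ f) z - rv Φ w (Gf Φ w f) z := by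
    rw [← rv_Bf Φ w sf]
    unfold Bf
    rw [rv_sub, rv_conv Φ w hQ hL]
    unfold Qf
    rw [rv_add, rv_oneA]
  have eN : rv Φ w N z = rv Φ w (N0f Φ w f) z + e * rv Φ w (N1f Φ w D f) z := by
    rw [hN, rv_add, rv_smul]
  unfold pde
  linear_combination eB + eL + eN + e0 + e * e1

end

end Vale.Agent.P205T
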