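import Vale.Agent.P205T.NNdef

/-! # P205T : the fixed point map is smooth, quadratic at `e = 0`, and `cj`-equivariant -/

namespace Vale.Agent.P205T

variable (Φ : Freq) (w : Wt) (D : RhoData)

/-- Helper: `conv` of two `C¹` maps is `C¹` (`ContDiff.clm_apply`, or `IsBoundedBilinearMap`). -/
lemma contDiff_conv {E : Type*} [NormedAddCommGroup E] [NormedSpace ℝ E] {a b : E → AA}
    (ha : ContDiff ℝ 1 a) (hb : ContDiff ℝ 1 b) : ContDiff ℝ 1 fun x => conv w (a x) (b x) :=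
  ((conv w).contDiff.comp ha).clm_apply hb

lemma contDiff_clm_aux {E : Type*} [NormedAddCommGroup E] [NormedSpace ℝ E] (L : AA →L[ℝ] AA)
    {a : E → AA} (ha : ContDiff ℝ 1 a) : ContDiff ℝ 1 fun x => L (a x) :=
  L.contDiff.comp ha

lemma contDiff_Qf : ContDiff ℝ 1 (Qf Φ w) := by
  unfold Qf
  exact contDiff_const.add (M0 Φ).contDiff

lemma contDiff_Gf : ContDiff ℝ 1 (Gf Φ w) := by
  unfold Gf
  exact (contDiff_conv w (M1 Φ).contDiff (M1 Φ).contDiff).add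
    (contDiff_conv w (M2 Φ).contDiff (M2 Φ).contDiff)

lemma contDiff_T1f : ContDiff ℝ 1 (T1f Φ w D) := by
  unfold T1f
  exact (contDiff_conv w (contDiff_Qf Φ w) contDiff_const).add (M1 Φ).contDiff

lemma contDiff_T2f : ContDiff ℝ 1 (T2f Φ w D) := by
  unfold T2f
  exact (contDiff_conv w (contDiff_Qf Φ w) contDiff_const).add (M2 Φ).contDiff

lemma contDiff_Bf : ContDiff ℝ 1 (Bf Φ w) := by
  unfold Bf
  exact (contDiff_conv w (contDiff_Qf Φ w) ((M11 Φ).contDiff.add (M22 Φ).contDiff)).sub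
    (contDiff_Gf Φ w)

lemma contDiff_Trf : ContDiff ℝ 1 (Trf Φ w D) := by
  unfold Trf
  exact (contDiff_conv w (contDiff_Qf Φ w)
    ((contDiff_conv w (M1 Φ).contDiff contDiff_const).add
      (contDiff_conv w (M2 Φ).contDiff contDiff_const))).add (contDiff_Gf Φ w)

lemma contDiff_H11f : ContDiff ℝ 1 (H11f Φ w D) := by
  unfold H11f
  exact ((((contDiff_conv w (contDiff_conv w (contDiff_Qf Φ w) (contDiff_Qf Φ w))
    contDiff_const).add (contDiff_conv w (contDiff_Qf Φ w) (M11 Φ).contDiff)).add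
    (contDiff_conv w (M1 Φ).contDiff (M1 Φ).contDiff)).add
    ((contDiff_conv w (contDiff_Qf Φ w)
      (contDiff_conv w (M1 Φ).contDiff contDiff_const)).const_smul (2 : ℝ))).sub
    (contDiff_Trf Φ w D)

lemma contDiff_H12f : ContDiff ℝ 1 (H12f Φ w D) := by
  unfold H12f
  exact (((contDiff_conv w (contDiff_conv w (contDiff_Qf Φ w) (contDiff_Qf Φ w))
    contDiff_const).add (contDiff_conv w (contDiff_Qf Φ w) (M12 Φ).contDiff)).add
    (contDiff_conv w (M1 Φ).contDiff (M2 Φ).contDiff)).add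
    (contDiff_conv w (contDiff_Qf Φ w)
      ((contDiff_conv w (M1 Φ).contDiff contDiff_const).add
        (contDiff_conv w (M2 Φ).contDiff contDiff_const)))

lemma contDiff_H22f : ContDiff ℝ 1 (H22f Φ w D) := by
  unfold H22f
  exact ((((contDiff_conv w (contDiff_conv w (contDiff_Qf Φ w) (contDiff_Qf Φ w))
    contDiff_const).add (contDiff_conv w (contDiff_Qf Φ w) (M22 Φ).contDiff)).add
    (contDiff_conv w (M2 Φ).contDiff (M2 Φ).contDiff)).add
    ((contDiff_conv w (contDiff_Qf Φ w)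
      (contDiff_conv w (M2 Φ).contDiff contDiff_const)).const_smul (2 : ℝ))).sub
    (contDiff_Trf Φ w D)

lemma contDiff_N0f : ContDiff ℝ 1 (N0f Φ w) := by
  unfold N0f
  exact (contDiff_conv w (M0 Φ).contDiff ((M11 Φ).contDiff.add (M22 Φ).contDiff)).neg.add
    (contDiff_Gf Φ w)

lemma contDiff_N1f : ContDiff ℝ 1 (N1f Φ w D) := by
  unfold N1f
  exact (contDiff_conv w (contDiff_Bf Φ w)
    ((contDiff_conv w (contDiff_T1f Φ w D) (contDiff_T1f Φ w D)).add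
      (contDiff_conv w (contDiff_T2f Φ w D) (contDiff_T2f Φ w D)))).add
    ((contDiff_conv w (contDiff_H11f Φ w D) (contDiff_H22f Φ w D)).sub
      (contDiff_conv w (contDiff_H12f Φ w D) (contDiff_H12f Φ w D)))

theorem contDiff_NN : ContDiff ℝ 1 (NN Φ w D) := by
  unfold NN
  exact P0.contDiff.comp (((contDiff_N0f Φ w).comp contDiff_snd).add
    (contDiff_fst.smul ((contDiff_N1f Φ w D).comp contDiff_snd)))

theorem NN_quad (g : AA) (t : ℝ) : NN Φ w D (0, t • g) = t ^ 2 • NN Φ w D (0, g) := by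
  have hc : ∀ a b : AA, conv w (t • a) (t • b) = t ^ 2 • conv w a b := by
    intro a b
    rw [map_smul, map_smul, FunLike.coe_smul, Pi.smul_apply, smul_smul, pow_two]
  unfold NN
  simp only [zero_smul, add_zero]
  rw [← map_smul]
  congr 1
  unfold N0f Gf
  rw [(M0 Φ).map_smul, (M1 Φ).map_smul, (M2 Φ).map_smul, (M11 Φ).map_smul, (M22 Φ).map_smul,
    ← smul_add, hc, hc, hc, smul_add, smul_add, smul_neg]

lemma cj_add_aux (a b : AA) : cj (a + b) = cj a + cj b := map_add cj a b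

lemma cj_sub_aux (a b : AA) : cj (a - b) = cj a - cj b := map_sub cj a b

lemma cj_neg_aux (a : AA) : cj (-a) = -cj a := map_neg cj a

lemma cj_smul_aux (t : ℝ) (a : AA) : cj (t • a) = t • cj a := map_smul cj t a

lemma cjq_Qf (f : AA) : cj (Qf Φ w f) = Qf Φ w (cj f) := by
  unfold Qf
  rw [cj_add_aux, cj_oneA, cj_M0]

lemma cjq_Gf (f : AA) : cj (Gf Φ w f) = Gf Φ w (cj f) := by
  unfold Gf
  rw [cj_add_aux, cj_conv, cj_conv, cj_M1, cj_M2]

lemma cjq_T1f (h1 : cj D.R1 = D.R1) (f : AA) : cj (T1f Φ w D f) = T1f Φ w D (cj f) := by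
  unfold T1f
  rw [cj_add_aux, cj_conv, cjq_Qf, cj_M1, h1]

lemma cjq_T2f (h2 : cj D.R2 = D.R2) (f : AA) : cj (T2f Φ w D f) = T2f Φ w D (cj f) := by
  unfold T2f
  rw [cj_add_aux, cj_conv, cjq_Qf, cj_M2, h2]

lemma cjq_Bf (f : AA) : cj (Bf Φ w f) = Bf Φ w (cj f) := by
  unfold Bf
  rw [cj_sub_aux, cj_conv, cjq_Qf, cj_add_aux, cj_M11, cj_M22, cjq_Gf]

lemma cjq_Trf (h1 : cj D.R1 = D.R1) (h2 : cj D.R2 = D.R2) (f : AA) :
    cj (Trf Φ w D f) = Trf Φ w D (cj f) := by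
  unfold Trf
  rw [cj_add_aux, cj_conv, cjq_Qf, cj_add_aux, cj_conv, cj_conv, cj_M1, cj_M2, cjq_Gf, h1, h2]

lemma cjq_H11f (h1 : cj D.R1 = D.R1) (h2 : cj D.R2 = D.R2) (h11 : cj D.R11 = D.R11) (f : AA) :
    cj (H11f Φ w D f) = H11f Φ w D (cj f) := by
  unfold H11f
  simp only [cj_sub_aux, cj_add_aux, cj_smul_aux, cj_conv, cjq_Qf, cj_M1, cj_M11,
    cjq_Trf Φ w D h1 h2, h1, h11]

lemma cjq_H12f (h1 : cj D.R1 = D.R1) (h2 : cj D.R2 = D.R2) (h12 : cj D.R12 = D.R12) (f : AA) :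
    cj (H12f Φ w D f) = H12f Φ w D (cj f) := by
  unfold H12f
  simp only [cj_add_aux, cj_conv, cjq_Qf, cj_M1, cj_M2, cj_M12, h1, h2, h12]

lemma cjq_H22f (h1 : cj D.R1 = D.R1) (h2 : cj D.R2 = D.R2) (h22 : cj D.R22 = D.R22) (f : AA) :
    cj (H22f Φ w D f) = H22f Φ w D (cj f) := by
  unfold H22f
  simp only [cj_sub_aux, cj_add_aux, cj_smul_aux, cj_conv, cjq_Qf, cj_M2, cj_M22,
    cjq_Trf Φ w D h1 h2, h2, h22]

lemma cj_N0f (f : AA) : cj (N0f Φ w f) = N0f Φ w (cj f) := by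
  unfold N0f
  rw [cj_add_aux, cj_neg_aux, cj_conv, cj_add_aux, cj_M0, cj_M11, cj_M22, cjq_Gf]

lemma cj_N1f (h1 : cj D.R1 = D.R1) (h2 : cj D.R2 = D.R2) (h11 : cj D.R11 = D.R11)
    (h12 : cj D.R12 = D.R12) (h22 : cj D.R22 = D.R22) (f : AA) :
    cj (N1f Φ w D f) = N1f Φ w D (cj f) := by
  unfold N1f
  simp only [cj_sub_aux, cj_add_aux, cj_conv, cjq_Bf, cjq_T1f Φ w D h1, cjq_T2f Φ w D h2,
    cjq_H11f Φ w D h1 h2 h11, cjq_H12f Φ w D h1 h2 h12, cjq_H22f Φ w D h1 h2 h22]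

theorem cj_NN (h1 : cj D.R1 = D.R1) (h2 : cj D.R2 = D.R2) (h11 : cj D.R11 = D.R11)
    (h12 : cj D.R12 = D.R12) (h22 : cj D.R22 = D.R22) (e : ℝ) (f : AA) :
    cj (NN Φ w D (e, f)) = NN Φ w D (e, cj f) := by
  unfold NN
  rw [cj_P0, cj_add_aux, cj_smul_aux, cj_N0f, cj_N1f Φ w D h1 h2 h11 h12 h22]

end Vale.Agent.P205T
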