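import Vale.Agent.P205T.FourierA

/-! # P205T : Fourier inversion on the square torus -/

namespace Vale.Agent.P205T

open scoped ContDiff
open Real

/-- One-dimensional Fourier inversion for a continuous `1`-periodic function with summable
coefficients, in interval-integral form. -/
private theorem inv_one (h : ℝ → ℂ) (hc : Continuous h) (hp : Function.Periodic h 1)
    (hs : Summable fun n : ℤ =>
      ‖∫ y in (0 : ℝ)..1, h y * Complex.exp (-(2 * π * Complex.I * ((n : ℂ) * y)))‖) (x : ℝ) :
    HasSum (fun n : ℤ =>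
      (∫ y in (0 : ℝ)..1, h y * Complex.exp (-(2 * π * Complex.I * ((n : ℂ) * y))))
        * Complex.exp (2 * π * Complex.I * ((n : ℂ) * x))) (h x) := by
  have : Fact ((0 : ℝ) < 1) := ⟨one_pos⟩
  let f : C(AddCircle (1 : ℝ), ℂ) := ⟨hp.lift, hc.quotient_liftOn' _⟩
  have hf : ∀ y : ℝ, f (y : AddCircle (1 : ℝ)) = h y := fun y => hp.lift_coe y
  have hcoef : ∀ n : ℤ, fourierCoeff (⇑f) n
      = ∫ y in (0 : ℝ)..1, h y * Complex.exp (-(2 * π * Complex.I * ((n : ℂ) * y))) := by
    intro n
    rw [fourierCoeff_eq_intervalIntegral (⇑f) n 0]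
    simp only [zero_add, div_one, one_smul]
    apply intervalIntegral.integral_congr
    intro y _
    simp only [hf, fourier_coe_apply, smul_eq_mul]
    rw [mul_comm]
    congr 2
    push_cast
    ring
  have hsum : Summable (fourierCoeff (⇑f)) := by
    apply Summable.of_norm
    simpa only [hcoef] using hs
  have := has_pointwise_sum_fourier_series_of_summable hsum (x : AddCircle (1 : ℝ))
  rw [hf] at this
  convert this using 2 with n
  rw [hcoef, fourier_coe_apply, smul_eq_mul]
  congr 2
  push_cast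
  ring

private lemma norm_exp_one (t : ℝ) : ‖Complex.exp (2 * π * Complex.I * (t : ℂ))‖ = 1 := by
  have : (2 * π * Complex.I * (t : ℂ) : ℂ) = ((2 * π * t : ℝ) : ℂ) * Complex.I := by
    push_cast; ring
  rw [this, Complex.norm_exp_ofReal_mul_I]

variable {g : ℝ × ℝ → ℝ}

/-- Fourier inversion for a continuous periodic function with summable coefficients.
Route 1: Mathlib `UnitAddTorus (Fin 2)`, `mFourierCoeff_eq_integral`,
`hasSum_mFourier_series_apply_of_summable` (file Mathlib/Analysis/Fourier/AddCircleMulti.lean).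
Route 2: the one-dimensional theorem `has_pointwise_sum_fourier_series_of_summable` twice.
If it helps you may use the extra hypothesis of smoothness (it is available at the call site):
the statement below assumes `ContDiff ℝ ∞ g`. -/
theorem hasSum_cf (hg : ContDiff ℝ ∞ g) (pg : Per (1, 0) (0, 1) g)
    (hs : Summable fun k => ‖cf g k‖) (u v : ℝ) :
    HasSum (fun k : ℤ × ℤ => cf g k *
      Complex.exp (2 * π * Complex.I * ((k.1 : ℂ) * u + (k.2 : ℂ) * v))) (g (u, v) : ℂ) := by
  have hgc : Continuous g := hg.continuous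
  -- partial Fourier coefficients in the second variable
  let c : ℤ → ℝ → ℂ := fun l x =>
    ∫ y in (0 : ℝ)..1, (g (x, y) : ℂ) * Complex.exp (-(2 * π * Complex.I * ((l : ℂ) * y)))
  have hc_cont : ∀ l, Continuous (c l) := by
    intro l
    apply intervalIntegral.continuous_parametric_intervalIntegral_of_continuous'
    have h1 : Continuous fun p : ℝ × ℝ => (g (p.1, p.2) : ℂ) :=
      Complex.continuous_ofReal.comp (hgc.comp (by fun_prop))
    have h2 : Continuous fun p : ℝ × ℝ =>
        Complex.exp (-(2 * π * Complex.I * ((l : ℂ) * (p.2 : ℂ)))) := by fun_prop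
    exact h1.mul h2
  have hc_per : ∀ l, Function.Periodic (c l) 1 := by
    intro l x
    show (∫ y in (0 : ℝ)..1, (g (x + 1, y) : ℂ) * _) = ∫ y in (0 : ℝ)..1, (g (x, y) : ℂ) * _
    apply intervalIntegral.integral_congr
    intro y _
    have := pg.1 (x, y)
    simp only [Prod.mk_add_mk, add_zero] at this
    simp only [this]
  have hc_coef : ∀ l k : ℤ,
      (∫ x in (0 : ℝ)..1, c l x * Complex.exp (-(2 * π * Complex.I * ((k : ℂ) * x))))
        = cf g (k, l) := by
    intro l k
    unfold cf
    apply intervalIntegral.integral_congr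
    intro x _
    show (∫ y in (0 : ℝ)..1, (g (x, y) : ℂ) * Complex.exp (-(2 * π * Complex.I * ((l : ℂ) * y))))
        * Complex.exp (-(2 * π * Complex.I * ((k : ℂ) * x))) = _
    rw [← intervalIntegral.integral_mul_const]
    apply intervalIntegral.integral_congr
    intro y _
    show (g (x, y) : ℂ) * Complex.exp (-(2 * π * Complex.I * ((l : ℂ) * y)))
        * Complex.exp (-(2 * π * Complex.I * ((k : ℂ) * x)))
      = (g (x, y) : ℂ) * Complex.exp (-(2 * π * Complex.I * ((k : ℂ) * x + (l : ℂ) * y)))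
    rw [mul_assoc, ← Complex.exp_add]
    congr 2
    ring
  have hs_k : ∀ l : ℤ, Summable fun k : ℤ => ‖cf g (k, l)‖ := by
    intro l
    have hinj : Function.Injective (fun k : ℤ => ((k, l) : ℤ × ℤ)) :=
      fun a b hab => (Prod.mk.inj hab).1
    exact hs.comp_injective hinj
  -- step A
  have stepA : ∀ (l : ℤ) (x : ℝ), HasSum (fun k : ℤ => cf g (k, l)
      * Complex.exp (2 * π * Complex.I * ((k : ℂ) * x))) (c l x) := by
    intro l x
    have := inv_one (c l) (hc_cont l) (hc_per l) (by simpa only [hc_coef] using hs_k l) x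
    simpa only [hc_coef] using this
  have hnormA : ∀ (l k : ℤ) (x : ℝ),
      ‖cf g (k, l) * Complex.exp (2 * π * Complex.I * ((k : ℂ) * x))‖ = ‖cf g (k, l)‖ := by
    intro l k x
    have : ((k : ℂ) * (x : ℂ)) = (((k : ℝ) * x : ℝ) : ℂ) := by push_cast; ring
    rw [norm_mul, this, norm_exp_one, mul_one]
  have hbound : ∀ (l : ℤ) (x : ℝ), ‖c l x‖ ≤ ∑' k : ℤ, ‖cf g (k, l)‖ := by
    intro l x
    exact (stepA l x).norm_le_of_bounded (hs_k l).hasSum (fun k => (hnormA l k x).le)
  have hs' : Summable fun p : ℤ × ℤ => ‖cf g (p.2, p.1)‖ :=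
    (Equiv.prodComm ℤ ℤ).summable_iff.mpr hs
  have hs_l : Summable fun l : ℤ => ∑' k : ℤ, ‖cf g (k, l)‖ := hs'.prod
  -- step B
  have stepB : HasSum (fun l : ℤ => c l u * Complex.exp (2 * π * Complex.I * ((l : ℂ) * v)))
      (g (u, v) : ℂ) := by
    have hcont : Continuous fun y : ℝ => (g (u, y) : ℂ) :=
      Complex.continuous_ofReal.comp (hgc.comp (by fun_prop))
    have hper : Function.Periodic (fun y : ℝ => (g (u, y) : ℂ)) 1 := by
      intro y
      have := pg.2 (u, y)
      simp only [Prod.mk_add_mk, add_zero] at this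
      simp only [this]
    exact inv_one (fun y : ℝ => (g (u, y) : ℂ)) hcont hper
      (Summable.of_nonneg_of_le (fun l => norm_nonneg _) (fun l => hbound l u) hs_l) v
  -- step C
  have hnormF : ∀ k : ℤ × ℤ, ‖cf g k *
      Complex.exp (2 * π * Complex.I * ((k.1 : ℂ) * u + (k.2 : ℂ) * v))‖ = ‖cf g k‖ := by
    intro k
    have : ((k.1 : ℂ) * (u : ℂ) + (k.2 : ℂ) * (v : ℂ))
        = (((k.1 : ℝ) * u + (k.2 : ℝ) * v : ℝ) : ℂ) := by push_cast; ring
    rw [norm_mul, this, norm_exp_one, mul_one]
  have hsumF : Summable (fun k : ℤ × ℤ => cf g k *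
      Complex.exp (2 * π * Complex.I * ((k.1 : ℂ) * u + (k.2 : ℂ) * v))) := by
    apply Summable.of_norm
    simpa only [hnormF] using hs
  have hF := hsumF.hasSum
  have hF' := (Equiv.prodComm ℤ ℤ).hasSum_iff.mpr hF
  have hfib : ∀ l : ℤ, HasSum (fun k : ℤ => ((fun k : ℤ × ℤ => cf g k *
      Complex.exp (2 * π * Complex.I * ((k.1 : ℂ) * u + (k.2 : ℂ) * v))) ∘
        (Equiv.prodComm ℤ ℤ)) (l, k)) (c l u * Complex.exp (2 * π * Complex.I * ((l : ℂ) * v))) := by
    intro l
    have := (stepA l u).mul_right (Complex.exp (2 * π * Complex.I * ((l : ℂ) * v)))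
    have e : (fun k : ℤ => ((fun k : ℤ × ℤ => cf g k *
        Complex.exp (2 * π * Complex.I * ((k.1 : ℂ) * u + (k.2 : ℂ) * v))) ∘
          (Equiv.prodComm ℤ ℤ)) (l, k))
        = fun i : ℤ => cf g (i, l) * Complex.exp (2 * π * Complex.I * ((i : ℂ) * u))
          * Complex.exp (2 * π * Complex.I * ((l : ℂ) * v)) := by
      funext k
      show cf g (k, l) * Complex.exp (2 * π * Complex.I * ((k : ℂ) * u + (l : ℂ) * v)) = _
      rw [mul_assoc (cf g (k, l)), ← Complex.exp_add]
      congr 2
      ring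
    rw [e]
    exact this
  have hC := hF'.prod_fiberwise hfib
  rw [← hC.unique stepB]
  exact hF

end Vale.Agent.P205T
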