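import Vale.Agent.P205T.Defs

/-! # P205T : the frequencies (dual lattice times `2 π`) of a lattice -/

namespace Vale.Agent.P205T

open Real

private lemma growth_aux (p q x y S D : ℝ) (hD : D ≠ 0) (hx : |x| ≤ S) (hy : |y| ≤ S) :
    |2 * π * (p * x + q * y) / D| ≤ 2 * π * S / |D| * (1 + |p| + |q|) := by
  have hDp : 0 < |D| := abs_pos.2 hD
  have hS : 0 ≤ S := le_trans (abs_nonneg x) hx
  have hpi : 0 < π := Real.pi_pos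
  rw [abs_div, abs_mul, abs_of_pos (by positivity : (0 : ℝ) < 2 * π)]
  rw [div_mul_eq_mul_div]
  apply div_le_div_of_nonneg_right _ hDp.le
  have h1 : |p * x + q * y| ≤ |p| * S + |q| * S := by
    calc |p * x + q * y| ≤ |p * x| + |q * y| := abs_add_le _ _
      _ = |p| * |x| + |q| * |y| := by rw [abs_mul, abs_mul]
      _ ≤ |p| * S + |q| * S := by
          gcongr
  have h2 : |p| * S + |q| * S ≤ S * (1 + |p| + |q|) := by nlinarith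
  calc 2 * π * |p * x + q * y| ≤ 2 * π * (S * (1 + |p| + |q|)) := by
        apply mul_le_mul_of_nonneg_left (h1.trans h2) (by positivity)
    _ = 2 * π * S * (1 + |p| + |q|) := by ring

private lemma sumsq_pos (a b c d : ℝ) (h : a * d - b * c ≠ 0) : 0 < a ^ 2 + b ^ 2 + c ^ 2 + d ^ 2 := by
  by_contra hcon
  have h0 : a ^ 2 + b ^ 2 + c ^ 2 + d ^ 2 = 0 := le_antisymm (not_lt.1 hcon) (by positivity)
  have ha : a = 0 := by nlinarith [sq_nonneg a, sq_nonneg b, sq_nonneg c, sq_nonneg d]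
  have hb : b = 0 := by nlinarith [sq_nonneg a, sq_nonneg b, sq_nonneg c, sq_nonneg d]
  apply h
  rw [ha, hb]
  ring

private lemma ell_aux (a b c d A B : ℝ) (k1 k2 : ℤ) (hk : (k1, k2) ≠ (0 : ℤ × ℤ))
    (hS : 0 < a ^ 2 + b ^ 2 + c ^ 2 + d ^ 2)
    (h1 : A * a + B * b = 2 * π * (k1 : ℝ)) (h2 : A * c + B * d = 2 * π * (k2 : ℝ)) :
    (2 * π) ^ 2 / (a ^ 2 + b ^ 2 + c ^ 2 + d ^ 2) ≤ A ^ 2 + B ^ 2 := by
  rw [div_le_iff₀ hS]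
  have hkk : (1 : ℤ) ≤ k1 ^ 2 + k2 ^ 2 := by
    by_contra hcon
    have h0 : k1 ^ 2 + k2 ^ 2 ≤ 0 := by omega
    have e1 : k1 = 0 := by nlinarith [sq_nonneg k1, sq_nonneg k2]
    have e2 : k2 = 0 := by nlinarith [sq_nonneg k1, sq_nonneg k2]
    apply hk
    rw [e1, e2]
    rfl
  have hkr : (1 : ℝ) ≤ (k1 : ℝ) ^ 2 + (k2 : ℝ) ^ 2 := by exact_mod_cast hkk
  have c1 : (2 * π * (k1 : ℝ)) ^ 2 ≤ (A ^ 2 + B ^ 2) * (a ^ 2 + b ^ 2) := by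
    rw [← h1]
    nlinarith [sq_nonneg (A * b - B * a)]
  have c2 : (2 * π * (k2 : ℝ)) ^ 2 ≤ (A ^ 2 + B ^ 2) * (c ^ 2 + d ^ 2) := by
    rw [← h2]
    nlinarith [sq_nonneg (A * d - B * c)]
  have hp : 0 ≤ (2 * π) ^ 2 := by positivity
  nlinarith

private lemma per1_aux (a b c d p q : ℝ) (hD : a * d - b * c ≠ 0) :
    2 * π * (p * d - q * b) / (a * d - b * c) * a + 2 * π * (-p * c + q * a) / (a * d - b * c) * b
      = 2 * π * p := by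
  rw [div_mul_eq_mul_div, div_mul_eq_mul_div, ← add_div, div_eq_iff hD]
  ring

private lemma per2_aux (a b c d p q : ℝ) (hD : a * d - b * c ≠ 0) :
    2 * π * (p * d - q * b) / (a * d - b * c) * c + 2 * π * (-p * c + q * a) / (a * d - b * c) * d
      = 2 * π * q := by
  rw [div_mul_eq_mul_div, div_mul_eq_mul_div, ← add_div, div_eq_iff hD]
  ring

/-- `α k = 2 π (k₁ ω₂.2 - k₂ ω₁.2) / Δ`, `β k = 2 π (- k₁ ω₂.1 + k₂ ω₁.1) / Δ`,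
`Δ = ω₁.1 ω₂.2 - ω₁.2 ω₂.1`.  Ellipticity: `2 π k₁ = α k ω₁.1 + β k ω₁.2` and Cauchy-Schwarz give
`(2 π k₁)² ≤ (α² + β²) |ω₁|²`, same for `k₂`; if `k ≠ 0` one of `|k₁|, |k₂|` is at least `1`. -/
noncomputable def freqOf (ω₁ ω₂ : ℝ × ℝ) (hω : ω₁.1 * ω₂.2 - ω₁.2 * ω₂.1 ≠ 0) : Freq where
  α := AddMonoidHom.mk' (fun k : ℤ × ℤ =>
      2 * π * ((k.1 : ℝ) * ω₂.2 - (k.2 : ℝ) * ω₁.2) / (ω₁.1 * ω₂.2 - ω₁.2 * ω₂.1)) (by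
    intro a b
    simp only [Prod.fst_add, Prod.snd_add, Int.cast_add]
    ring)
  β := AddMonoidHom.mk' (fun k : ℤ × ℤ =>
      2 * π * (-(k.1 : ℝ) * ω₂.1 + (k.2 : ℝ) * ω₁.1) / (ω₁.1 * ω₂.2 - ω₁.2 * ω₂.1)) (by
    intro a b
    simp only [Prod.fst_add, Prod.snd_add, Int.cast_add]
    ring)
  C := 2 * π * (|ω₁.1| + |ω₁.2| + |ω₂.1| + |ω₂.2|) / |ω₁.1 * ω₂.2 - ω₁.2 * ω₂.1|
  hα := by
    intro k
    have h := growth_aux (k.1 : ℝ) (k.2 : ℝ) ω₂.2 (-ω₁.2) (|ω₁.1| + |ω₁.2| + |ω₂.1| + |ω₂.2|)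
      (ω₁.1 * ω₂.2 - ω₁.2 * ω₂.1) hω
      (by
        have := abs_nonneg ω₁.1
        have := abs_nonneg ω₁.2
        have := abs_nonneg ω₂.1
        linarith)
      (by
        rw [abs_neg]
        have := abs_nonneg ω₁.1
        have := abs_nonneg ω₂.2
        have := abs_nonneg ω₂.1
        linarith)
    simp only [AddMonoidHom.mk'_apply, nrm]
    have e : (k.1 : ℝ) * ω₂.2 - (k.2 : ℝ) * ω₁.2 = (k.1 : ℝ) * ω₂.2 + (k.2 : ℝ) * (-ω₁.2) := by ring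
    rw [e]
    exact h
  hβ := by
    intro k
    have h := growth_aux (k.1 : ℝ) (k.2 : ℝ) (-ω₂.1) ω₁.1 (|ω₁.1| + |ω₁.2| + |ω₂.1| + |ω₂.2|)
      (ω₁.1 * ω₂.2 - ω₁.2 * ω₂.1) hω
      (by
        rw [abs_neg]
        have := abs_nonneg ω₁.1
        have := abs_nonneg ω₁.2
        have := abs_nonneg ω₂.2
        linarith)
      (by
        have := abs_nonneg ω₁.2
        have := abs_nonneg ω₂.2
        have := abs_nonneg ω₂.1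
        linarith)
    simp only [AddMonoidHom.mk'_apply, nrm]
    have e : -(k.1 : ℝ) * ω₂.1 + (k.2 : ℝ) * ω₁.1 = (k.1 : ℝ) * (-ω₂.1) + (k.2 : ℝ) * ω₁.1 := by ring
    rw [e]
    exact h
  m := (2 * π) ^ 2 / (ω₁.1 ^ 2 + ω₁.2 ^ 2 + ω₂.1 ^ 2 + ω₂.2 ^ 2)
  hm := by
    have hS := sumsq_pos ω₁.1 ω₁.2 ω₂.1 ω₂.2 hω
    have hpi : 0 < π := Real.pi_pos
    positivity
  ell := by
    intro k hk
    have hS := sumsq_pos ω₁.1 ω₁.2 ω₂.1 ω₂.2 hω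
    simp only [AddMonoidHom.mk'_apply]
    apply ell_aux ω₁.1 ω₁.2 ω₂.1 ω₂.2 _ _ k.1 k.2 hk hS
    · exact per1_aux ω₁.1 ω₁.2 ω₂.1 ω₂.2 k.1 k.2 hω
    · exact per2_aux ω₁.1 ω₁.2 ω₂.1 ω₂.2 k.1 k.2 hω

variable (ω₁ ω₂ : ℝ × ℝ) (hω : ω₁.1 * ω₂.2 - ω₁.2 * ω₂.1 ≠ 0)

lemma freqOf_phase (k : ℤ × ℤ) (z : ℝ × ℝ) :
    (freqOf ω₁ ω₂ hω).α k * z.1 + (freqOf ω₁ ω₂ hω).β k * z.2 =
      2 * π * ((k.1 : ℝ) * ((ω₂.2 * z.1 - ω₂.1 * z.2) / (ω₁.1 * ω₂.2 - ω₁.2 * ω₂.1)) +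
        (k.2 : ℝ) * ((-ω₁.2 * z.1 + ω₁.1 * z.2) / (ω₁.1 * ω₂.2 - ω₁.2 * ω₂.1))) := by
  simp only [freqOf, AddMonoidHom.mk'_apply]
  ring

lemma freqOf_period₁ (k : ℤ × ℤ) :
    (freqOf ω₁ ω₂ hω).α k * ω₁.1 + (freqOf ω₁ ω₂ hω).β k * ω₁.2 = 2 * π * (k.1 : ℤ) := by
  simp only [freqOf, AddMonoidHom.mk'_apply]
  exact per1_aux ω₁.1 ω₁.2 ω₂.1 ω₂.2 k.1 k.2 hω

lemma freqOf_period₂ (k : ℤ × ℤ) :
    (freqOf ω₁ ω₂ hω).α k * ω₂.1 + (freqOf ω₁ ω₂ hω).β k * ω₂.2 = 2 * π * (k.2 : ℤ) := by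
  simp only [freqOf, AddMonoidHom.mk'_apply]
  exact per2_aux ω₁.1 ω₁.2 ω₂.1 ω₂.2 k.1 k.2 hω

end Vale.Agent.P205T
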