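import Vale.Agent.P205T.Defs

/-! # P205T : characters, rapidly decreasing coefficient families, Hermitian symmetry -/

namespace Vale.Agent.P205T

variable (Φ : Freq)

lemma one_le_nrm (k : ℤ × ℤ) : 1 ≤ nrm k := by
  unfold nrm
  have h1 := abs_nonneg (k.1 : ℝ)
  have h2 := abs_nonneg (k.2 : ℝ)
  linarith

lemma nrm_neg (k : ℤ × ℤ) : nrm (-k) = nrm k := by
  simp [nrm]

lemma norm_chr (k : ℤ × ℤ) (z : ℝ × ℝ) : ‖chr Φ k z‖ = 1 := by
  unfold chr
  rw [mul_comm]
  exact Complex.norm_exp_ofReal_mul_I _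

lemma chr_zero (z : ℝ × ℝ) : chr Φ 0 z = 1 := by
  simp [chr]

lemma chr_add (k l : ℤ × ℤ) (z : ℝ × ℝ) : chr Φ (k + l) z = chr Φ k z * chr Φ l z := by
  unfold chr
  rw [← Complex.exp_add]
  congr 1
  rw [map_add, map_add]
  push_cast
  ring

lemma chr_neg (k : ℤ × ℤ) (z : ℝ × ℝ) : chr Φ (-k) z = (starRingEnd ℂ) (chr Φ k z) := by
  unfold chr
  rw [← Complex.exp_conj]
  congr 1
  rw [map_neg, map_neg, map_mul, Complex.conj_I, Complex.conj_ofReal]
  push_cast
  ring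

/-- Periodicity of the characters. -/
lemma chr_add_period {ω : ℝ × ℝ} (k : ℤ × ℤ) {n : ℤ}
    (h : Φ.α k * ω.1 + Φ.β k * ω.2 = 2 * Real.pi * n) (z : ℝ × ℝ) :
    chr Φ k (z + ω) = chr Φ k z := by
  unfold chr
  have e1 : Complex.I * ((Φ.α k * (z + ω).1 + Φ.β k * (z + ω).2 : ℝ) : ℂ)
      = Complex.I * ((Φ.α k * z.1 + Φ.β k * z.2 : ℝ) : ℂ) + n * (2 * Real.pi * Complex.I) := by
    have e2 : Φ.α k * (z + ω).1 + Φ.β k * (z + ω).2
        = (Φ.α k * z.1 + Φ.β k * z.2) + 2 * Real.pi * n := by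
      rw [← h]
      simp only [Prod.fst_add, Prod.snd_add]
      ring
    rw [e2]
    push_cast
    ring
  rw [e1, Complex.exp_add, Complex.exp_int_mul_two_pi_mul_I, mul_one]

variable {Φ} {c d : ℤ × ℤ → ℂ}

lemma RD.summable_norm (hc : RD c) : Summable fun k => ‖c k‖ := by
  simpa using hc 0

lemma RD.summable_chr (hc : RD c) (z : ℝ × ℝ) : Summable fun k => c k * chr Φ k z := by
  refine Summable.of_norm ?_
  simpa [norm_mul, norm_chr] using hc.summable_norm

lemma RD.add (hc : RD c) (hd : RD d) : RD (fun k => c k + d k) := by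
  intro m
  refine Summable.of_nonneg_of_le (fun k => ?_) (fun k => ?_) ((hc m).add (hd m))
  · exact mul_nonneg (norm_nonneg _) (pow_nonneg (le_trans zero_le_one (one_le_nrm k)) _)
  · rw [← add_mul]
    exact mul_le_mul_of_nonneg_right (norm_add_le _ _)
      (pow_nonneg (le_trans zero_le_one (one_le_nrm k)) _)

lemma RD.const_mul (hc : RD c) (t : ℂ) : RD (fun k => t * c k) := by
  intro m
  have h := (hc m).mul_left ‖t‖
  refine h.congr fun k => ?_
  rw [norm_mul, mul_assoc]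

private lemma RD.mul_lin (hc : RD c) (a : ℤ × ℤ → ℝ) (C : ℝ) (ha : ∀ k, |a k| ≤ C * nrm k) :
    RD (fun k => Complex.I * (a k : ℂ) * c k) := by
  intro m
  have h := (hc (m + 1)).mul_left C
  refine Summable.of_nonneg_of_le (fun k => ?_) (fun k => ?_) h
  · exact mul_nonneg (norm_nonneg _) (pow_nonneg (le_trans zero_le_one (one_le_nrm k)) _)
  · have hn : 0 ≤ nrm k := le_trans zero_le_one (one_le_nrm k)
    rw [norm_mul, norm_mul, Complex.norm_I, one_mul, Complex.norm_real, Real.norm_eq_abs]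
    calc |a k| * ‖c k‖ * nrm k ^ m ≤ (C * nrm k) * ‖c k‖ * nrm k ^ m := by
          refine mul_le_mul_of_nonneg_right ?_ (pow_nonneg hn _)
          exact mul_le_mul_of_nonneg_right (ha k) (norm_nonneg _)
      _ = C * (‖c k‖ * nrm k ^ (m + 1)) := by ring

lemma RD.Da (hc : RD c) : RD (Da Φ c) := hc.mul_lin _ Φ.C Φ.hα

lemma RD.Db (hc : RD c) : RD (Db Φ c) := hc.mul_lin _ Φ.C Φ.hβ

lemma Herm.Da (hc : Herm c) : Herm (Da Φ c) := by
  intro k
  unfold P205T.Da
  rw [hc k, map_neg, map_mul, map_mul, Complex.conj_I, Complex.conj_ofReal]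
  push_cast
  ring

lemma Herm.Db (hc : Herm c) : Herm (Db Φ c) := by
  intro k
  unfold P205T.Db
  rw [hc k, map_neg, map_mul, map_mul, Complex.conj_I, Complex.conj_ofReal]
  push_cast
  ring

/-- A Hermitian family sums to a real function. -/
lemma evs_eq_evr (hc : RD c) (hh : Herm c) (z : ℝ × ℝ) : evs Φ c z = (evr Φ c z : ℂ) := by
  have hconj : (starRingEnd ℂ) (evs Φ c z) = evs Φ c z := by
    unfold evs
    rw [Complex.conj_tsum]
    have e1 : ∀ k, (starRingEnd ℂ) (c k * chr Φ k z) = c (-k) * chr Φ (-k) z := by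
      intro k
      rw [map_mul, hh k, chr_neg]
    simp_rw [e1]
    exact (Equiv.neg (ℤ × ℤ)).tsum_eq (fun k => c k * chr Φ k z)
  unfold evr
  exact ((Complex.conj_eq_iff_real.mp hconj).elim fun r hr => by rw [hr]; simp)

lemma norm_evs_le (hc : RD c) (z : ℝ × ℝ) : ‖evs Φ c z‖ ≤ ∑' k, ‖c k‖ := by
  unfold evs
  have h : Summable fun k => ‖c k * chr Φ k z‖ := by
    simpa [norm_mul, norm_chr] using hc.summable_norm
  refine (norm_tsum_le_tsum_norm h).trans (le_of_eq ?_)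
  refine tsum_congr fun k => ?_
  rw [norm_mul, norm_chr, mul_one]

lemma evs_add_period {ω : ℝ × ℝ}
    (h : ∀ k, ∃ n : ℤ, Φ.α k * ω.1 + Φ.β k * ω.2 = 2 * Real.pi * n) (z : ℝ × ℝ) :
    evs Φ c (z + ω) = evs Φ c z := by
  unfold evs
  refine tsum_congr fun k => ?_
  obtain ⟨n, hn⟩ := h k
  rw [chr_add_period Φ k hn]

end Vale.Agent.P205T
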