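import Vale.Agent.P205T.FourierRD
import Vale.Agent.P205T.FourierInv
import Vale.Agent.P205T.Lattice
import Vale.Agent.P205T.SeriesA

/-! # P205T : Fourier series of a smooth function periodic under a general lattice -/

namespace Vale.Agent.P205T

open scoped ContDiff
open Real

/-- Apply `RD_cf`, `herm_cf`, `hasSum_cf` to `g (u, v) = ρ (u • ω₁ + v • ω₂)` and use
`freqOf_phase`. -/
theorem exists_fourier (ω₁ ω₂ : ℝ × ℝ) (hω : ω₁.1 * ω₂.2 - ω₁.2 * ω₂.1 ≠ 0) (ρ : ℝ × ℝ → ℝ)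
    (hρ : ContDiff ℝ ∞ ρ) (pρ : Per ω₁ ω₂ ρ) :
    ∃ c : ℤ × ℤ → ℂ, RD c ∧ Herm c ∧ ∀ z, (ρ z : ℂ) = evs (freqOf ω₁ ω₂ hω) c z := by
  set g : ℝ × ℝ → ℝ := fun p => ρ (p.1 • ω₁ + p.2 • ω₂) with hgdef
  have hg : ContDiff ℝ ∞ g := by
    apply hρ.comp
    exact (contDiff_fst.smul contDiff_const).add (contDiff_snd.smul contDiff_const)
  have pg : Per (1, 0) (0, 1) g := by
    constructor
    · intro z
      have h : (z + ((1 : ℝ), (0 : ℝ))).1 • ω₁ + (z + ((1 : ℝ), (0 : ℝ))).2 • ω₂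
          = (z.1 • ω₁ + z.2 • ω₂) + ω₁ := by
        simp only [Prod.fst_add, Prod.snd_add, add_zero, add_smul, one_smul]
        abel
      simp only [hgdef]
      rw [h, pρ.1]
    · intro z
      have h : (z + ((0 : ℝ), (1 : ℝ))).1 • ω₁ + (z + ((0 : ℝ), (1 : ℝ))).2 • ω₂
          = (z.1 • ω₁ + z.2 • ω₂) + ω₂ := by
        simp only [Prod.fst_add, Prod.snd_add, add_zero, add_smul, one_smul]
        abel
      simp only [hgdef]
      rw [h, pρ.2]
  have hRD : RD (cf g) := RD_cf hg pg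
  refine ⟨cf g, hRD, herm_cf hg.continuous, ?_⟩
  intro z
  set u : ℝ := (ω₂.2 * z.1 - ω₂.1 * z.2) / (ω₁.1 * ω₂.2 - ω₁.2 * ω₂.1) with hu
  set v : ℝ := (-ω₁.2 * z.1 + ω₁.1 * z.2) / (ω₁.1 * ω₂.2 - ω₁.2 * ω₂.1) with hv
  have hz : u • ω₁ + v • ω₂ = z := by
    apply Prod.ext
    · simp only [Prod.fst_add, Prod.smul_fst, smul_eq_mul, hu, hv]
      rw [div_mul_eq_mul_div, div_mul_eq_mul_div, ← add_div, div_eq_iff hω]
      ring
    · simp only [Prod.snd_add, Prod.smul_snd, smul_eq_mul, hu, hv]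
      rw [div_mul_eq_mul_div, div_mul_eq_mul_div, ← add_div, div_eq_iff hω]
      ring
  have hs := hasSum_cf hg pg hRD.summable_norm u v
  have hguv : g (u, v) = ρ z := by
    simp only [hgdef]
    rw [hz]
  rw [hguv] at hs
  have hterm : ∀ k : ℤ × ℤ, cf g k * chr (freqOf ω₁ ω₂ hω) k z
      = cf g k * Complex.exp (2 * π * Complex.I * ((k.1 : ℂ) * u + (k.2 : ℂ) * v)) := by
    intro k
    have hph : (freqOf ω₁ ω₂ hω).α k * z.1 + (freqOf ω₁ ω₂ hω).β k * z.2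
        = 2 * π * ((k.1 : ℝ) * u + (k.2 : ℝ) * v) := freqOf_phase ω₁ ω₂ hω k z
    unfold chr
    rw [hph]
    congr 2
    push_cast
    ring
  unfold evs
  rw [tsum_congr hterm]
  exact hs.tsum_eq.symm

end Vale.Agent.P205T
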