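import Vale.Agent.P205T.Defs

/-! # P205T : a submultiplicative super-polynomial weight adapted to a rapidly decreasing family -/

namespace Vale.Agent.P205T

/-- Convexity bound: `(1 + δ x)^m ≤ 1 - δ + δ (1 + x)^m` for `0 ≤ δ ≤ 1`, `0 ≤ x`. -/
theorem conv_bound (δ x : ℝ) (hδ0 : 0 ≤ δ) (hδ1 : δ ≤ 1) (hx : 0 ≤ x) (m : ℕ) :
    (1 + δ * x) ^ m ≤ 1 - δ + δ * (1 + x) ^ m := by
  induction m with
  | zero => simp
  | succ m ih =>
    have y1 : 1 ≤ (1 + x) ^ m := one_le_pow₀ (by linarith)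
    have h1 : 0 ≤ 1 + δ * x := by positivity
    calc (1 + δ * x) ^ (m + 1) = (1 + δ * x) ^ m * (1 + δ * x) := pow_succ _ _
      _ ≤ (1 - δ + δ * (1 + x) ^ m) * (1 + δ * x) := mul_le_mul_of_nonneg_right ih h1
      _ ≤ 1 - δ + δ * (1 + x) ^ (m + 1) := by
        rw [pow_succ]
        nlinarith [mul_nonneg (mul_nonneg hδ0 hx)
          (mul_nonneg (sub_nonneg.2 hδ1) (sub_nonneg.2 y1))]

theorem one_le_nrm (k : ℤ × ℤ) : 1 ≤ nrm k := by
  unfold nrm
  linarith [abs_nonneg (k.1 : ℝ), abs_nonneg (k.2 : ℝ)]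

theorem nrm_add_le (k l : ℤ × ℤ) : nrm (k + l) - 1 ≤ (nrm k - 1) + (nrm l - 1) := by
  unfold nrm
  have h1 : |((k + l).1 : ℝ)| ≤ |(k.1 : ℝ)| + |(l.1 : ℝ)| := by
    rw [Prod.fst_add, Int.cast_add]; exact abs_add_le _ _
  have h2 : |((k + l).2 : ℝ)| ≤ |(k.2 : ℝ)| + |(l.2 : ℝ)| := by
    rw [Prod.snd_add, Int.cast_add]; exact abs_add_le _ _
  linarith

theorem nrm_neg (k : ℤ × ℤ) : nrm (-k) = nrm k := by
  unfold nrm
  simp

/-- Construction.  `S j = ∑' k, ‖c k‖ * nrm k ^ j`, `δ m = 1 / ((m + 1)! (1 + S (m + 2)))`,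
`W k = ⨆ m, (1 + δ m (nrm k - 1)) ^ m`.  Every function under the supremum is `≥ 1`,
submultiplicative and even, hence so is the supremum; the `m`-th one dominates `δ m ^ m nrm ^ m`;
and `(1 + δ x) ^ m ≤ 1 + δ (1 + x) ^ m` gives `W k ≤ 1 + ∑' m, δ m nrm k ^ m`, which is summable
against `‖c k‖ nrm k ^ 2` by Tonelli. -/
theorem exists_weight (c : ℤ × ℤ → ℂ) (hc : RD c) :
    ∃ w : Wt, Summable fun k => ‖c k‖ * nrm k ^ 2 * w.W k := by
  classical
  set S : ℕ → ℝ := fun j => ∑' k, ‖c k‖ * nrm k ^ j with hS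
  have hn0 : ∀ k, 0 ≤ nrm k := fun k => le_trans zero_le_one (one_le_nrm k)
  have hS0 : ∀ j, 0 ≤ S j := fun j =>
    tsum_nonneg (fun k => mul_nonneg (norm_nonneg _) (pow_nonneg (hn0 k) _))
  set δ : ℕ → ℝ := fun m => 1 / (((m + 1).factorial : ℝ) * (1 + S (m + 2))) with hδ
  have hfac : ∀ m : ℕ, (0 : ℝ) < (m.factorial : ℝ) := fun m => by exact_mod_cast m.factorial_pos
  have hδpos : ∀ m, 0 < δ m := by
    intro m
    have := hS0 (m + 2)
    have := hfac (m + 1)
    simp only [hδ]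
    positivity
  have hfacle : ∀ m : ℕ, (m.factorial : ℝ) ≤ ((m + 1).factorial : ℝ) := by
    intro m
    exact_mod_cast Nat.factorial_le (Nat.le_succ m)
  have hδle : ∀ m, δ m ≤ 1 / (m.factorial : ℝ) := by
    intro m
    simp only [hδ]
    apply one_div_le_one_div_of_le (hfac m)
    have h1 := hS0 (m + 2)
    have h2 := hfacle m
    have h3 := hfac (m + 1)
    nlinarith
  have hδ1 : ∀ m, δ m ≤ 1 := by
    intro m
    refine le_trans (hδle m) ?_
    rw [div_le_one (hfac m)]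
    exact_mod_cast Nat.succ_le_of_lt m.factorial_pos
  have hδS : ∀ m, δ m * S (m + 2) ≤ 1 / (m.factorial : ℝ) := by
    intro m
    have h1 := hS0 (m + 2)
    have h2 := hfacle m
    have h3 := hfac (m + 1)
    have h4 := hfac m
    simp only [hδ]
    rw [one_div_mul_eq_div, div_le_div_iff₀ (by positivity) h4]
    nlinarith [mul_nonneg h1 h4.le]
  -- the functions under the supremum
  set F : ℕ → ℤ × ℤ → ℝ := fun m k => (1 + δ m * (nrm k - 1)) ^ m with hF
  have hx0 : ∀ k, 0 ≤ nrm k - 1 := fun k => sub_nonneg.2 (one_le_nrm k)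
  have hFle : ∀ m k, F m k ≤ 1 + δ m * nrm k ^ m := by
    intro m k
    have h := conv_bound (δ m) (nrm k - 1) (hδpos m).le (hδ1 m) (hx0 k) m
    have e : 1 + (nrm k - 1) = nrm k := by ring
    rw [e] at h
    have := (hδpos m).le
    simp only [hF]
    linarith
  have hterm : ∀ m k, δ m * nrm k ^ m ≤ nrm k ^ m / (m.factorial : ℝ) := by
    intro m k
    have := mul_le_mul_of_nonneg_right (hδle m) (pow_nonneg (hn0 k) m)
    calc δ m * nrm k ^ m ≤ 1 / (m.factorial : ℝ) * nrm k ^ m := this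
      _ = nrm k ^ m / (m.factorial : ℝ) := by ring
  have hsumm : ∀ k, Summable fun m => δ m * nrm k ^ m := by
    intro k
    refine Summable.of_nonneg_of_le (fun m => mul_nonneg (hδpos m).le (pow_nonneg (hn0 k) m))
      (fun m => hterm m k) (Real.summable_pow_div_factorial (nrm k))
  have hFle2 : ∀ m k, F m k ≤ 1 + ∑' j, δ j * nrm k ^ j := by
    intro m k
    have h1 : δ m * nrm k ^ m ≤ ∑' j, δ j * nrm k ^ j :=
      (hsumm k).le_tsum m (fun j _ => mul_nonneg (hδpos j).le (pow_nonneg (hn0 k) j))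
    linarith [hFle m k]
  have hbdd : ∀ k, BddAbove (Set.range fun m => F m k) := by
    intro k
    refine ⟨1 + ∑' j, δ j * nrm k ^ j, ?_⟩
    rintro _ ⟨m, rfl⟩
    exact hFle2 m k
  have hF1 : ∀ m k, 1 ≤ F m k := by
    intro m k
    simp only [hF]
    apply one_le_pow₀
    have := mul_nonneg (hδpos m).le (hx0 k)
    linarith
  let W : ℤ × ℤ → ℝ := fun k => ⨆ m, F m k
  have hWge : ∀ m k, F m k ≤ W k := fun m k => le_ciSup (hbdd k) m
  have hWle : ∀ k, W k ≤ 1 + ∑' j, δ j * nrm k ^ j := fun k => ciSup_le (fun m => hFle2 m k)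
  have hW1 : ∀ k, 1 ≤ W k := fun k => le_trans (hF1 0 k) (hWge 0 k)
  refine ⟨⟨W, hW1, ?_, ?_, ?_⟩, ?_⟩
  · -- submultiplicativity
    intro k l
    apply ciSup_le
    intro m
    have hb : 1 + δ m * (nrm (k + l) - 1)
        ≤ (1 + δ m * (nrm k - 1)) * (1 + δ m * (nrm l - 1)) := by
      have h1 := mul_le_mul_of_nonneg_left (nrm_add_le k l) (hδpos m).le
      have h2 := mul_nonneg (mul_nonneg (hδpos m).le (hx0 k)) (mul_nonneg (hδpos m).le (hx0 l))
      nlinarith
    have hb0 : 0 ≤ 1 + δ m * (nrm (k + l) - 1) := by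
      have := mul_nonneg (hδpos m).le (hx0 (k + l))
      linarith
    calc F m (k + l) = (1 + δ m * (nrm (k + l) - 1)) ^ m := rfl
      _ ≤ ((1 + δ m * (nrm k - 1)) * (1 + δ m * (nrm l - 1))) ^ m :=
        pow_le_pow_left₀ hb0 hb m
      _ = F m k * F m l := by simp only [hF]; rw [mul_pow]
      _ ≤ W k * W l :=
        mul_le_mul (hWge m k) (hWge m l) (le_trans zero_le_one (hF1 m l))
          (le_trans zero_le_one (hW1 k))
  · -- evenness
    intro k
    show (⨆ m, F m (-k)) = ⨆ m, F m k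
    simp only [hF, nrm_neg]
  · -- super-polynomial growth
    intro m
    refine ⟨(δ m ^ m)⁻¹, fun k => ?_⟩
    have hpos : 0 < δ m ^ m := pow_pos (hδpos m) m
    have h1 : δ m * nrm k ≤ 1 + δ m * (nrm k - 1) := by
      have := hδ1 m
      nlinarith
    have h2 : (δ m * nrm k) ^ m ≤ F m k :=
      pow_le_pow_left₀ (mul_nonneg (hδpos m).le (hn0 k)) h1 m
    have h3 : δ m ^ m * nrm k ^ m ≤ W k := by
      rw [← mul_pow]; exact le_trans h2 (hWge m k)
    rw [inv_mul_eq_div, le_div_iff₀ hpos]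
    linarith
  · -- summability
    show Summable fun k => ‖c k‖ * nrm k ^ 2 * W k
    -- the double family
    let G : (ℤ × ℤ) × ℕ → ℝ := fun p => δ p.2 * (‖c p.1‖ * nrm p.1 ^ (p.2 + 2))
    have hG0 : 0 ≤ G := fun p =>
      mul_nonneg (hδpos p.2).le (mul_nonneg (norm_nonneg _) (pow_nonneg (hn0 p.1) _))
    have hGs : Summable G := by
      rw [← (Equiv.prodComm ℕ (ℤ × ℤ)).summable_iff]
      rw [summable_prod_of_nonneg (f := G ∘ (Equiv.prodComm ℕ (ℤ × ℤ))) (fun p => hG0 _)]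
      constructor
      · intro m
        exact (hc (m + 2)).mul_left (δ m)
      · have e : (fun m : ℕ => ∑' k : ℤ × ℤ, (G ∘ (Equiv.prodComm ℕ (ℤ × ℤ))) (m, k))
            = fun m => δ m * S (m + 2) := by
          funext m
          show (∑' k : ℤ × ℤ, δ m * (‖c k‖ * nrm k ^ (m + 2))) = δ m * S (m + 2)
          rw [tsum_mul_left]
        rw [e]
        refine Summable.of_nonneg_of_le (fun m => mul_nonneg (hδpos m).le (hS0 _)) hδS ?_
        simpa using Real.summable_pow_div_factorial 1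
    have hGk := ((summable_prod_of_nonneg hG0).1 hGs).2
    refine Summable.of_nonneg_of_le
      (fun k => mul_nonneg (mul_nonneg (norm_nonneg _) (pow_nonneg (hn0 k) _))
        (le_trans zero_le_one (hW1 k))) (fun k => ?_) ((hc 2).add hGk)
    have hA : 0 ≤ ‖c k‖ * nrm k ^ 2 := mul_nonneg (norm_nonneg _) (pow_nonneg (hn0 k) _)
    calc ‖c k‖ * nrm k ^ 2 * W k ≤ ‖c k‖ * nrm k ^ 2 * (1 + ∑' j, δ j * nrm k ^ j) :=
          mul_le_mul_of_nonneg_left (hWle k) hA
      _ = ‖c k‖ * nrm k ^ 2 + ∑' j, G (k, j) := by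
          rw [mul_add, mul_one, ← tsum_mul_left]
          congr 1
          apply tsum_congr
          intro j
          show ‖c k‖ * nrm k ^ 2 * (δ j * nrm k ^ j) = δ j * (‖c k‖ * nrm k ^ (j + 2))
          ring

end Vale.Agent.P205T
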