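import Vale.Agent.P205T.NNdef
import Vale.Agent.P205T.FourierMain
import Vale.Agent.P205T.Weight

/-! # P205T : representing the derivatives of `ρ` in the weighted space -/

namespace Vale.Agent.P205T

open scoped ContDiff

/-- Take `c` from `exists_fourier`, `w` from `exists_weight c`, and
`R1 = ofCoef w (Da Φ c)`, `R2 = ofCoef w (Db Φ c)`, `R11 = ofCoef w (Da Φ (Da Φ c))`,
`R12 = ofCoef w (Db Φ (Da Φ c))`, `R22 = ofCoef w (Db Φ (Db Φ c))`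
(summability from `‖Da Φ c k‖ ≤ Φ.C * nrm k * ‖c k‖` and `1 ≤ nrm k`).
`ρ = evr Φ c` (real part of `exists_fourier`), then `dX_evr`, `dY_evr`, `coef_ofCoef`, `cj_ofCoef`,
`Herm.Da`, `Herm.Db`. -/
theorem exists_rhoData (ω₁ ω₂ : ℝ × ℝ) (hω : ω₁.1 * ω₂.2 - ω₁.2 * ω₂.1 ≠ 0) (ρ : ℝ × ℝ → ℝ)
    (hρ : ContDiff ℝ ∞ ρ) (pρ : Per ω₁ ω₂ ρ) :
    ∃ (w : Wt) (D : RhoData),
      cj D.R1 = D.R1 ∧ cj D.R2 = D.R2 ∧ cj D.R11 = D.R11 ∧ cj D.R12 = D.R12 ∧ cj D.R22 = D.R22 ∧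
      (∀ z, dX ρ z = rv (freqOf ω₁ ω₂ hω) w D.R1 z) ∧
      (∀ z, dY ρ z = rv (freqOf ω₁ ω₂ hω) w D.R2 z) ∧
      (∀ z, dX (dX ρ) z = rv (freqOf ω₁ ω₂ hω) w D.R11 z) ∧
      (∀ z, dY (dX ρ) z = rv (freqOf ω₁ ω₂ hω) w D.R12 z) ∧
      (∀ z, dY (dY ρ) z = rv (freqOf ω₁ ω₂ hω) w D.R22 z) := by
  obtain ⟨c, hRD, hH, hev⟩ := exists_fourier ω₁ ω₂ hω ρ hρ pρ
  obtain ⟨w, hw⟩ := exists_weight c hRD
  set Φ : Freq := freqOf ω₁ ω₂ hω with hΦ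
  have hn1 : ∀ k, 1 ≤ nrm k := one_le_nrm
  have hn0 : ∀ k, 0 ≤ nrm k := fun k => le_trans zero_le_one (hn1 k)
  have hC0 : 0 ≤ Φ.C := by
    have h := Φ.hα 0
    have h1 : nrm 0 = 1 := by simp [nrm]
    rw [h1, mul_one] at h
    exact le_trans (abs_nonneg _) h
  have hW0 : ∀ k, 0 ≤ w.W k := fun k => le_trans zero_le_one (w.one_le k)
  -- norm bounds
  have hDa : ∀ (a : ℤ × ℤ → ℂ) k, ‖Da Φ a k‖ ≤ Φ.C * nrm k * ‖a k‖ := by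
    intro a k
    unfold Da
    rw [norm_mul, norm_mul, Complex.norm_I, one_mul, Complex.norm_real, Real.norm_eq_abs]
    exact mul_le_mul_of_nonneg_right (Φ.hα k) (norm_nonneg _)
  have hDb : ∀ (a : ℤ × ℤ → ℂ) k, ‖Db Φ a k‖ ≤ Φ.C * nrm k * ‖a k‖ := by
    intro a k
    unfold Db
    rw [norm_mul, norm_mul, Complex.norm_I, one_mul, Complex.norm_real, Real.norm_eq_abs]
    exact mul_le_mul_of_nonneg_right (Φ.hβ k) (norm_nonneg _)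
  have hsum : ∀ (a : ℤ × ℤ → ℂ) (A : ℝ), (∀ k, ‖a k‖ ≤ A * (‖c k‖ * nrm k ^ 2)) →
      Summable fun k => ‖a k‖ * w.W k := by
    intro a A ha
    refine Summable.of_nonneg_of_le (fun k => mul_nonneg (norm_nonneg _) (hW0 k)) (fun k => ?_)
      (hw.mul_left A)
    calc ‖a k‖ * w.W k ≤ A * (‖c k‖ * nrm k ^ 2) * w.W k :=
          mul_le_mul_of_nonneg_right (ha k) (hW0 k)
      _ = A * (‖c k‖ * nrm k ^ 2 * w.W k) := by ring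
  have hlin : ∀ k, nrm k ≤ nrm k ^ 2 := by
    intro k
    nlinarith [hn1 k]
  have b1 : ∀ k, Φ.C * nrm k * ‖c k‖ ≤ Φ.C * (‖c k‖ * nrm k ^ 2) := by
    intro k
    have : nrm k * ‖c k‖ ≤ ‖c k‖ * nrm k ^ 2 := by
      rw [mul_comm]
      exact mul_le_mul_of_nonneg_left (hlin k) (norm_nonneg _)
    calc Φ.C * nrm k * ‖c k‖ = Φ.C * (nrm k * ‖c k‖) := by ring
      _ ≤ Φ.C * (‖c k‖ * nrm k ^ 2) := mul_le_mul_of_nonneg_left this hC0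
  have b2 : ∀ (x : ℝ) k, x ≤ Φ.C * nrm k * ‖c k‖ →
      Φ.C * nrm k * x ≤ Φ.C ^ 2 * (‖c k‖ * nrm k ^ 2) := by
    intro x k hx
    calc Φ.C * nrm k * x ≤ Φ.C * nrm k * (Φ.C * nrm k * ‖c k‖) :=
          mul_le_mul_of_nonneg_left hx (mul_nonneg hC0 (hn0 k))
      _ = Φ.C ^ 2 * (‖c k‖ * nrm k ^ 2) := by ring
  have s1 := hsum (Da Φ c) Φ.C (fun k => le_trans (hDa c k) (b1 k))
  have s2 := hsum (Db Φ c) Φ.C (fun k => le_trans (hDb c k) (b1 k))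
  have s11 := hsum (Da Φ (Da Φ c)) (Φ.C ^ 2)
    (fun k => le_trans (hDa _ k) (b2 _ k (hDa c k)))
  have s12 := hsum (Db Φ (Da Φ c)) (Φ.C ^ 2)
    (fun k => le_trans (hDb _ k) (b2 _ k (hDa c k)))
  have s22 := hsum (Db Φ (Db Φ c)) (Φ.C ^ 2)
    (fun k => le_trans (hDb _ k) (b2 _ k (hDb c k)))
  have hρe : ρ = evr Φ c := by
    funext z
    have := congrArg Complex.re (hev z)
    simpa [evr] using this
  have hX : dX ρ = evr Φ (Da Φ c) := by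
    funext z
    rw [hρe]
    exact dX_evr hRD z
  have hY : dY ρ = evr Φ (Db Φ c) := by
    funext z
    rw [hρe]
    exact dY_evr hRD z
  refine ⟨w, ⟨ofCoef w _ s1, ofCoef w _ s2, ofCoef w _ s11, ofCoef w _ s12, ofCoef w _ s22⟩,
    cj_ofCoef w _ s1 hH.Da, cj_ofCoef w _ s2 hH.Db, cj_ofCoef w _ s11 hH.Da.Da,
    cj_ofCoef w _ s12 hH.Da.Db, cj_ofCoef w _ s22 hH.Db.Db, ?_, ?_, ?_, ?_, ?_⟩
  · intro z
    show dX ρ z = evr Φ (coef w (ofCoef w _ s1)) z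
    rw [coef_ofCoef, hX]
  · intro z
    show dY ρ z = evr Φ (coef w (ofCoef w _ s2)) z
    rw [coef_ofCoef, hY]
  · intro z
    show dX (dX ρ) z = evr Φ (coef w (ofCoef w _ s11)) z
    rw [coef_ofCoef, hX]
    exact dX_evr hRD.Da z
  · intro z
    show dY (dX ρ) z = evr Φ (coef w (ofCoef w _ s12)) z
    rw [coef_ofCoef, hX]
    exact dY_evr hRD.Da z
  · intro z
    show dY (dY ρ) z = evr Φ (coef w (ofCoef w _ s22)) z
    rw [coef_ofCoef, hY]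
    exact dY_evr hRD.Db z

end Vale.Agent.P205T
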