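import Vale.Agent.P205T.FamilyDef
import Vale.Agent.P205T.RhoRep
import Vale.Agent.P205T.NNsmooth
import Vale.Agent.P205T.NNpoint
import Vale.Agent.P205T.Ift

/-! # P205T : existence of the family of solutions -/

namespace Vale.Agent.P205T

open scoped ContDiff
open Set

/-- Elementary bound used for `tau`. -/
lemma family_tau_aux {e K a b δ₀ : ℝ} (ha : |a| ≤ K) (hb : |b| ≤ K)
    (he : e ∈ Icc 0 (min δ₀ (1 / (4 * K ^ 2 + 1)))) : e * (a ^ 2 + b ^ 2) ≤ 1 / 2 := by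
  have h1 : e ≤ 1 / (4 * K ^ 2 + 1) := le_trans he.2 (min_le_right _ _)
  have hpos : 0 < 4 * K ^ 2 + 1 := by positivity
  have ha2 : a ^ 2 ≤ K ^ 2 := sq_le_sq' (by linarith [(abs_le.mp ha).1]) (abs_le.mp ha).2
  have hb2 : b ^ 2 ≤ K ^ 2 := sq_le_sq' (by linarith [(abs_le.mp hb).1]) (abs_le.mp hb).2
  have h2 : e * (a ^ 2 + b ^ 2) ≤ 1 / (4 * K ^ 2 + 1) * (2 * K ^ 2) := by
    apply mul_le_mul h1 (by linarith) (by positivity) (by positivity)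
  refine le_trans h2 ?_
  rw [one_div, inv_mul_le_iff₀ hpos]
  nlinarith [sq_nonneg K]

/-- Assembly.  `Φ = freqOf ω₁ ω₂ hω`; `w, D` from `exists_rhoData`; `δ₀, φ` from `exists_branch`
applied to `NN Φ w D` (`contDiff_NN`, `NN_quad`, `cj_NN`) with `η = min 1 (Φ.m / 2)`;
`ψ e = rv Φ w (M0 Φ (φ e))`.
* smooth: `contDiff_rv`; periodic: `rv_add_period`, `freqOf_period₁`, `freqOf_period₂`;
* `ψ 0 = 0`: `φ 0 = 0`, `map_zero`, `rv_zero`;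
* the derivatives are `rv Φ w (M1 Φ (φ e))` etc. (`dX_rv_M0`, ... ; rewrite the functions with
  `funext`), and `(e, z) ↦ rv Φ w (L (φ e)) z` is continuous by `continuous_rv`;
* `|ψ e z| ≤ ‖M0 Φ (φ e)‖ ≤ (1 / Φ.m) η ≤ 1 / 2` (`abs_rv_le`, `norm_mult_le`);
* `|ta1| ≤ (3 / 2) ‖D.R1‖ + (1 + 1 / Φ.m) =: K`, same for `ta2`; take `δ = min δ₀ (1 / (4 K ^ 2 + 1))`;
* `sol`: `pde_const`. -/
theorem exists_family (ω₁ ω₂ : ℝ × ℝ) (hω : ω₁.1 * ω₂.2 - ω₁.2 * ω₂.1 ≠ 0) (ρ : ℝ × ℝ → ℝ)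
    (hρ : ContDiff ℝ ∞ ρ) (pρ : Per ω₁ ω₂ ρ) : Nonempty (Family ω₁ ω₂ ρ) := by
  obtain ⟨w, D, s1, s2, s11, s12, s22, r1, r2, r11, r12, r22⟩ :=
    exists_rhoData ω₁ ω₂ hω ρ hρ pρ
  set Φ : Freq := freqOf ω₁ ω₂ hω with hΦ
  have hm : 0 < Φ.m := Φ.hm
  have hη : 0 < min 1 (Φ.m / 2) := lt_min one_pos (by positivity)
  obtain ⟨δ₀, φ, hδ₀, hφc, hφ0, hφη, hφcj, hφfix⟩ :=
    exists_branch (NN Φ w D) (contDiff_NN Φ w D) (NN_quad Φ w D) cj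
      (cj_NN Φ w D s1 s2 s11 s12 s22) hη
  have hφ1 : ∀ e, ‖φ e‖ ≤ 1 := fun e => le_trans (hφη e) (min_le_left _ _)
  have hφm : ∀ e, ‖φ e‖ ≤ Φ.m / 2 := fun e => le_trans (hφη e) (min_le_right _ _)
  have hcont : ∀ L : AA →L[ℝ] AA,
      Continuous fun p : ℝ × (ℝ × ℝ) => rv Φ w (L (φ p.1)) p.2 := fun L =>
    (continuous_rv Φ w).comp
      ((L.continuous.comp (hφc.comp continuous_fst)).prodMk continuous_snd)
  have hsmall : ∀ e z, |rv Φ w (M0 Φ (φ e)) z| ≤ 1 / 2 := by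
    intro e z
    have h1 : ‖M0 Φ (φ e)‖ ≤ 1 / Φ.m * ‖φ e‖ := norm_mult_le _ _ _ (φ e)
    have h2 : 1 / Φ.m * ‖φ e‖ ≤ 1 / Φ.m * (Φ.m / 2) :=
      mul_le_mul_of_nonneg_left (hφm e) (by positivity)
    have h3 : 1 / Φ.m * (Φ.m / 2) = 1 / 2 := by field_simp
    calc |rv Φ w (M0 Φ (φ e)) z| ≤ ‖M0 Φ (φ e)‖ := abs_rv_le Φ w _ z
      _ ≤ 1 / 2 := by linarith
  have hM1 : ∀ e z, |rv Φ w (M1 Φ (φ e)) z| ≤ 1 + 1 / Φ.m := by
    intro e z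
    have h1 : ‖M1 Φ (φ e)‖ ≤ (1 + 1 / Φ.m) * ‖φ e‖ := norm_mult_le _ _ _ (φ e)
    have h2 : (1 + 1 / Φ.m) * ‖φ e‖ ≤ (1 + 1 / Φ.m) * 1 :=
      mul_le_mul_of_nonneg_left (hφ1 e) (by positivity)
    calc |rv Φ w (M1 Φ (φ e)) z| ≤ ‖M1 Φ (φ e)‖ := abs_rv_le Φ w _ z
      _ ≤ 1 + 1 / Φ.m := by linarith
  have hM2 : ∀ e z, |rv Φ w (M2 Φ (φ e)) z| ≤ 1 + 1 / Φ.m := by
    intro e z
    have h1 : ‖M2 Φ (φ e)‖ ≤ (1 + 1 / Φ.m) * ‖φ e‖ := norm_mult_le _ _ _ (φ e)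
    have h2 : (1 + 1 / Φ.m) * ‖φ e‖ ≤ (1 + 1 / Φ.m) * 1 :=
      mul_le_mul_of_nonneg_left (hφ1 e) (by positivity)
    calc |rv Φ w (M2 Φ (φ e)) z| ≤ ‖M2 Φ (φ e)‖ := abs_rv_le Φ w _ z
      _ ≤ 1 + 1 / Φ.m := by linarith
  set K : ℝ := 3 / 2 * (‖D.R1‖ + ‖D.R2‖) + (1 + 1 / Φ.m) with hK
  have hK0 : 0 ≤ K := by positivity
  have hq : ∀ e z, |qq (rv Φ w (M0 Φ (φ e))) z| ≤ 3 / 2 := by
    intro e z
    have h := abs_le.mp (hsmall e z)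
    unfold qq
    rw [abs_le]
    constructor <;> linarith [h.1, h.2]
  have hprod : ∀ (q r R : ℝ), |q| ≤ 3 / 2 → |r| ≤ R → |q * r| ≤ 3 / 2 * R := by
    intro q r R h1 h2
    rw [abs_mul]
    exact mul_le_mul h1 h2 (abs_nonneg _) (by norm_num)
  have hta1 : ∀ e z, |ta1 ρ (rv Φ w (M0 Φ (φ e))) z| ≤ K := by
    intro e z
    unfold ta1
    rw [r1, dX_rv_M0]
    have h1 := hprod _ _ _ (hq e z) (abs_rv_le Φ w D.R1 z)
    have h2 := hM1 e z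
    have h3 := abs_add_le (qq (rv Φ w (M0 Φ (φ e))) z * rv Φ w D.R1 z) (rv Φ w (M1 Φ (φ e)) z)
    have h4 := norm_nonneg D.R2
    rw [hK]
    linarith
  have hta2 : ∀ e z, |ta2 ρ (rv Φ w (M0 Φ (φ e))) z| ≤ K := by
    intro e z
    unfold ta2
    rw [r2, dY_rv_M0]
    have h1 := hprod _ _ _ (hq e z) (abs_rv_le Φ w D.R2 z)
    have h2 := hM2 e z
    have h3 := abs_add_le (qq (rv Φ w (M0 Φ (φ e))) z * rv Φ w D.R2 z) (rv Φ w (M2 Φ (φ e)) z)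
    have h4 := norm_nonneg D.R1
    rw [hK]
    linarith
  refine ⟨{
    δ := min δ₀ (1 / (4 * K ^ 2 + 1))
    ψ := fun e => rv Φ w (M0 Φ (φ e))
    δpos := lt_min hδ₀ (by positivity)
    smooth := fun e => contDiff_rv Φ w _
    per := fun e => ⟨fun z => rv_add_period Φ w
        (fun k => ⟨k.1, freqOf_period₁ ω₁ ω₂ hω k⟩) _ z,
      fun z => rv_add_period Φ w (fun k => ⟨k.2, freqOf_period₂ ω₁ ω₂ hω k⟩) _ z⟩
    zero := fun z => by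
      show rv Φ w (M0 Φ (φ 0)) z = 0
      rw [hφ0, map_zero, rv_zero]
    c0 := hcont (M0 Φ)
    c1 := by
      have h : (fun p : ℝ × (ℝ × ℝ) => dX (rv Φ w (M0 Φ (φ p.1))) p.2)
          = fun p : ℝ × (ℝ × ℝ) => rv Φ w (M1 Φ (φ p.1)) p.2 := by
        funext p
        rw [dX_rv_M0]
      show Continuous fun p : ℝ × (ℝ × ℝ) => dX (rv Φ w (M0 Φ (φ p.1))) p.2
      rw [h]
      exact hcont (M1 Φ)
    c2 := by
      have h : (fun p : ℝ × (ℝ × ℝ) => dY (rv Φ w (M0 Φ (φ p.1))) p.2)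
          = fun p : ℝ × (ℝ × ℝ) => rv Φ w (M2 Φ (φ p.1)) p.2 := by
        funext p
        rw [dY_rv_M0]
      show Continuous fun p : ℝ × (ℝ × ℝ) => dY (rv Φ w (M0 Φ (φ p.1))) p.2
      rw [h]
      exact hcont (M2 Φ)
    c11 := by
      have h : (fun p : ℝ × (ℝ × ℝ) => dX (dX (rv Φ w (M0 Φ (φ p.1)))) p.2)
          = fun p : ℝ × (ℝ × ℝ) => rv Φ w (M11 Φ (φ p.1)) p.2 := by
        funext p
        rw [nnrv_dX0, dX_rv_M1]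
      show Continuous fun p : ℝ × (ℝ × ℝ) => dX (dX (rv Φ w (M0 Φ (φ p.1)))) p.2
      rw [h]
      exact hcont (M11 Φ)
    c12 := by
      have h : (fun p : ℝ × (ℝ × ℝ) => dY (dX (rv Φ w (M0 Φ (φ p.1)))) p.2)
          = fun p : ℝ × (ℝ × ℝ) => rv Φ w (M12 Φ (φ p.1)) p.2 := by
        funext p
        rw [nnrv_dX0, dY_rv_M1]
      show Continuous fun p : ℝ × (ℝ × ℝ) => dY (dX (rv Φ w (M0 Φ (φ p.1)))) p.2
      rw [h]
      exact hcont (M12 Φ)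
    c22 := by
      have h : (fun p : ℝ × (ℝ × ℝ) => dY (dY (rv Φ w (M0 Φ (φ p.1)))) p.2)
          = fun p : ℝ × (ℝ × ℝ) => rv Φ w (M22 Φ (φ p.1)) p.2 := by
        funext p
        rw [nnrv_dY0, dY_rv_M2]
      show Continuous fun p : ℝ × (ℝ × ℝ) => dY (dY (rv Φ w (M0 Φ (φ p.1)))) p.2
      rw [h]
      exact hcont (M22 Φ)
    small := hsmall
    tau := fun e he z => family_tau_aux (hta1 e z) (hta2 e z) he
    sol := fun e he => pde_const Φ w D s1 s2 s11 s12 s22 (hφcj e) r1 r2 r11 r12 r22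
      (hφfix e ⟨he.1, le_trans he.2 (min_le_left _ _)⟩) }⟩

end Vale.Agent.P205T
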