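import Vale.Agent.P205T.Defs

/-! # P205T : the output of the analytic part -/

namespace Vale.Agent.P205T

open scoped ContDiff
open Set

/-- A continuous family `ψ e` of smooth periodic solutions of `pde e ρ (ψ e) = const`. -/
structure Family (ω₁ ω₂ : ℝ × ℝ) (ρ : ℝ × ℝ → ℝ) where
  δ : ℝ
  ψ : ℝ → ℝ × ℝ → ℝ
  δpos : 0 < δ
  smooth : ∀ e, ContDiff ℝ ∞ (ψ e)
  per : ∀ e, Per ω₁ ω₂ (ψ e)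
  zero : ∀ z, ψ 0 z = 0
  c0 : Continuous fun p : ℝ × (ℝ × ℝ) => ψ p.1 p.2
  c1 : Continuous fun p : ℝ × (ℝ × ℝ) => dX (ψ p.1) p.2
  c2 : Continuous fun p : ℝ × (ℝ × ℝ) => dY (ψ p.1) p.2
  c11 : Continuous fun p : ℝ × (ℝ × ℝ) => dX (dX (ψ p.1)) p.2
  c12 : Continuous fun p : ℝ × (ℝ × ℝ) => dY (dX (ψ p.1)) p.2
  c22 : Continuous fun p : ℝ × (ℝ × ℝ) => dY (dY (ψ p.1)) p.2
  small : ∀ e z, |ψ e z| ≤ 1 / 2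
  tau : ∀ e ∈ Icc 0 δ, ∀ z, e * (ta1 ρ (ψ e) z ^ 2 + ta2 ρ (ψ e) z ^ 2) ≤ 1 / 2
  sol : ∀ e ∈ Icc 0 δ, ∃ c : ℝ, ∀ z, pde e ρ (ψ e) z = c

variable {ω₁ ω₂ : ℝ × ℝ} {ρ : ℝ × ℝ → ℝ}

lemma Family.qpos (F : Family ω₁ ω₂ ρ) (e : ℝ) (z : ℝ × ℝ) : 0 < qq (F.ψ e) z := by
  have := abs_le.mp (F.small e z)
  unfold qq
  linarith [this.1]

lemma Family.slt (F : Family ω₁ ω₂ ρ) {e : ℝ} (he : e ∈ Icc 0 F.δ) (z : ℝ × ℝ) :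
    e * (ta1 ρ (F.ψ e) z ^ 2 + ta2 ρ (F.ψ e) z ^ 2) < 1 := by
  have := F.tau e he z
  linarith

end Vale.Agent.P205T
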