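import Vale.Agent.P205T.Basic

/-! # P205T : Fourier coefficients of a smooth `ℤ²`-periodic function: integration by parts -/

namespace Vale.Agent.P205T

open scoped ContDiff
open Real

/-- Fourier coefficient of a function which is `1`-periodic in both variables. -/
noncomputable def cf (g : ℝ × ℝ → ℝ) (k : ℤ × ℤ) : ℂ :=
  ∫ u in (0 : ℝ)..1, ∫ v in (0 : ℝ)..1,
    (g (u, v) : ℂ) * Complex.exp (-(2 * π * Complex.I * ((k.1 : ℂ) * u + (k.2 : ℂ) * v)))

variable {g : ℝ × ℝ → ℝ}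

private lemma norm_ee (k : ℤ × ℤ) (u v : ℝ) :
    ‖Complex.exp (-(2 * π * Complex.I * ((k.1 : ℂ) * u + (k.2 : ℂ) * v)))‖ = 1 := by
  have h : (-(2 * π * Complex.I * ((k.1 : ℂ) * u + (k.2 : ℂ) * v)) : ℂ)
      = ((-(2 * π * ((k.1 : ℝ) * u + (k.2 : ℝ) * v)) : ℝ) : ℂ) * Complex.I := by
    push_cast
    ring
  rw [h, Complex.norm_exp_ofReal_mul_I]

lemma norm_cf_le (hg : Continuous g) {M : ℝ} (hM : ∀ z, |g z| ≤ M) (k : ℤ × ℤ) :
    ‖cf g k‖ ≤ M := by
  unfold cf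
  have h1 : ∀ u : ℝ, ‖∫ v in (0 : ℝ)..1,
      (g (u, v) : ℂ) * Complex.exp (-(2 * π * Complex.I * ((k.1 : ℂ) * u + (k.2 : ℂ) * v)))‖
      ≤ M := by
    intro u
    have := intervalIntegral.norm_integral_le_of_norm_le_const (a := 0) (b := 1) (C := M)
      (f := fun v : ℝ => (g (u, v) : ℂ) *
        Complex.exp (-(2 * π * Complex.I * ((k.1 : ℂ) * u + (k.2 : ℂ) * v))))
      (by
        intro v _
        rw [norm_mul, norm_ee, mul_one, Complex.norm_real]
        exact hM _)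
    simpa using this
  have := intervalIntegral.norm_integral_le_of_norm_le_const (a := 0) (b := 1) (C := M)
      (f := fun u : ℝ => ∫ v in (0 : ℝ)..1, (g (u, v) : ℂ) *
        Complex.exp (-(2 * π * Complex.I * ((k.1 : ℂ) * u + (k.2 : ℂ) * v))))
      (fun u _ => h1 u)
  simpa using this

/-- A continuous periodic function is bounded. -/
lemma exists_bound_of_per (hg : Continuous g) (pg : Per (1, 0) (0, 1) g) :
    ∃ M : ℝ, ∀ z, |g z| ≤ M := by
  have hc : IsCompact (Set.Icc (0 : ℝ) 1 ×ˢ Set.Icc (0 : ℝ) 1) := isCompact_Icc.prod isCompact_Icc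
  obtain ⟨C, hC⟩ := hc.exists_bound_of_continuousOn hg.continuousOn
  refine ⟨C, ?_⟩
  rintro ⟨x, y⟩
  have p1 : Function.Periodic (fun s : ℝ => g (s, y)) 1 := by
    intro s
    have := pg.1 (s, y)
    simpa using this
  obtain ⟨x', hx', e1⟩ := p1.exists_mem_Ico₀ one_pos x
  have p2 : Function.Periodic (fun s : ℝ => g (x', s)) 1 := by
    intro s
    have := pg.2 (x', s)
    simpa using this
  obtain ⟨y', hy', e2⟩ := p2.exists_mem_Ico₀ one_pos y
  have e3 : g (x, y) = g (x', y') := e1.trans e2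
  rw [e3]
  have := hC (x', y') ⟨⟨hx'.1, hx'.2.le⟩, ⟨hy'.1, hy'.2.le⟩⟩
  simpa using this

private lemma cont_ee (k : ℤ × ℤ) : Continuous fun z : ℝ × ℝ =>
    Complex.exp (-(2 * π * Complex.I * ((k.1 : ℂ) * (z.1 : ℂ) + (k.2 : ℂ) * (z.2 : ℂ)))) := by
  fun_prop

private lemma cont_gee (hg : Continuous g) (k : ℤ × ℤ) : Continuous fun z : ℝ × ℝ =>
    (g z : ℂ) *
      Complex.exp (-(2 * π * Complex.I * ((k.1 : ℂ) * (z.1 : ℂ) + (k.2 : ℂ) * (z.2 : ℂ)))) :=
  (Complex.continuous_ofReal.comp hg).mul (cont_ee k)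

private lemma swap_gee (hg : Continuous g) (k : ℤ × ℤ) :
    (∫ u in (0 : ℝ)..1, ∫ v in (0 : ℝ)..1,
      (g (u, v) : ℂ) * Complex.exp (-(2 * π * Complex.I * ((k.1 : ℂ) * u + (k.2 : ℂ) * v))))
    = ∫ v in (0 : ℝ)..1, ∫ u in (0 : ℝ)..1,
      (g (u, v) : ℂ) * Complex.exp (-(2 * π * Complex.I * ((k.1 : ℂ) * u + (k.2 : ℂ) * v))) := by
  apply MeasureTheory.intervalIntegral_intervalIntegral_swap
    (F := fun u v : ℝ => (g (u, v) : ℂ) *
      Complex.exp (-(2 * π * Complex.I * ((k.1 : ℂ) * u + (k.2 : ℂ) * v))))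
  have hc : IsCompact (Set.Icc (0 : ℝ) 1 ×ˢ Set.Icc (0 : ℝ) 1) := isCompact_Icc.prod isCompact_Icc
  have h1 : MeasureTheory.IntegrableOn (fun z : ℝ × ℝ => (g z : ℂ) *
      Complex.exp (-(2 * π * Complex.I * ((k.1 : ℂ) * (z.1 : ℂ) + (k.2 : ℂ) * (z.2 : ℂ)))))
      (Set.Icc (0 : ℝ) 1 ×ˢ Set.Icc (0 : ℝ) 1) MeasureTheory.volume :=
    (cont_gee hg k).continuousOn.integrableOn_compact hc
  refine h1.mono_set ?_
  rw [Set.uIoc_of_le zero_le_one]
  exact Set.prod_mono Set.Ioc_subset_Icc_self Set.Ioc_subset_Icc_self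

private lemma exp_int (m : ℤ) : Complex.exp (-(2 * π * Complex.I * (m : ℂ))) = 1 := by
  have : (-(2 * π * Complex.I * (m : ℂ)) : ℂ) = ((-m : ℤ) : ℂ) * (2 * π * Complex.I) := by
    push_cast
    ring
  rw [this, Complex.exp_int_mul_two_pi_mul_I]

/-- one-dimensional integration by parts in `u` -/
private lemma ibp_u (hg : ContDiff ℝ ∞ g) (pg : Per (1, 0) (0, 1) g) (k : ℤ × ℤ) (v : ℝ) :
    (∫ u in (0 : ℝ)..1, (dX g (u, v) : ℂ) *
      Complex.exp (-(2 * π * Complex.I * ((k.1 : ℂ) * u + (k.2 : ℂ) * v))))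
    = 2 * π * Complex.I * (k.1 : ℂ) * ∫ u in (0 : ℝ)..1, (g (u, v) : ℂ) *
      Complex.exp (-(2 * π * Complex.I * ((k.1 : ℂ) * u + (k.2 : ℂ) * v))) := by
  have hd : Differentiable ℝ g := hg.differentiable (by simp)
  have hgc : Continuous g := hg.continuous
  have hdc : Continuous (dX g) := (contDiff_dX hg).continuous
  -- derivative of `u ↦ g (u, v)`
  have d1 : ∀ u : ℝ, HasDerivAt (fun s : ℝ => g (s, v)) (dX g (u, v)) u := by
    intro u
    have h1 : HasFDerivAt g (fderiv ℝ g (u, v)) (u, v) := (hd (u, v)).hasFDerivAt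
    have h2 : HasDerivAt (fun s : ℝ => ((s, v) : ℝ × ℝ)) ((1 : ℝ), (0 : ℝ)) u :=
      (hasDerivAt_id u).prodMk (hasDerivAt_const u v)
    exact h1.comp_hasDerivAt u h2
  have d1c : ∀ u : ℝ, HasDerivAt (fun s : ℝ => (g (s, v) : ℂ)) (dX g (u, v) : ℂ) u :=
    fun u => (d1 u).ofReal_comp
  have d2 : ∀ u : ℝ, HasDerivAt (fun s : ℝ =>
      Complex.exp (-(2 * π * Complex.I * ((k.1 : ℂ) * s + (k.2 : ℂ) * v))))
      (Complex.exp (-(2 * π * Complex.I * ((k.1 : ℂ) * u + (k.2 : ℂ) * v))) *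
        (-(2 * π * Complex.I * (k.1 : ℂ)))) u := by
    intro u
    have h0 : HasDerivAt (fun s : ℝ => (s : ℂ)) 1 u := (hasDerivAt_id u).ofReal_comp
    have h1 : HasDerivAt (fun s : ℝ => (-(2 * π * Complex.I * ((k.1 : ℂ) * s + (k.2 : ℂ) * v)) : ℂ))
        (-(2 * π * Complex.I * ((k.1 : ℂ) * 1))) u :=
      (((h0.const_mul (k.1 : ℂ)).add_const ((k.2 : ℂ) * v)).const_mul (2 * π * Complex.I)).neg
    have h2 := h1.cexp
    simpa using h2
  have d3 := fun u : ℝ => (d1c u).mul (d2 u)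
  have c1 : Continuous fun u : ℝ => (dX g (u, v) : ℂ) *
      Complex.exp (-(2 * π * Complex.I * ((k.1 : ℂ) * u + (k.2 : ℂ) * v))) :=
    (cont_gee hdc k).comp (Continuous.prodMk continuous_id continuous_const)
  have c2 : Continuous fun u : ℝ => (g (u, v) : ℂ) *
      Complex.exp (-(2 * π * Complex.I * ((k.1 : ℂ) * u + (k.2 : ℂ) * v))) :=
    (cont_gee hgc k).comp (Continuous.prodMk continuous_id continuous_const)
  have c3 : Continuous fun u : ℝ => (g (u, v) : ℂ) *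
      (Complex.exp (-(2 * π * Complex.I * ((k.1 : ℂ) * u + (k.2 : ℂ) * v))) *
        (-(2 * π * Complex.I * (k.1 : ℂ)))) := by
    have := c2.mul (continuous_const (y := (-(2 * π * Complex.I * (k.1 : ℂ)) : ℂ)))
    refine this.congr ?_
    intro u
    simp only [Pi.mul_apply]
    ring
  have key := intervalIntegral.integral_eq_sub_of_hasDerivAt (a := 0) (b := 1)
    (fun u _ => d3 u) ((c1.add c3).intervalIntegrable 0 1)
  have hb : (g ((1 : ℝ), v) : ℂ) *
      Complex.exp (-(2 * π * Complex.I * ((k.1 : ℂ) * ((1 : ℝ) : ℂ) + (k.2 : ℂ) * v)))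
      = (g ((0 : ℝ), v) : ℂ) *
      Complex.exp (-(2 * π * Complex.I * ((k.1 : ℂ) * ((0 : ℝ) : ℂ) + (k.2 : ℂ) * v))) := by
    have e1 : g ((1 : ℝ), v) = g ((0 : ℝ), v) := by
      have := pg.1 ((0 : ℝ), v)
      simpa using this
    have e2 : (-(2 * π * Complex.I * ((k.1 : ℂ) * ((1 : ℝ) : ℂ) + (k.2 : ℂ) * v)) : ℂ)
        = -(2 * π * Complex.I * (k.1 : ℂ)) +
          -(2 * π * Complex.I * ((k.1 : ℂ) * ((0 : ℝ) : ℂ) + (k.2 : ℂ) * v)) := by
      push_cast
      ring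
    rw [e1, e2, Complex.exp_add, exp_int, one_mul]
  have key2 : (∫ u in (0 : ℝ)..1, ((dX g (u, v) : ℂ) *
      Complex.exp (-(2 * π * Complex.I * ((k.1 : ℂ) * u + (k.2 : ℂ) * v))) +
      (g (u, v) : ℂ) *
      (Complex.exp (-(2 * π * Complex.I * ((k.1 : ℂ) * u + (k.2 : ℂ) * v))) *
        (-(2 * π * Complex.I * (k.1 : ℂ)))))) = 0 := by
    rw [key]
    simp only [Pi.mul_apply]
    rw [hb, sub_self]
  rw [intervalIntegral.integral_add (c1.intervalIntegrable 0 1) (c3.intervalIntegrable 0 1)] at key2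
  have e4 : (∫ u in (0 : ℝ)..1, (g (u, v) : ℂ) *
      (Complex.exp (-(2 * π * Complex.I * ((k.1 : ℂ) * u + (k.2 : ℂ) * v))) *
        (-(2 * π * Complex.I * (k.1 : ℂ)))))
      = (-(2 * π * Complex.I * (k.1 : ℂ))) * ∫ u in (0 : ℝ)..1, (g (u, v) : ℂ) *
      Complex.exp (-(2 * π * Complex.I * ((k.1 : ℂ) * u + (k.2 : ℂ) * v))) := by
    rw [← intervalIntegral.integral_const_mul]
    congr 1
    funext u
    ring
  rw [e4] at key2
  linear_combination key2

/-- one-dimensional integration by parts in `v` -/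
private lemma ibp_v (hg : ContDiff ℝ ∞ g) (pg : Per (1, 0) (0, 1) g) (k : ℤ × ℤ) (u : ℝ) :
    (∫ v in (0 : ℝ)..1, (dY g (u, v) : ℂ) *
      Complex.exp (-(2 * π * Complex.I * ((k.1 : ℂ) * u + (k.2 : ℂ) * v))))
    = 2 * π * Complex.I * (k.2 : ℂ) * ∫ v in (0 : ℝ)..1, (g (u, v) : ℂ) *
      Complex.exp (-(2 * π * Complex.I * ((k.1 : ℂ) * u + (k.2 : ℂ) * v))) := by
  have hd : Differentiable ℝ g := hg.differentiable (by simp)
  have hgc : Continuous g := hg.continuous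
  have hdc : Continuous (dY g) := (contDiff_dY hg).continuous
  have d1 : ∀ v : ℝ, HasDerivAt (fun s : ℝ => g (u, s)) (dY g (u, v)) v := by
    intro v
    have h1 : HasFDerivAt g (fderiv ℝ g (u, v)) (u, v) := (hd (u, v)).hasFDerivAt
    have h2 : HasDerivAt (fun s : ℝ => ((u, s) : ℝ × ℝ)) ((0 : ℝ), (1 : ℝ)) v :=
      (hasDerivAt_const v u).prodMk (hasDerivAt_id v)
    exact h1.comp_hasDerivAt v h2
  have d1c : ∀ v : ℝ, HasDerivAt (fun s : ℝ => (g (u, s) : ℂ)) (dY g (u, v) : ℂ) v :=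
    fun v => (d1 v).ofReal_comp
  have d2 : ∀ v : ℝ, HasDerivAt (fun s : ℝ =>
      Complex.exp (-(2 * π * Complex.I * ((k.1 : ℂ) * u + (k.2 : ℂ) * s))))
      (Complex.exp (-(2 * π * Complex.I * ((k.1 : ℂ) * u + (k.2 : ℂ) * v))) *
        (-(2 * π * Complex.I * (k.2 : ℂ)))) v := by
    intro v
    have h0 : HasDerivAt (fun s : ℝ => (s : ℂ)) 1 v := (hasDerivAt_id v).ofReal_comp
    have h1 : HasDerivAt (fun s : ℝ => (-(2 * π * Complex.I * ((k.1 : ℂ) * u + (k.2 : ℂ) * s)) : ℂ))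
        (-(2 * π * Complex.I * ((k.2 : ℂ) * 1))) v :=
      (((h0.const_mul (k.2 : ℂ)).const_add ((k.1 : ℂ) * u)).const_mul (2 * π * Complex.I)).neg
    have h2 := h1.cexp
    simpa using h2
  have d3 := fun v : ℝ => (d1c v).mul (d2 v)
  have c1 : Continuous fun v : ℝ => (dY g (u, v) : ℂ) *
      Complex.exp (-(2 * π * Complex.I * ((k.1 : ℂ) * u + (k.2 : ℂ) * v))) :=
    (cont_gee hdc k).comp (Continuous.prodMk continuous_const continuous_id)
  have c2 : Continuous fun v : ℝ => (g (u, v) : ℂ) *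
      Complex.exp (-(2 * π * Complex.I * ((k.1 : ℂ) * u + (k.2 : ℂ) * v))) :=
    (cont_gee hgc k).comp (Continuous.prodMk continuous_const continuous_id)
  have c3 : Continuous fun v : ℝ => (g (u, v) : ℂ) *
      (Complex.exp (-(2 * π * Complex.I * ((k.1 : ℂ) * u + (k.2 : ℂ) * v))) *
        (-(2 * π * Complex.I * (k.2 : ℂ)))) := by
    have := c2.mul (continuous_const (y := (-(2 * π * Complex.I * (k.2 : ℂ)) : ℂ)))
    refine this.congr ?_
    intro v
    simp only [Pi.mul_apply]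
    ring
  have key := intervalIntegral.integral_eq_sub_of_hasDerivAt (a := 0) (b := 1)
    (fun v _ => d3 v) ((c1.add c3).intervalIntegrable 0 1)
  have hb : (g (u, (1 : ℝ)) : ℂ) *
      Complex.exp (-(2 * π * Complex.I * ((k.1 : ℂ) * u + (k.2 : ℂ) * ((1 : ℝ) : ℂ))))
      = (g (u, (0 : ℝ)) : ℂ) *
      Complex.exp (-(2 * π * Complex.I * ((k.1 : ℂ) * u + (k.2 : ℂ) * ((0 : ℝ) : ℂ)))) := by
    have e1 : g (u, (1 : ℝ)) = g (u, (0 : ℝ)) := by
      have := pg.2 (u, (0 : ℝ))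
      simpa using this
    have e2 : (-(2 * π * Complex.I * ((k.1 : ℂ) * u + (k.2 : ℂ) * ((1 : ℝ) : ℂ))) : ℂ)
        = -(2 * π * Complex.I * (k.2 : ℂ)) +
          -(2 * π * Complex.I * ((k.1 : ℂ) * u + (k.2 : ℂ) * ((0 : ℝ) : ℂ))) := by
      push_cast
      ring
    rw [e1, e2, Complex.exp_add, exp_int, one_mul]
  have key2 : (∫ v in (0 : ℝ)..1, ((dY g (u, v) : ℂ) *
      Complex.exp (-(2 * π * Complex.I * ((k.1 : ℂ) * u + (k.2 : ℂ) * v))) +
      (g (u, v) : ℂ) *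
      (Complex.exp (-(2 * π * Complex.I * ((k.1 : ℂ) * u + (k.2 : ℂ) * v))) *
        (-(2 * π * Complex.I * (k.2 : ℂ)))))) = 0 := by
    rw [key]
    simp only [Pi.mul_apply]
    rw [hb, sub_self]
  rw [intervalIntegral.integral_add (c1.intervalIntegrable 0 1) (c3.intervalIntegrable 0 1)] at key2
  have e4 : (∫ v in (0 : ℝ)..1, (g (u, v) : ℂ) *
      (Complex.exp (-(2 * π * Complex.I * ((k.1 : ℂ) * u + (k.2 : ℂ) * v))) *
        (-(2 * π * Complex.I * (k.2 : ℂ)))))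
      = (-(2 * π * Complex.I * (k.2 : ℂ))) * ∫ v in (0 : ℝ)..1, (g (u, v) : ℂ) *
      Complex.exp (-(2 * π * Complex.I * ((k.1 : ℂ) * u + (k.2 : ℂ) * v))) := by
    rw [← intervalIntegral.integral_const_mul]
    congr 1
    funext v
    ring
  rw [e4] at key2
  linear_combination key2

/-- Integration by parts in `u` (the boundary terms cancel by periodicity). -/
theorem cf_dX (hg : ContDiff ℝ ∞ g) (pg : Per (1, 0) (0, 1) g) (k : ℤ × ℤ) :
    cf (dX g) k = 2 * π * Complex.I * (k.1 : ℂ) * cf g k := by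
  unfold cf
  rw [swap_gee (contDiff_dX hg).continuous k, swap_gee hg.continuous k,
    ← intervalIntegral.integral_const_mul]
  congr 1
  funext v
  exact ibp_u hg pg k v

/-- Integration by parts in `v`. -/
theorem cf_dY (hg : ContDiff ℝ ∞ g) (pg : Per (1, 0) (0, 1) g) (k : ℤ × ℤ) :
    cf (dY g) k = 2 * π * Complex.I * (k.2 : ℂ) * cf g k := by
  unfold cf
  rw [← intervalIntegral.integral_const_mul]
  congr 1
  funext u
  exact ibp_v hg pg k u

lemma herm_cf (hg : Continuous g) : Herm (cf g) := by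
  intro k
  unfold cf
  rw [intervalIntegral.integral_of_le zero_le_one, intervalIntegral.integral_of_le zero_le_one,
    ← integral_conj]
  congr 1
  funext u
  rw [intervalIntegral.integral_of_le zero_le_one, intervalIntegral.integral_of_le zero_le_one,
    ← integral_conj]
  congr 1
  funext v
  rw [map_mul, Complex.conj_ofReal, ← Complex.exp_conj]
  congr 2
  simp only [map_neg, map_mul, map_add, Complex.conj_ofReal, Complex.conj_I, map_ofNat,
    map_intCast, Prod.fst_neg, Prod.snd_neg, Int.cast_neg]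
  ring

end Vale.Agent.P205T
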