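import Vale.Agent.P205T.FourierA

/-! # P205T : rapid decay of the Fourier coefficients -/

namespace Vale.Agent.P205T

open scoped ContDiff
open Real

variable {g : ℝ × ℝ → ℝ}

private lemma two_pi_ge_one : (1 : ℝ) ≤ 2 * π := by
  have := Real.pi_gt_three
  linarith

private lemma norm_cf_dX (hg : ContDiff ℝ ∞ g) (pg : Per (1, 0) (0, 1) g) (k : ℤ × ℤ) :
    |(k.1 : ℝ)| * ‖cf g k‖ ≤ ‖cf (dX g) k‖ := by
  rw [cf_dX hg pg k]
  simp only [norm_mul, Complex.norm_I, mul_one, Complex.norm_intCast, Complex.norm_real,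
    Complex.norm_ofNat, Real.norm_eq_abs, abs_of_pos Real.pi_pos]
  have h1 := two_pi_ge_one
  have h2 : 0 ≤ |(k.1 : ℝ)| * ‖cf g k‖ := by positivity
  nlinarith

private lemma norm_cf_dY (hg : ContDiff ℝ ∞ g) (pg : Per (1, 0) (0, 1) g) (k : ℤ × ℤ) :
    |(k.2 : ℝ)| * ‖cf g k‖ ≤ ‖cf (dY g) k‖ := by
  rw [cf_dY hg pg k]
  simp only [norm_mul, Complex.norm_I, mul_one, Complex.norm_intCast, Complex.norm_real,
    Complex.norm_ofNat, Real.norm_eq_abs, abs_of_pos Real.pi_pos]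
  have h1 := two_pi_ge_one
  have h2 : 0 ≤ |(k.2 : ℝ)| * ‖cf g k‖ := by positivity
  nlinarith

/-- By `cf_dX`, `cf_dY` iterated, `|k₁|^a |k₂|^b ‖cf g k‖ ≤ sup |dX^a dY^b g|` (note `2 π ≥ 1`). -/
lemma exists_bound_pow (hg : ContDiff ℝ ∞ g) (pg : Per (1, 0) (0, 1) g) (a b : ℕ) :
    ∃ M : ℝ, ∀ k : ℤ × ℤ, |(k.1 : ℝ)| ^ a * |(k.2 : ℝ)| ^ b * ‖cf g k‖ ≤ M := by
  induction a generalizing g with
  | zero =>
    induction b generalizing g with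
    | zero =>
      obtain ⟨M, hM⟩ := exists_bound_of_per hg.continuous pg
      exact ⟨M, fun k => by simpa using norm_cf_le hg.continuous hM k⟩
    | succ b ih =>
      obtain ⟨M, hM⟩ := ih (contDiff_dY hg) pg.dY
      refine ⟨M, fun k => le_trans ?_ (hM k)⟩
      have h1 := norm_cf_dY hg pg k
      have h2 : 0 ≤ |(k.1 : ℝ)| ^ 0 * |(k.2 : ℝ)| ^ b := by positivity
      calc |(k.1 : ℝ)| ^ 0 * |(k.2 : ℝ)| ^ (b + 1) * ‖cf g k‖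
          = |(k.1 : ℝ)| ^ 0 * |(k.2 : ℝ)| ^ b * (|(k.2 : ℝ)| * ‖cf g k‖) := by ring
        _ ≤ |(k.1 : ℝ)| ^ 0 * |(k.2 : ℝ)| ^ b * ‖cf (dY g) k‖ :=
          mul_le_mul_of_nonneg_left h1 h2
  | succ a ih =>
    obtain ⟨M, hM⟩ := ih (contDiff_dX hg) pg.dX
    refine ⟨M, fun k => le_trans ?_ (hM k)⟩
    have h1 := norm_cf_dX hg pg k
    have h2 : 0 ≤ |(k.1 : ℝ)| ^ a * |(k.2 : ℝ)| ^ b := by positivity
    calc |(k.1 : ℝ)| ^ (a + 1) * |(k.2 : ℝ)| ^ b * ‖cf g k‖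
        = |(k.1 : ℝ)| ^ a * |(k.2 : ℝ)| ^ b * (|(k.1 : ℝ)| * ‖cf g k‖) := by ring
      _ ≤ |(k.1 : ℝ)| ^ a * |(k.2 : ℝ)| ^ b * ‖cf (dX g) k‖ :=
        mul_le_mul_of_nonneg_left h1 h2

/-- Multipliers which stay bounded against `cf g` after multiplication by any monomial. -/
private def Mlt (g : ℝ × ℝ → ℝ) (φ : ℤ × ℤ → ℝ) : Prop :=
  ∀ a b : ℕ, ∃ M : ℝ, ∀ k : ℤ × ℤ,
    |(k.1 : ℝ)| ^ a * |(k.2 : ℝ)| ^ b * φ k * ‖cf g k‖ ≤ M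

private lemma Mlt.one (hg : ContDiff ℝ ∞ g) (pg : Per (1, 0) (0, 1) g) : Mlt g fun _ => 1 := by
  intro a b
  obtain ⟨M, hM⟩ := exists_bound_pow hg pg a b
  exact ⟨M, fun k => by simpa using hM k⟩

private lemma Mlt.add {φ ψ : ℤ × ℤ → ℝ} (h1 : Mlt g φ) (h2 : Mlt g ψ) :
    Mlt g fun k => φ k + ψ k := by
  intro a b
  obtain ⟨M1, hM1⟩ := h1 a b
  obtain ⟨M2, hM2⟩ := h2 a b
  refine ⟨M1 + M2, fun k => ?_⟩
  have e1 := hM1 k
  have e2 := hM2 k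
  calc |(k.1 : ℝ)| ^ a * |(k.2 : ℝ)| ^ b * (φ k + ψ k) * ‖cf g k‖
      = |(k.1 : ℝ)| ^ a * |(k.2 : ℝ)| ^ b * φ k * ‖cf g k‖
        + |(k.1 : ℝ)| ^ a * |(k.2 : ℝ)| ^ b * ψ k * ‖cf g k‖ := by ring
    _ ≤ M1 + M2 := add_le_add e1 e2

private lemma Mlt.mulX {φ : ℤ × ℤ → ℝ} (h1 : Mlt g φ) : Mlt g fun k => |(k.1 : ℝ)| * φ k := by
  intro a b
  obtain ⟨M1, hM1⟩ := h1 (a + 1) b
  refine ⟨M1, fun k => le_trans (le_of_eq ?_) (hM1 k)⟩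
  ring

private lemma Mlt.mulY {φ : ℤ × ℤ → ℝ} (h1 : Mlt g φ) : Mlt g fun k => |(k.2 : ℝ)| * φ k := by
  intro a b
  obtain ⟨M1, hM1⟩ := h1 a (b + 1)
  refine ⟨M1, fun k => le_trans (le_of_eq ?_) (hM1 k)⟩
  ring

private lemma Mlt.congr {φ ψ : ℤ × ℤ → ℝ} (h1 : Mlt g φ) (h : ∀ k, ψ k = φ k) : Mlt g ψ := by
  have : ψ = φ := funext h
  rw [this]
  exact h1

private lemma Mlt.mulNrm {φ : ℤ × ℤ → ℝ} (h1 : Mlt g φ) : Mlt g fun k => nrm k * φ k :=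
  ((h1.add h1.mulX).add h1.mulY).congr fun k => by
    simp only [nrm]
    ring

private lemma Mlt.mulNrmPow {φ : ℤ × ℤ → ℝ} (h1 : Mlt g φ) (m : ℕ) :
    Mlt g fun k => nrm k ^ m * φ k := by
  induction m with
  | zero => exact h1.congr fun k => by simp
  | succ m ih => exact ih.mulNrm.congr fun k => by ring

private lemma Mlt.mulSqX {φ : ℤ × ℤ → ℝ} (h1 : Mlt g φ) :
    Mlt g fun k => (1 + (k.1 : ℝ) ^ 2) * φ k :=
  (h1.add h1.mulX.mulX).congr fun k => by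
    have : (k.1 : ℝ) ^ 2 = |(k.1 : ℝ)| * |(k.1 : ℝ)| := by
      rw [← sq, sq_abs]
    rw [this]
    ring

private lemma Mlt.mulSqY {φ : ℤ × ℤ → ℝ} (h1 : Mlt g φ) :
    Mlt g fun k => (1 + (k.2 : ℝ) ^ 2) * φ k :=
  (h1.add h1.mulY.mulY).congr fun k => by
    have : (k.2 : ℝ) ^ 2 = |(k.2 : ℝ)| * |(k.2 : ℝ)| := by
      rw [← sq, sq_abs]
    rw [this]
    ring

private lemma summable_int_aux : Summable fun n : ℤ => 1 / (1 + (n : ℝ) ^ 2) := by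
  have h1 : Summable fun n : ℤ => 1 / (n : ℝ) ^ 2 :=
    Real.summable_one_div_int_pow.2 (by norm_num)
  have h2 : Summable fun n : ℤ => if n = 0 then (1 : ℝ) else 0 :=
    (hasSum_ite_eq (0 : ℤ) (1 : ℝ)).summable
  refine Summable.of_nonneg_of_le (fun n => by positivity) (fun n => ?_) (h1.add h2)
  by_cases hn : n = 0
  · subst hn
    simp
  · have hn' : (0 : ℝ) < (n : ℝ) ^ 2 := by
      have : (n : ℝ) ≠ 0 := by exact_mod_cast hn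
      positivity
    simp only [hn, if_false, add_zero]
    apply one_div_le_one_div_of_le hn'
    linarith

/-- `nrm k ^ m (1 + k₁²)(1 + k₂²) ‖cf g k‖` is bounded (expand, or use
`nrm k ^ m ≤ 3 ^ m (1 + |k₁| ^ m + |k₂| ^ m)`), and `1 / ((1 + k₁²)(1 + k₂²))` is summable on `ℤ × ℤ`. -/
theorem RD_cf (hg : ContDiff ℝ ∞ g) (pg : Per (1, 0) (0, 1) g) : RD (cf g) := by
  intro m
  obtain ⟨M, hM⟩ := (((Mlt.one hg pg).mulNrmPow m).mulSqY.mulSqX) 0 0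
  have hs : Summable fun k : ℤ × ℤ =>
      (1 / (1 + (k.1 : ℝ) ^ 2)) * (1 / (1 + (k.2 : ℝ) ^ 2)) :=
    summable_int_aux.mul_of_nonneg summable_int_aux (fun n => by positivity)
      (fun n => by positivity)
  refine Summable.of_nonneg_of_le (fun k => ?_) (fun k => ?_) (hs.mul_left M)
  · have : 0 ≤ nrm k := by
      simp only [nrm]
      positivity
    positivity
  · have h := hM k
    have p1 : 0 < 1 + (k.1 : ℝ) ^ 2 := by positivity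
    have p2 : 0 < 1 + (k.2 : ℝ) ^ 2 := by positivity
    rw [one_div_mul_one_div, mul_one_div, le_div_iff₀ (mul_pos p1 p2)]
    calc ‖cf g k‖ * nrm k ^ m * ((1 + (k.1 : ℝ) ^ 2) * (1 + (k.2 : ℝ) ^ 2))
        = |(k.1 : ℝ)| ^ 0 * |(k.2 : ℝ)| ^ 0 *
            ((1 + (k.1 : ℝ) ^ 2) * ((1 + (k.2 : ℝ) ^ 2) * (nrm k ^ m * 1))) * ‖cf g k‖ := by ring
      _ ≤ M := h

end Vale.Agent.P205T
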