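import Vale.Agent.P205.Twisted

/-! # P205T : flat Hopf tori in the unit sphere with prescribed (large) lattice -/

namespace Vale.Agent.P205T

open scoped ContDiff
open Real MeasureTheory intervalIntegral Vale.Agent.P205

/-- For `q ≥ 3 π` and any `p` there is a flat isometric immersion of the plane into the unit
sphere of `ℝ⁴`, invariant under `(q, p)` and `(0, 2 π)`. -/
theorem hopf_flat (q p : ℝ) (hq : 3 * π ≤ q) :
    ∃ G : ℝ × ℝ → EuclideanSpace ℝ (Fin 4), ContDiff ℝ ∞ G ∧ (∀ z, ‖G z‖ = 1) ∧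
      (∀ x y, G (x + q, y + p) = G (x, y)) ∧ (∀ x y, G (x, y + 2 * π) = G (x, y)) ∧
      ∀ z v w : ℝ × ℝ, inner ℝ (fderiv ℝ G z v) (fderiv ℝ G z w) = v.1 * w.1 + v.2 * w.2 := by
  have hπ := pi_pos
  obtain ⟨f, hf⟩ : ∃ f : ℝ → ℝ, f = fun _ => 1 := ⟨_, rfl⟩
  have hfs : ContDiff ℝ ∞ f := by rw [hf]; exact contDiff_const
  obtain ⟨wS, hwS⟩ : ∃ wS : ℝ → ℝ, wS = fun _ => 1 := ⟨_, rfl⟩
  have hws : ContDiff ℝ ∞ wS := by rw [hwS]; exact contDiff_const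
  have hwper : ∀ x, wS (x + q) = wS x := fun _ => by simp [hwS]
  have hint0 : ∫ t in (0 : ℝ)..q, wS t = q := by
    simp [hwS]
  have hℓ : 3 * π ≤ ∫ t in (0 : ℝ)..q, wS t := by rw [hint0]; exact hq
  obtain ⟨u₀, n, h1, h2, hu₀⟩ := exists_height (1 * p)
  obtain ⟨m, A, hm, hA0, hA, hint⟩ := exists_amplitude h1 h2 hℓ
  obtain ⟨ψ, hψs, hψper, hψd⟩ := exists_reparam h1 h2 hA0 hA m hws hwper hint
  refine ⟨hopfMap 1 (rad1 u₀ A m 1 f ψ) (rad2 u₀ A m 1 f ψ) (ph1 u₀ A m ψ) (ph2 u₀ A m ψ),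
    contDiff_hopfMap 1 (contDiff_rad1 h1 h2 hA0 hA hfs hψs) (contDiff_rad2 h1 h2 hA0 hA hfs hψs)
      (contDiff_ph1 hψs) (contDiff_ph2 hψs), ?_, ?_, ?_, ?_⟩
  · intro z
    obtain ⟨hu1, hu2⟩ := uF_mem h1 h2 hA0 hA m (ψ z.1)
    have e1 : sqrt (1 - uF u₀ A m (ψ z.1)) ^ 2 = 1 - uF u₀ A m (ψ z.1) := sq_sqrt (by linarith)
    have e2 : sqrt (uF u₀ A m (ψ z.1)) ^ 2 = uF u₀ A m (ψ z.1) := sq_sqrt (by linarith)
    have hsq : ‖hopfMap 1 (rad1 u₀ A m 1 f ψ) (rad2 u₀ A m 1 f ψ) (ph1 u₀ A m ψ)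
        (ph2 u₀ A m ψ) z‖ ^ 2 = 1 := by
      rw [EuclideanSpace.norm_sq_eq, Fin.sum_univ_four]
      simp only [hopfMap, rad1, rad2, hf, Real.norm_eq_abs, sq_abs]
      have t1 := sin_sq_add_cos_sq (ph1 u₀ A m ψ z.1 + 1 * z.2)
      have t2 := sin_sq_add_cos_sq (ph2 u₀ A m ψ z.1 + 1 * z.2)
      simp only [Matrix.cons_val_zero, Matrix.cons_val_one, Matrix.cons_val]
      generalize sin (ph1 u₀ A m ψ z.1 + 1 * z.2) = S1 at t1 ⊢
      generalize cos (ph1 u₀ A m ψ z.1 + 1 * z.2) = C1 at t1 ⊢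
      generalize sin (ph2 u₀ A m ψ z.1 + 1 * z.2) = S2 at t2 ⊢
      generalize cos (ph2 u₀ A m ψ z.1 + 1 * z.2) = C2 at t2 ⊢
      generalize sqrt (1 - uF u₀ A m (ψ z.1)) = a at e1 ⊢
      generalize sqrt (uF u₀ A m (ψ z.1)) = b at e2 ⊢
      linear_combination a ^ 2 * t1 + b ^ 2 * t2 + e1 + e2
    have hnn := norm_nonneg (hopfMap 1 (rad1 u₀ A m 1 f ψ) (rad2 u₀ A m 1 f ψ) (ph1 u₀ A m ψ)
        (ph2 u₀ A m ψ) z)
    nlinarith
  · intro x y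
    have r1 : rad1 u₀ A m 1 f ψ (x + q) = rad1 u₀ A m 1 f ψ x := by
      simp only [rad1, hψper, uF_add_period, hf]
    have r2 : rad2 u₀ A m 1 f ψ (x + q) = rad2 u₀ A m 1 f ψ x := by
      simp only [rad2, hψper, uF_add_period, hf]
    have p1 : ph1 u₀ A m ψ (x + q) + 1 * (y + p) =
        ph1 u₀ A m ψ x + 1 * y + ((-n : ℤ) : ℝ) * (2 * π) := by
      simp only [ph1, hψper, primU_add_period]
      push_cast
      linarith
    have p2 : ph2 u₀ A m ψ (x + q) + 1 * (y + p) =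
        ph2 u₀ A m ψ x + 1 * y + ((3 - n : ℤ) : ℝ) * (2 * π) := by
      simp only [ph2, hψper, primU_add_period]
      push_cast
      linarith
    simp only [hopfMap, r1, r2, p1, p2, Real.cos_add_int_mul_two_pi, Real.sin_add_int_mul_two_pi]
  · intro x y
    have e1 : ∀ a : ℝ, a + 1 * (y + 2 * π) = a + 1 * y + 2 * π := by
      intro a
      ring
    simp only [hopfMap, e1, Real.cos_add_two_pi, Real.sin_add_two_pi]
  · intro z v w
    rw [inner_cone h1 h2 hA0 hA hfs hψs hm one_ne_zero, hψd]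
    simp [hf, hwS]

/-- The same for `|q| ≥ 3 π`. -/
theorem hopf_flat' (q p : ℝ) (hq : 3 * π ≤ |q|) :
    ∃ G : ℝ × ℝ → EuclideanSpace ℝ (Fin 4), ContDiff ℝ ∞ G ∧ (∀ z, ‖G z‖ = 1) ∧
      (∀ x y, G (x + q, y + p) = G (x, y)) ∧ (∀ x y, G (x, y + 2 * π) = G (x, y)) ∧
      ∀ z v w : ℝ × ℝ, inner ℝ (fderiv ℝ G z v) (fderiv ℝ G z w) = v.1 * w.1 + v.2 * w.2 := by
  rcases le_total 0 q with h | h
  · rw [abs_of_nonneg h] at hq
    exact hopf_flat q p hq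
  · rw [abs_of_nonpos h] at hq
    obtain ⟨G, h1, h2, h3, h4, h5⟩ := hopf_flat (-q) (-p) hq
    refine ⟨G, h1, h2, ?_, h4, h5⟩
    intro x y
    have := h3 (x + q) (y + p)
    rw [← this]
    congr 2 <;> ring

/-- Invariance under `(0, 2 π N)`. -/
lemma invariant_nat {X : Type*} {G : ℝ × ℝ → X} (h : ∀ x y, G (x, y + 2 * π) = G (x, y)) (N : ℕ)
    (x y : ℝ) : G (x, y + 2 * π * N) = G (x, y) := by
  induction N with
  | zero => simp
  | succ n ih =>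
    have : y + 2 * π * ((n + 1 : ℕ) : ℝ) = (y + 2 * π * n) + 2 * π := by
      push_cast
      ring
    rw [this, h, ih]

end Vale.Agent.P205T
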