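import Mathlib

/-! # P205T : choice of the scale by the intermediate value theorem -/

namespace Vale.Agent.P205T

open Real Set

/-- `h e = |D₁ e| - 2 π N sqrt e` is continuous on `[0, δ']`, positive at `0`, negative at `δ'` for
`N` large; `δ'` is first chosen so small that the last inequality holds on `(0, δ']`. -/
theorem exists_scale {δ : ℝ} (hδ : 0 < δ) {X₁ Y₁ X₂ Y₂ : ℝ → ℝ}
    (c1 : ContinuousOn X₁ (Icc 0 δ)) (c2 : ContinuousOn Y₁ (Icc 0 δ))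
    (c3 : ContinuousOn X₂ (Icc 0 δ)) (c4 : ContinuousOn Y₂ (Icc 0 δ))
    (hdet : X₁ 0 * Y₂ 0 - Y₁ 0 * X₂ 0 ≠ 0) :
    ∃ e ∈ Ioc 0 δ, ∃ N : ℕ, 0 < N ∧
      sqrt (X₁ e ^ 2 + Y₁ e ^ 2) = 2 * π * N * sqrt e ∧
      3 * π * (sqrt (X₁ e ^ 2 + Y₁ e ^ 2) * sqrt e) ≤ |X₁ e * Y₂ e - Y₁ e * X₂ e| := by
  have cD : ContinuousOn (fun e => sqrt (X₁ e ^ 2 + Y₁ e ^ 2)) (Icc 0 δ) :=
    ((c1.pow 2).add (c2.pow 2)).sqrt
  have cs : ContinuousOn (fun e : ℝ => sqrt e) (Icc 0 δ) := Real.continuous_sqrt.continuousOn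
  have cW : ContinuousOn (fun e => |X₁ e * Y₂ e - Y₁ e * X₂ e|) (Icc 0 δ) :=
    ((c1.mul c4).sub (c2.mul c3)).abs
  have cG : ContinuousOn (fun e => |X₁ e * Y₂ e - Y₁ e * X₂ e|
      - 3 * π * (sqrt (X₁ e ^ 2 + Y₁ e ^ 2) * sqrt e)) (Icc 0 δ) :=
    cW.sub (continuousOn_const.mul (cD.mul cs))
  have h0mem : (0 : ℝ) ∈ Icc 0 δ := ⟨le_refl _, hδ.le⟩
  have hG0 : 0 < |X₁ 0 * Y₂ 0 - Y₁ 0 * X₂ 0| - 3 * π * (sqrt (X₁ 0 ^ 2 + Y₁ 0 ^ 2) * sqrt 0) := by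
    rw [Real.sqrt_zero]
    simpa using hdet
  obtain ⟨η, hη, hηG⟩ := (Metric.continuousOn_iff.mp cG) 0 h0mem _ hG0
  -- the small interval
  set d : ℝ := min δ (η / 2) with hd
  have hd0 : 0 < d := lt_min hδ (by linarith)
  have hdδ : d ≤ δ := min_le_left _ _
  have hdη : d < η := lt_of_le_of_lt (min_le_right _ _) (by linarith)
  have hsub : Icc 0 d ⊆ Icc 0 δ := Icc_subset_Icc_right hdδ
  have hGpos : ∀ e ∈ Icc 0 d, 3 * π * (sqrt (X₁ e ^ 2 + Y₁ e ^ 2) * sqrt e)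
      ≤ |X₁ e * Y₂ e - Y₁ e * X₂ e| := by
    intro e he
    have h1 := hηG e (hsub he) (by
      rw [Real.dist_eq, sub_zero, abs_of_nonneg he.1]
      exact lt_of_le_of_lt he.2 hdη)
    rw [Real.dist_eq] at h1
    have h2 := (abs_lt.mp h1).1
    linarith
  -- D 0 > 0
  have hD0 : 0 < sqrt (X₁ 0 ^ 2 + Y₁ 0 ^ 2) := by
    apply Real.sqrt_pos.mpr
    by_contra hcon
    have hz : X₁ 0 ^ 2 + Y₁ 0 ^ 2 = 0 := le_antisymm (not_lt.mp hcon) (by positivity)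
    have hx : X₁ 0 = 0 := by nlinarith [sq_nonneg (X₁ 0), sq_nonneg (Y₁ 0)]
    have hy : Y₁ 0 = 0 := by nlinarith [sq_nonneg (X₁ 0), sq_nonneg (Y₁ 0)]
    apply hdet
    rw [hx, hy]; ring
  have hsd : 0 < sqrt d := Real.sqrt_pos.mpr hd0
  -- choose N
  obtain ⟨N, hN⟩ := exists_nat_gt (sqrt (X₁ d ^ 2 + Y₁ d ^ 2) / (2 * π * sqrt d))
  have hpos : 0 < 2 * π * sqrt d := by positivity
  have hNpos : 0 < N := by
    have h3 : (0 : ℝ) ≤ sqrt (X₁ d ^ 2 + Y₁ d ^ 2) / (2 * π * sqrt d) := by positivity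
    have h4 : (0 : ℝ) < (N : ℝ) := lt_of_le_of_lt h3 hN
    exact_mod_cast h4
  have hNd : sqrt (X₁ d ^ 2 + Y₁ d ^ 2) < 2 * π * N * sqrt d := by
    rw [div_lt_iff₀ hpos] at hN
    linarith
  -- IVT
  have ch : ContinuousOn (fun e => sqrt (X₁ e ^ 2 + Y₁ e ^ 2) - 2 * π * N * sqrt e) (Icc 0 d) :=
    ((cD.sub (continuousOn_const.mul cs))).mono hsub
  have hivt := intermediate_value_Icc' hd0.le ch
  have hmem : (0 : ℝ) ∈ Icc (sqrt (X₁ d ^ 2 + Y₁ d ^ 2) - 2 * π * N * sqrt d)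
      (sqrt (X₁ 0 ^ 2 + Y₁ 0 ^ 2) - 2 * π * N * sqrt 0) := by
    constructor
    · linarith
    · rw [Real.sqrt_zero]; linarith
  obtain ⟨e, he, hez⟩ := hivt hmem
  have hez' : sqrt (X₁ e ^ 2 + Y₁ e ^ 2) - 2 * π * N * sqrt e = 0 := hez
  have hene : e ≠ 0 := by
    intro h
    rw [h, Real.sqrt_zero] at hez'
    linarith
  refine ⟨e, ⟨lt_of_le_of_ne he.1 (Ne.symm hene), le_trans he.2 hdδ⟩, N, hNpos, by linarith, hGpos e he⟩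

end Vale.Agent.P205T
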