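import Vale.Agent.P205T.Basic

/-! # P205T : the functions `qq, tP, tR, t11, t12, t22`: smoothness and first derivatives -/

namespace Vale.Agent.P205T

open scoped ContDiff

variable {e : ℝ} {ρ ψ : ℝ × ℝ → ℝ}

lemma qq_mul_tP (hq : ∀ z, 0 < qq ψ z) (z : ℝ × ℝ) : qq ψ z * tP ρ ψ z = ta1 ρ ψ z := by
  have h0 : qq ψ z ≠ 0 := (hq z).ne'
  unfold tP ta1
  field_simp

lemma qq_mul_tR (hq : ∀ z, 0 < qq ψ z) (z : ℝ × ℝ) : qq ψ z * tR ρ ψ z = ta2 ρ ψ z := by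
  have h0 : qq ψ z ≠ 0 := (hq z).ne'
  unfold tR ta2
  field_simp

private lemma sS_arg (hq : ∀ z, 0 < qq ψ z) (z : ℝ × ℝ) :
    1 - e * qq ψ z ^ 2 * (tP ρ ψ z ^ 2 + tR ρ ψ z ^ 2)
      = 1 - e * (ta1 ρ ψ z ^ 2 + ta2 ρ ψ z ^ 2) := by
  rw [← qq_mul_tP hq z, ← qq_mul_tR hq z]
  ring

lemma sS_sq (hq : ∀ z, 0 < qq ψ z) (hs : ∀ z, e * (ta1 ρ ψ z ^ 2 + ta2 ρ ψ z ^ 2) < 1)
    (z : ℝ × ℝ) :
    sS e ρ ψ z ^ 2 = 1 - e * qq ψ z ^ 2 * (tP ρ ψ z ^ 2 + tR ρ ψ z ^ 2) := by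
  unfold sS
  apply Real.sq_sqrt
  rw [sS_arg hq z]
  have := hs z
  linarith

lemma sS_pos (hq : ∀ z, 0 < qq ψ z) (hs : ∀ z, e * (ta1 ρ ψ z ^ 2 + ta2 ρ ψ z ^ 2) < 1)
    (z : ℝ × ℝ) : 0 < sS e ρ ψ z := by
  unfold sS
  apply Real.sqrt_pos.2
  rw [sS_arg hq z]
  have := hs z
  linarith

section Smooth

variable (hρ : ContDiff ℝ ∞ ρ) (hψ : ContDiff ℝ ∞ ψ) (hq : ∀ z, 0 < qq ψ z)
  (hs : ∀ z, e * (ta1 ρ ψ z ^ 2 + ta2 ρ ψ z ^ 2) < 1)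

private lemma dAt {u : ℝ × ℝ → ℝ} (h : ContDiff ℝ ∞ u) (z : ℝ × ℝ) : DifferentiableAt ℝ u z :=
  (h.differentiable (by simp)).differentiableAt

include hψ in
lemma contDiff_qq : ContDiff ℝ ∞ (qq ψ) := by
  have : qq ψ = fun z => 1 + ψ z := rfl
  rw [this]
  exact contDiff_const.add hψ

include hψ in
lemma dX_qq (z : ℝ × ℝ) : dX (qq ψ) z = dX ψ z := by
  have : qq ψ = fun z => (fun _ => (1 : ℝ)) z + ψ z := rfl
  rw [this, dX_add (differentiableAt_const _) (dAt hψ z), dX_const, zero_add]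

include hψ in
lemma dY_qq (z : ℝ × ℝ) : dY (qq ψ) z = dY ψ z := by
  have : qq ψ = fun z => (fun _ => (1 : ℝ)) z + ψ z := rfl
  rw [this, dY_add (differentiableAt_const _) (dAt hψ z), dY_const, zero_add]

include hρ hψ hq in
lemma contDiff_tP : ContDiff ℝ ∞ (tP ρ ψ) := by
  have : tP ρ ψ = fun z => dX ρ z + dX ψ z / qq ψ z := rfl
  rw [this]
  exact (contDiff_dX hρ).add ((contDiff_dX hψ).div (contDiff_qq hψ) (fun z => (hq z).ne'))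

include hρ hψ hq in
lemma contDiff_tR : ContDiff ℝ ∞ (tR ρ ψ) := by
  have : tR ρ ψ = fun z => dY ρ z + dY ψ z / qq ψ z := rfl
  rw [this]
  exact (contDiff_dY hρ).add ((contDiff_dY hψ).div (contDiff_qq hψ) (fun z => (hq z).ne'))

include hρ hψ hq in
lemma contDiff_t11 : ContDiff ℝ ∞ (t11 ρ ψ) := by
  have : t11 ρ ψ = fun z => dX (dX ρ) z + dX (dX ψ) z / qq ψ z - dX ψ z ^ 2 / qq ψ z ^ 2 := rfl
  rw [this]
  exact ((contDiff_dX (contDiff_dX hρ)).add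
    ((contDiff_dX (contDiff_dX hψ)).div (contDiff_qq hψ) (fun z => (hq z).ne'))).sub
    (((contDiff_dX hψ).pow 2).div ((contDiff_qq hψ).pow 2) (fun z => pow_ne_zero 2 (hq z).ne'))

include hρ hψ hq in
lemma contDiff_t12 : ContDiff ℝ ∞ (t12 ρ ψ) := by
  have : t12 ρ ψ
      = fun z => dY (dX ρ) z + dY (dX ψ) z / qq ψ z - dX ψ z * dY ψ z / qq ψ z ^ 2 := rfl
  rw [this]
  exact ((contDiff_dY (contDiff_dX hρ)).add
    ((contDiff_dY (contDiff_dX hψ)).div (contDiff_qq hψ) (fun z => (hq z).ne'))).sub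
    (((contDiff_dX hψ).mul (contDiff_dY hψ)).div ((contDiff_qq hψ).pow 2)
      (fun z => pow_ne_zero 2 (hq z).ne'))

include hρ hψ hq in
lemma contDiff_t22 : ContDiff ℝ ∞ (t22 ρ ψ) := by
  have : t22 ρ ψ = fun z => dY (dY ρ) z + dY (dY ψ) z / qq ψ z - dY ψ z ^ 2 / qq ψ z ^ 2 := rfl
  rw [this]
  exact ((contDiff_dY (contDiff_dY hρ)).add
    ((contDiff_dY (contDiff_dY hψ)).div (contDiff_qq hψ) (fun z => (hq z).ne'))).sub
    (((contDiff_dY hψ).pow 2).div ((contDiff_qq hψ).pow 2) (fun z => pow_ne_zero 2 (hq z).ne'))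

include hρ hψ hq in
lemma dX_tP (z : ℝ × ℝ) : dX (tP ρ ψ) z = t11 ρ ψ z := by
  have h0 : qq ψ z ≠ 0 := (hq z).ne'
  have : tP ρ ψ = fun z => dX ρ z + (fun w => dX ψ w / qq ψ w) z := rfl
  have hd : DifferentiableAt ℝ (fun w => dX ψ w / qq ψ w) z :=
    dAt ((contDiff_dX hψ).div (contDiff_qq hψ) (fun w => (hq w).ne')) z
  rw [this, dX_add (dAt (contDiff_dX hρ) z)
    hd,
    dX_div (dAt (contDiff_dX hψ) z) (dAt (contDiff_qq hψ) z) h0, dX_qq hψ]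
  unfold t11
  field_simp
  ring

include hρ hψ hq in
lemma dY_tP (z : ℝ × ℝ) : dY (tP ρ ψ) z = t12 ρ ψ z := by
  have h0 : qq ψ z ≠ 0 := (hq z).ne'
  have : tP ρ ψ = fun z => dX ρ z + (fun w => dX ψ w / qq ψ w) z := rfl
  have hd : DifferentiableAt ℝ (fun w => dX ψ w / qq ψ w) z :=
    dAt ((contDiff_dX hψ).div (contDiff_qq hψ) (fun w => (hq w).ne')) z
  rw [this, dY_add (dAt (contDiff_dX hρ) z)
    hd,
    dY_div (dAt (contDiff_dX hψ) z) (dAt (contDiff_qq hψ) z) h0, dY_qq hψ]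
  unfold t12
  field_simp
  ring

include hρ hψ hq in
lemma dX_tR (z : ℝ × ℝ) : dX (tR ρ ψ) z = t12 ρ ψ z := by
  have h0 : qq ψ z ≠ 0 := (hq z).ne'
  have : tR ρ ψ = fun z => dY ρ z + (fun w => dY ψ w / qq ψ w) z := rfl
  have hd : DifferentiableAt ℝ (fun w => dY ψ w / qq ψ w) z :=
    dAt ((contDiff_dY hψ).div (contDiff_qq hψ) (fun w => (hq w).ne')) z
  rw [this, dX_add (dAt (contDiff_dY hρ) z)
    hd,
    dX_div (dAt (contDiff_dY hψ) z) (dAt (contDiff_qq hψ) z) h0, dX_qq hψ,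
    dX_dY_comm hρ, dX_dY_comm hψ]
  unfold t12
  field_simp
  ring

include hρ hψ hq in
lemma dY_tR (z : ℝ × ℝ) : dY (tR ρ ψ) z = t22 ρ ψ z := by
  have h0 : qq ψ z ≠ 0 := (hq z).ne'
  have : tR ρ ψ = fun z => dY ρ z + (fun w => dY ψ w / qq ψ w) z := rfl
  have hd : DifferentiableAt ℝ (fun w => dY ψ w / qq ψ w) z :=
    dAt ((contDiff_dY hψ).div (contDiff_qq hψ) (fun w => (hq w).ne')) z
  rw [this, dY_add (dAt (contDiff_dY hρ) z)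
    hd,
    dY_div (dAt (contDiff_dY hψ) z) (dAt (contDiff_qq hψ) z) h0, dY_qq hψ]
  unfold t22
  field_simp
  ring

-- third derivatives of `t` are symmetric
include hρ hψ hq in
lemma dY_t11 (z : ℝ × ℝ) : dY (t11 ρ ψ) z = dX (t12 ρ ψ) z := by
  have h1 : t11 ρ ψ = dX (tP ρ ψ) := funext fun w => (dX_tP hρ hψ hq w).symm
  have h2 : t12 ρ ψ = dY (tP ρ ψ) := funext fun w => (dY_tP hρ hψ hq w).symm
  rw [h1, h2]
  exact (dX_dY_comm (contDiff_tP hρ hψ hq) z).symm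

include hρ hψ hq in
lemma dX_t22 (z : ℝ × ℝ) : dX (t22 ρ ψ) z = dY (t12 ρ ψ) z := by
  have h1 : t22 ρ ψ = dY (tR ρ ψ) := funext fun w => (dY_tR hρ hψ hq w).symm
  have h2 : t12 ρ ψ = dX (tR ρ ψ) := funext fun w => (dX_tR hρ hψ hq w).symm
  rw [h1, h2]
  exact dX_dY_comm (contDiff_tR hρ hψ hq) z

end Smooth

end Vale.Agent.P205T
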