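import Vale.Agent.P205T.JetA

/-! # P205T : the functions `sS, muF, kaF, upX, upY, eA, eB, eC`: smoothness; derivatives of `sS` -/

namespace Vale.Agent.P205T

open scoped ContDiff

variable {e : ℝ} {ρ ψ : ℝ × ℝ → ℝ}

section Smooth

variable (hρ : ContDiff ℝ ∞ ρ) (hψ : ContDiff ℝ ∞ ψ) (hq : ∀ z, 0 < qq ψ z)
  (hs : ∀ z, e * (ta1 ρ ψ z ^ 2 + ta2 ρ ψ z ^ 2) < 1)

include hq hs in
private lemma rad_pos (z : ℝ × ℝ) :
    0 < 1 - e * qq ψ z ^ 2 * (tP ρ ψ z ^ 2 + tR ρ ψ z ^ 2) := by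
  rw [← sS_sq hq hs z]
  have h := sS_pos (e := e) (ρ := ρ) hq hs z
  positivity

include hρ hψ hq in
private lemma contDiff_rad :
    ContDiff ℝ ∞ (fun z => 1 - e * qq ψ z ^ 2 * (tP ρ ψ z ^ 2 + tR ρ ψ z ^ 2)) :=
  contDiff_const.sub ((contDiff_const.mul ((contDiff_qq hψ).pow 2)).mul
    (((contDiff_tP hρ hψ hq).pow 2).add ((contDiff_tR hρ hψ hq).pow 2)))

include hρ hψ hq hs in
lemma contDiff_sS : ContDiff ℝ ∞ (sS e ρ ψ) := by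
  show ContDiff ℝ ∞ (fun z => Real.sqrt (1 - e * qq ψ z ^ 2 * (tP ρ ψ z ^ 2 + tR ρ ψ z ^ 2)))
  exact (contDiff_rad hρ hψ hq).sqrt (fun z => (rad_pos hq hs z).ne')

include hρ hψ hq in
private lemma dX_rad (z : ℝ × ℝ) :
    dX (fun w => 1 - e * qq ψ w ^ 2 * (tP ρ ψ w ^ 2 + tR ρ ψ w ^ 2)) z =
      -(e * (2 * qq ψ z * dX ψ z) * (tP ρ ψ z ^ 2 + tR ρ ψ z ^ 2) +
        e * qq ψ z ^ 2 * (2 * tP ρ ψ z * t11 ρ ψ z + 2 * tR ρ ψ z * t12 ρ ψ z)) := by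
  have dq : DifferentiableAt ℝ (qq ψ) z :=
    ((contDiff_qq hψ).differentiable (by simp)).differentiableAt
  have dP : DifferentiableAt ℝ (tP ρ ψ) z :=
    ((contDiff_tP hρ hψ hq).differentiable (by simp)).differentiableAt
  have dR : DifferentiableAt ℝ (tR ρ ψ) z :=
    ((contDiff_tR hρ hψ hq).differentiable (by simp)).differentiableAt
  have dq2 : DifferentiableAt ℝ (fun w => qq ψ w ^ 2) z := dq.pow 2
  have dP2 : DifferentiableAt ℝ (fun w => tP ρ ψ w ^ 2) z := dP.pow 2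
  have dR2 : DifferentiableAt ℝ (fun w => tR ρ ψ w ^ 2) z := dR.pow 2
  have dc : DifferentiableAt ℝ (fun _ : ℝ × ℝ => e) z := differentiableAt_const e
  have deq : DifferentiableAt ℝ (fun w => e * qq ψ w ^ 2) z := dc.mul dq2
  have dPR : DifferentiableAt ℝ (fun w => tP ρ ψ w ^ 2 + tR ρ ψ w ^ 2) z := dP2.add dR2
  have h1 : dX (fun w => 1 - e * qq ψ w ^ 2 * (tP ρ ψ w ^ 2 + tR ρ ψ w ^ 2)) z =
      dX (fun _ : ℝ × ℝ => (1 : ℝ)) z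
        - dX (fun w => e * qq ψ w ^ 2 * (tP ρ ψ w ^ 2 + tR ρ ψ w ^ 2)) z :=
    dX_sub (u := fun _ => (1 : ℝ))
      (v := fun w => e * qq ψ w ^ 2 * (tP ρ ψ w ^ 2 + tR ρ ψ w ^ 2))
      (differentiableAt_const _) (deq.mul dPR)
  have h2 : dX (fun w => e * qq ψ w ^ 2 * (tP ρ ψ w ^ 2 + tR ρ ψ w ^ 2)) z =
      dX (fun w => e * qq ψ w ^ 2) z * (tP ρ ψ z ^ 2 + tR ρ ψ z ^ 2)
        + e * qq ψ z ^ 2 * dX (fun w => tP ρ ψ w ^ 2 + tR ρ ψ w ^ 2) z :=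
    dX_mul (u := fun w => e * qq ψ w ^ 2) (v := fun w => tP ρ ψ w ^ 2 + tR ρ ψ w ^ 2) deq dPR
  have h3 : dX (fun w => e * qq ψ w ^ 2) z =
      dX (fun _ : ℝ × ℝ => e) z * qq ψ z ^ 2 + e * dX (fun w => qq ψ w ^ 2) z :=
    dX_mul (u := fun _ => e) (v := fun w => qq ψ w ^ 2) dc dq2
  have h4 : dX (fun w => qq ψ w ^ 2) z = (2 : ℕ) * qq ψ z ^ (2 - 1) * dX (qq ψ) z :=
    dX_pow dq 2
  have h5 : dX (fun w => tP ρ ψ w ^ 2 + tR ρ ψ w ^ 2) z =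
      dX (fun w => tP ρ ψ w ^ 2) z + dX (fun w => tR ρ ψ w ^ 2) z :=
    dX_add (u := fun w => tP ρ ψ w ^ 2) (v := fun w => tR ρ ψ w ^ 2) dP2 dR2
  have h6 : dX (fun w => tP ρ ψ w ^ 2) z = (2 : ℕ) * tP ρ ψ z ^ (2 - 1) * dX (tP ρ ψ) z :=
    dX_pow dP 2
  have h7 : dX (fun w => tR ρ ψ w ^ 2) z = (2 : ℕ) * tR ρ ψ z ^ (2 - 1) * dX (tR ρ ψ) z :=
    dX_pow dR 2
  rw [h1, h2, h3, h4, h5, h6, h7, dX_const, dX_const, dX_qq hψ, dX_tP hρ hψ hq,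
    dX_tR hρ hψ hq]
  push_cast
  ring

include hρ hψ hq in
private lemma dY_rad (z : ℝ × ℝ) :
    dY (fun w => 1 - e * qq ψ w ^ 2 * (tP ρ ψ w ^ 2 + tR ρ ψ w ^ 2)) z =
      -(e * (2 * qq ψ z * dY ψ z) * (tP ρ ψ z ^ 2 + tR ρ ψ z ^ 2) +
        e * qq ψ z ^ 2 * (2 * tP ρ ψ z * t12 ρ ψ z + 2 * tR ρ ψ z * t22 ρ ψ z)) := by
  have dq : DifferentiableAt ℝ (qq ψ) z :=
    ((contDiff_qq hψ).differentiable (by simp)).differentiableAt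
  have dP : DifferentiableAt ℝ (tP ρ ψ) z :=
    ((contDiff_tP hρ hψ hq).differentiable (by simp)).differentiableAt
  have dR : DifferentiableAt ℝ (tR ρ ψ) z :=
    ((contDiff_tR hρ hψ hq).differentiable (by simp)).differentiableAt
  have dq2 : DifferentiableAt ℝ (fun w => qq ψ w ^ 2) z := dq.pow 2
  have dP2 : DifferentiableAt ℝ (fun w => tP ρ ψ w ^ 2) z := dP.pow 2
  have dR2 : DifferentiableAt ℝ (fun w => tR ρ ψ w ^ 2) z := dR.pow 2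
  have dc : DifferentiableAt ℝ (fun _ : ℝ × ℝ => e) z := differentiableAt_const e
  have deq : DifferentiableAt ℝ (fun w => e * qq ψ w ^ 2) z := dc.mul dq2
  have dPR : DifferentiableAt ℝ (fun w => tP ρ ψ w ^ 2 + tR ρ ψ w ^ 2) z := dP2.add dR2
  have h1 : dY (fun w => 1 - e * qq ψ w ^ 2 * (tP ρ ψ w ^ 2 + tR ρ ψ w ^ 2)) z =
      dY (fun _ : ℝ × ℝ => (1 : ℝ)) z
        - dY (fun w => e * qq ψ w ^ 2 * (tP ρ ψ w ^ 2 + tR ρ ψ w ^ 2)) z :=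
    dY_sub (u := fun _ => (1 : ℝ))
      (v := fun w => e * qq ψ w ^ 2 * (tP ρ ψ w ^ 2 + tR ρ ψ w ^ 2))
      (differentiableAt_const _) (deq.mul dPR)
  have h2 : dY (fun w => e * qq ψ w ^ 2 * (tP ρ ψ w ^ 2 + tR ρ ψ w ^ 2)) z =
      dY (fun w => e * qq ψ w ^ 2) z * (tP ρ ψ z ^ 2 + tR ρ ψ z ^ 2)
        + e * qq ψ z ^ 2 * dY (fun w => tP ρ ψ w ^ 2 + tR ρ ψ w ^ 2) z :=
    dY_mul (u := fun w => e * qq ψ w ^ 2) (v := fun w => tP ρ ψ w ^ 2 + tR ρ ψ w ^ 2) deq dPR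
  have h3 : dY (fun w => e * qq ψ w ^ 2) z =
      dY (fun _ : ℝ × ℝ => e) z * qq ψ z ^ 2 + e * dY (fun w => qq ψ w ^ 2) z :=
    dY_mul (u := fun _ => e) (v := fun w => qq ψ w ^ 2) dc dq2
  have h4 : dY (fun w => qq ψ w ^ 2) z = (2 : ℕ) * qq ψ z ^ (2 - 1) * dY (qq ψ) z :=
    dY_pow dq 2
  have h5 : dY (fun w => tP ρ ψ w ^ 2 + tR ρ ψ w ^ 2) z =
      dY (fun w => tP ρ ψ w ^ 2) z + dY (fun w => tR ρ ψ w ^ 2) z :=
    dY_add (u := fun w => tP ρ ψ w ^ 2) (v := fun w => tR ρ ψ w ^ 2) dP2 dR2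
  have h6 : dY (fun w => tP ρ ψ w ^ 2) z = (2 : ℕ) * tP ρ ψ z ^ (2 - 1) * dY (tP ρ ψ) z :=
    dY_pow dP 2
  have h7 : dY (fun w => tR ρ ψ w ^ 2) z = (2 : ℕ) * tR ρ ψ z ^ (2 - 1) * dY (tR ρ ψ) z :=
    dY_pow dR 2
  rw [h1, h2, h3, h4, h5, h6, h7, dY_const, dY_const, dY_qq hψ, dY_tP hρ hψ hq,
    dY_tR hρ hψ hq]
  push_cast
  ring

include hρ hψ hq hs in
lemma dX_sS (z : ℝ × ℝ) : dX (sS e ρ ψ) z =
    -(e * qq ψ z * (dX ψ z * (tP ρ ψ z ^ 2 + tR ρ ψ z ^ 2) +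
      qq ψ z * (tP ρ ψ z * t11 ρ ψ z + tR ρ ψ z * t12 ρ ψ z))) / sS e ρ ψ z := by
  have hd : DifferentiableAt ℝ
      (fun w => 1 - e * qq ψ w ^ 2 * (tP ρ ψ w ^ 2 + tR ρ ψ w ^ 2)) z :=
    ((contDiff_rad (e := e) hρ hψ hq).differentiable (by simp)).differentiableAt
  have h1 : dX (sS e ρ ψ) z =
      dX (fun w => 1 - e * qq ψ w ^ 2 * (tP ρ ψ w ^ 2 + tR ρ ψ w ^ 2)) z /
        (2 * sS e ρ ψ z) :=
    dX_sqrt (u := fun w => 1 - e * qq ψ w ^ 2 * (tP ρ ψ w ^ 2 + tR ρ ψ w ^ 2)) hd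
      (rad_pos hq hs z).ne'
  have hpos := sS_pos (e := e) (ρ := ρ) hq hs z
  rw [h1, dX_rad hρ hψ hq]
  field_simp

include hρ hψ hq hs in
lemma dY_sS (z : ℝ × ℝ) : dY (sS e ρ ψ) z =
    -(e * qq ψ z * (dY ψ z * (tP ρ ψ z ^ 2 + tR ρ ψ z ^ 2) +
      qq ψ z * (tP ρ ψ z * t12 ρ ψ z + tR ρ ψ z * t22 ρ ψ z))) / sS e ρ ψ z := by
  have hd : DifferentiableAt ℝ
      (fun w => 1 - e * qq ψ w ^ 2 * (tP ρ ψ w ^ 2 + tR ρ ψ w ^ 2)) z :=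
    ((contDiff_rad (e := e) hρ hψ hq).differentiable (by simp)).differentiableAt
  have h1 : dY (sS e ρ ψ) z =
      dY (fun w => 1 - e * qq ψ w ^ 2 * (tP ρ ψ w ^ 2 + tR ρ ψ w ^ 2)) z /
        (2 * sS e ρ ψ z) :=
    dY_sqrt (u := fun w => 1 - e * qq ψ w ^ 2 * (tP ρ ψ w ^ 2 + tR ρ ψ w ^ 2)) hd
      (rad_pos hq hs z).ne'
  have hpos := sS_pos (e := e) (ρ := ρ) hq hs z
  rw [h1, dY_rad hρ hψ hq]
  field_simp

include hρ hψ hq hs in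
lemma contDiff_muF : ContDiff ℝ ∞ (muF e ρ ψ) := by
  show ContDiff ℝ ∞ (fun z => e * qq ψ z ^ 2 / (sS e ρ ψ z * (1 + sS e ρ ψ z)))
  have hS := contDiff_sS (e := e) hρ hψ hq hs
  refine (contDiff_const.mul ((contDiff_qq hψ).pow 2)).div
    (hS.mul (contDiff_const.add hS)) (fun z => ?_)
  have hpos := sS_pos (e := e) (ρ := ρ) hq hs z
  positivity

include hρ hψ hq hs in
lemma contDiff_kaF : ContDiff ℝ ∞ (kaF e ρ ψ) := by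
  show ContDiff ℝ ∞ (fun z => e * qq ψ z / (1 + sS e ρ ψ z))
  have hS := contDiff_sS (e := e) hρ hψ hq hs
  refine (contDiff_const.mul (contDiff_qq hψ)).div (contDiff_const.add hS) (fun z => ?_)
  have hpos := sS_pos (e := e) (ρ := ρ) hq hs z
  positivity

include hρ hψ hq hs in
lemma contDiff_upX : ContDiff ℝ ∞ (upX e ρ ψ) := by
  show ContDiff ℝ ∞ (fun z => dY ψ z / (qq ψ z * sS e ρ ψ z) +
    muF e ρ ψ z * (tP ρ ψ z * t12 ρ ψ z - tR ρ ψ z * t11 ρ ψ z))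
  have hS := contDiff_sS (e := e) hρ hψ hq hs
  refine ((contDiff_dY hψ).div ((contDiff_qq hψ).mul hS) (fun z => ?_)).add
    ((contDiff_muF hρ hψ hq hs).mul
      (((contDiff_tP hρ hψ hq).mul (contDiff_t12 hρ hψ hq)).sub
        ((contDiff_tR hρ hψ hq).mul (contDiff_t11 hρ hψ hq))))
  have hpos := sS_pos (e := e) (ρ := ρ) hq hs z
  have hq' := hq z
  positivity

include hρ hψ hq hs in
lemma contDiff_upY : ContDiff ℝ ∞ (upY e ρ ψ) := by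
  show ContDiff ℝ ∞ (fun z => -(dX ψ z) / (qq ψ z * sS e ρ ψ z) +
    muF e ρ ψ z * (tP ρ ψ z * t22 ρ ψ z - tR ρ ψ z * t12 ρ ψ z))
  have hS := contDiff_sS (e := e) hρ hψ hq hs
  refine ((contDiff_dX hψ).neg.div ((contDiff_qq hψ).mul hS) (fun z => ?_)).add
    ((contDiff_muF hρ hψ hq hs).mul
      (((contDiff_tP hρ hψ hq).mul (contDiff_t22 hρ hψ hq)).sub
        ((contDiff_tR hρ hψ hq).mul (contDiff_t12 hρ hψ hq))))
  have hpos := sS_pos (e := e) (ρ := ρ) hq hs z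
  have hq' := hq z
  positivity

include hρ hψ hq hs in
lemma contDiff_eA : ContDiff ℝ ∞ (eA e ρ ψ) := by
  show ContDiff ℝ ∞ (fun z => 1 / qq ψ z - kaF e ρ ψ z * tP ρ ψ z ^ 2)
  exact (contDiff_const.div (contDiff_qq hψ) (fun z => (hq z).ne')).sub
    ((contDiff_kaF hρ hψ hq hs).mul ((contDiff_tP hρ hψ hq).pow 2))

include hρ hψ hq hs in
lemma contDiff_eB : ContDiff ℝ ∞ (eB e ρ ψ) := by
  show ContDiff ℝ ∞ (fun z => -(kaF e ρ ψ z * tP ρ ψ z * tR ρ ψ z))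
  exact (((contDiff_kaF hρ hψ hq hs).mul (contDiff_tP hρ hψ hq)).mul
    (contDiff_tR hρ hψ hq)).neg

include hρ hψ hq hs in
lemma contDiff_eC : ContDiff ℝ ∞ (eC e ρ ψ) := by
  show ContDiff ℝ ∞ (fun z => 1 / qq ψ z - kaF e ρ ψ z * tR ρ ψ z ^ 2)
  exact (contDiff_const.div (contDiff_qq hψ) (fun z => (hq z).ne')).sub
    ((contDiff_kaF hρ hψ hq hs).mul ((contDiff_tR hρ hψ hq).pow 2))

end Smooth

end Vale.Agent.P205T
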