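import Vale.Agent.P205T.Basic

/-! # P205T : periodicity of the jet functions (unfold everything, use `Per.dX`, `Per.dY`) -/

namespace Vale.Agent.P205T

variable {e : ℝ} {ρ ψ : ℝ × ℝ → ℝ}

section Periodic

variable {ω₁ ω₂ : ℝ × ℝ} (pρ : Per ω₁ ω₂ ρ) (pψ : Per ω₁ ω₂ ψ)

include pρ pψ in
lemma per_upX : Per ω₁ ω₂ (upX e ρ ψ) := by
  refine ⟨fun z => ?_, fun z => ?_⟩
  · simp only [upX, muF, sS, tP, tR, t11, t12, qq, pψ.1 z, pρ.dX.1 z, pρ.dY.1 z, pψ.dX.1 z,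
      pψ.dY.1 z, pρ.dX.dX.1 z, pρ.dX.dY.1 z, pψ.dX.dX.1 z, pψ.dX.dY.1 z]
  · simp only [upX, muF, sS, tP, tR, t11, t12, qq, pψ.2 z, pρ.dX.2 z, pρ.dY.2 z, pψ.dX.2 z,
      pψ.dY.2 z, pρ.dX.dX.2 z, pρ.dX.dY.2 z, pψ.dX.dX.2 z, pψ.dX.dY.2 z]

include pρ pψ in
lemma per_upY : Per ω₁ ω₂ (upY e ρ ψ) := by
  refine ⟨fun z => ?_, fun z => ?_⟩
  · simp only [upY, muF, sS, tP, tR, t22, t12, qq, pψ.1 z, pρ.dX.1 z, pρ.dY.1 z, pψ.dX.1 z,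
      pψ.dY.1 z, pρ.dY.dY.1 z, pρ.dX.dY.1 z, pψ.dY.dY.1 z, pψ.dX.dY.1 z]
  · simp only [upY, muF, sS, tP, tR, t22, t12, qq, pψ.2 z, pρ.dX.2 z, pρ.dY.2 z, pψ.dX.2 z,
      pψ.dY.2 z, pρ.dY.dY.2 z, pρ.dX.dY.2 z, pψ.dY.dY.2 z, pψ.dX.dY.2 z]

include pρ pψ in
lemma per_eA : Per ω₁ ω₂ (eA e ρ ψ) := by
  refine ⟨fun z => ?_, fun z => ?_⟩
  · simp only [eA, kaF, sS, tP, tR, qq, pψ.1 z, pρ.dX.1 z, pρ.dY.1 z, pψ.dX.1 z, pψ.dY.1 z]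
  · simp only [eA, kaF, sS, tP, tR, qq, pψ.2 z, pρ.dX.2 z, pρ.dY.2 z, pψ.dX.2 z, pψ.dY.2 z]

include pρ pψ in
lemma per_eB : Per ω₁ ω₂ (eB e ρ ψ) := by
  refine ⟨fun z => ?_, fun z => ?_⟩
  · simp only [eB, kaF, sS, tP, tR, qq, pψ.1 z, pρ.dX.1 z, pρ.dY.1 z, pψ.dX.1 z, pψ.dY.1 z]
  · simp only [eB, kaF, sS, tP, tR, qq, pψ.2 z, pρ.dX.2 z, pρ.dY.2 z, pψ.dX.2 z, pψ.dY.2 z]

include pρ pψ in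
lemma per_eC : Per ω₁ ω₂ (eC e ρ ψ) := by
  refine ⟨fun z => ?_, fun z => ?_⟩
  · simp only [eC, kaF, sS, tP, tR, qq, pψ.1 z, pρ.dX.1 z, pρ.dY.1 z, pψ.dX.1 z, pψ.dY.1 z]
  · simp only [eC, kaF, sS, tP, tR, qq, pψ.2 z, pρ.dX.2 z, pρ.dY.2 z, pψ.dX.2 z, pψ.dY.2 z]

end Periodic

end Vale.Agent.P205T
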