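import Vale.Agent.P205T.ParamA
import Vale.Agent.P205T.Prim

/-! # P205T : continuity in `e` of the developing map; its value at `e = 0` -/

namespace Vale.Agent.P205T

open scoped ContDiff
open Set

variable {ω₁ ω₂ : ℝ × ℝ} {ρ : ℝ × ℝ → ℝ} (F : Family ω₁ ω₂ ρ) (hρ : ContDiff ℝ ∞ ρ)

include hρ in
lemma cont_thF : Continuous fun p : Icc (0 : ℝ) F.δ × (ℝ × ℝ) => thF p.1 ρ (F.ψ p.1) p.2 := by
  unfold thF
  exact continuous_prim (X := Icc (0 : ℝ) F.δ)
    (P := fun a : Icc (0 : ℝ) F.δ => upX a ρ (F.ψ a)) (Q := fun a => upY a ρ (F.ψ a))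
    (cont_upX F hρ) (cont_upY F hρ)

include hρ in
lemma cont_devX : Continuous fun p : Icc (0 : ℝ) F.δ × (ℝ × ℝ) => devX p.1 ρ (F.ψ p.1) p.2 := by
  unfold devX
  have hth := cont_thF F hρ
  have hA := cont_eA F hρ
  have hB := cont_eB F hρ
  have hC := cont_eC F hρ
  refine continuous_prim (X := Icc (0 : ℝ) F.δ)
    (P := fun a : Icc (0 : ℝ) F.δ => xiX1 a ρ (F.ψ a) (thF a ρ (F.ψ a)))
    (Q := fun a => xiX2 a ρ (F.ψ a) (thF a ρ (F.ψ a))) ?_ ?_
  · unfold xiX1
    exact ((Real.continuous_cos.comp hth).mul hA).sub ((Real.continuous_sin.comp hth).mul hB)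
  · unfold xiX2
    exact ((Real.continuous_cos.comp hth).mul hB).sub ((Real.continuous_sin.comp hth).mul hC)

include hρ in
lemma cont_devY : Continuous fun p : Icc (0 : ℝ) F.δ × (ℝ × ℝ) => devY p.1 ρ (F.ψ p.1) p.2 := by
  unfold devY
  have hth := cont_thF F hρ
  have hA := cont_eA F hρ
  have hB := cont_eB F hρ
  have hC := cont_eC F hρ
  refine continuous_prim (X := Icc (0 : ℝ) F.δ)
    (P := fun a : Icc (0 : ℝ) F.δ => xiY1 a ρ (F.ψ a) (thF a ρ (F.ψ a)))
    (Q := fun a => xiY2 a ρ (F.ψ a) (thF a ρ (F.ψ a))) ?_ ?_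
  · unfold xiY1
    exact ((Real.continuous_sin.comp hth).mul hA).add ((Real.continuous_cos.comp hth).mul hB)
  · unfold xiY2
    exact ((Real.continuous_sin.comp hth).mul hB).add ((Real.continuous_cos.comp hth).mul hC)

include hρ in
theorem continuousOn_devX (p : ℝ × ℝ) :
    ContinuousOn (fun e => devX e ρ (F.ψ e) p) (Icc 0 F.δ) := by
  rw [continuousOn_iff_continuous_domRestrict]
  exact (cont_devX F hρ).comp (f := fun a : Icc (0 : ℝ) F.δ => (a, p)) (by fun_prop)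

include hρ in
theorem continuousOn_devY (p : ℝ × ℝ) :
    ContinuousOn (fun e => devY e ρ (F.ψ e) p) (Icc 0 F.δ) := by
  rw [continuousOn_iff_continuous_domRestrict]
  exact (cont_devY F hρ).comp (f := fun a : Icc (0 : ℝ) F.δ => (a, p)) (by fun_prop)

end Vale.Agent.P205T
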