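import Vale.Agent.P205T.Basic

/-! # P205T : the developing map at `e = 0`, `ψ = 0` is the identity -/

namespace Vale.Agent.P205T

variable {ρ ψ : ℝ × ℝ → ℝ}

private lemma zero_facts (hψ : ∀ z, ψ z = 0) :
    (∀ z, qq ψ z = 1) ∧ (∀ z, dX ψ z = 0) ∧ (∀ z, dY ψ z = 0) := by
  have h : ψ = fun _ => (0 : ℝ) := funext hψ
  refine ⟨fun z => by simp [qq, hψ z], fun z => ?_, fun z => ?_⟩
  · rw [h]; exact dX_const 0
  · rw [h]; exact dY_const 0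

private lemma sS_zero (z : ℝ × ℝ) : sS 0 ρ ψ z = 1 := by
  simp [sS]

private lemma upX_zero (hψ : ∀ z, ψ z = 0) : upX 0 ρ ψ = fun _ => 0 := by
  obtain ⟨_, _, h3⟩ := zero_facts hψ
  funext z
  simp [upX, muF, h3 z]

private lemma upY_zero (hψ : ∀ z, ψ z = 0) : upY 0 ρ ψ = fun _ => 0 := by
  obtain ⟨_, h2, _⟩ := zero_facts hψ
  funext z
  simp [upY, muF, h2 z]

private lemma thF_zero (hψ : ∀ z, ψ z = 0) : thF 0 ρ ψ = fun _ => 0 := by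
  funext z
  simp [thF, prim, upX_zero hψ, upY_zero hψ]

private lemma eA_zero (hψ : ∀ z, ψ z = 0) (z : ℝ × ℝ) : eA 0 ρ ψ z = 1 := by
  obtain ⟨h1, _, _⟩ := zero_facts hψ
  simp [eA, kaF, h1 z]

private lemma eB_zero (z : ℝ × ℝ) : eB 0 ρ ψ z = 0 := by
  simp [eB, kaF]

private lemma eC_zero (hψ : ∀ z, ψ z = 0) (z : ℝ × ℝ) : eC 0 ρ ψ z = 1 := by
  obtain ⟨h1, _, _⟩ := zero_facts hψ
  simp [eC, kaF, h1 z]

/-- At `e = 0`, `ψ = 0`: `q = 1`, `s = 1`, `μ = κ = 0`, `Υ = 0`, `θ = 0`, `E = I`. -/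
theorem devX_zero (hψ : ∀ z, ψ z = 0) (p : ℝ × ℝ) : devX 0 ρ ψ p = p.1 := by
  have h1 : xiX1 0 ρ ψ (thF 0 ρ ψ) = fun _ => 1 := by
    funext z
    simp [xiX1, thF_zero hψ, eA_zero hψ z, eB_zero z]
  have h2 : xiX2 0 ρ ψ (thF 0 ρ ψ) = fun _ => 0 := by
    funext z
    simp [xiX2, thF_zero hψ, eB_zero z]
  simp [devX, prim, h1, h2]

theorem devY_zero (hψ : ∀ z, ψ z = 0) (p : ℝ × ℝ) : devY 0 ρ ψ p = p.2 := by
  have h1 : xiY1 0 ρ ψ (thF 0 ρ ψ) = fun _ => 0 := by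
    funext z
    simp [xiY1, thF_zero hψ, eB_zero z]
  have h2 : xiY2 0 ρ ψ (thF 0 ρ ψ) = fun _ => 1 := by
    funext z
    simp [xiY2, thF_zero hψ, eC_zero hψ z]
  simp [devY, prim, h1, h2]

end Vale.Agent.P205T
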