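import Vale.Agent.P205T.Family
import Vale.Agent.P205T.ParamB
import Vale.Agent.P205T.ParamC
import Vale.Agent.P205T.Dev
import Vale.Agent.P205T.ConeMap
import Vale.Agent.P205T.Ivt
import Vale.Agent.P205T.HopfG

/-! # P205T : every conformal metric on every torus immerses isometrically in `ℝ⁴` -/

namespace Vale.Agent.P205T

open scoped ContDiff
open Real Set

theorem conformal_torus (ω₁ ω₂ : ℝ × ℝ) (hω : ω₁.1 * ω₂.2 - ω₁.2 * ω₂.1 ≠ 0) (ρ : ℝ × ℝ → ℝ)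
    (hρ : ContDiff ℝ ∞ ρ) (h1 : ∀ z, ρ (z + ω₁) = ρ z) (h2 : ∀ z, ρ (z + ω₂) = ρ z) :
    ∃ F : ℝ × ℝ → EuclideanSpace ℝ (Fin 4), ContDiff ℝ ∞ F ∧ (∀ z, F (z + ω₁) = F z) ∧
      (∀ z, F (z + ω₂) = F z) ∧ ∀ z v w : ℝ × ℝ,
        inner ℝ (fderiv ℝ F z v) (fderiv ℝ F z w) =
          Real.exp (2 * ρ z) * (v.1 * w.1 + v.2 * w.2) := by
  have hπ := pi_pos
  have pρ : Per ω₁ ω₂ ρ := ⟨h1, h2⟩
  obtain ⟨Fm⟩ := exists_family ω₁ ω₂ hω ρ hρ pρ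
  obtain ⟨e, he, N, hN, hnorm, hbig⟩ := exists_scale Fm.δpos
    (continuousOn_devX Fm hρ ω₁) (continuousOn_devY Fm hρ ω₁)
    (continuousOn_devX Fm hρ ω₂) (continuousOn_devY Fm hρ ω₂)
    (by
      rw [devX_zero Fm.zero, devY_zero Fm.zero, devX_zero Fm.zero, devY_zero Fm.zero]
      exact hω)
  have he' : e ∈ Icc 0 Fm.δ := ⟨he.1.le, he.2⟩
  obtain ⟨ψ, hψdef⟩ : ∃ ψ, ψ = Fm.ψ e := ⟨_, rfl⟩
  rw [← hψdef] at hnorm hbig
  have hψ : ContDiff ℝ ∞ ψ := hψdef ▸ Fm.smooth e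
  have pψ : Per ω₁ ω₂ ψ := hψdef ▸ Fm.per e
  have hq : ∀ z, 0 < qq ψ z := hψdef ▸ Fm.qpos e
  have hs : ∀ z, e * (ta1 ρ ψ z ^ 2 + ta2 ρ ψ z ^ 2) < 1 := hψdef ▸ Fm.slt he'
  have hsol : ∃ c : ℝ, ∀ z, pde e ρ ψ z = c := hψdef ▸ Fm.sol e he'
  obtain ⟨tX1, tY1, tX2, tY2⟩ := dev_translate hω hρ hψ pρ pψ hq hs hsol
  have dXd := hasFDerivAt_devX hω hρ hψ pρ pψ hq hs hsol
  have dYd := hasFDerivAt_devY hω hρ hψ pρ pψ hq hs hsol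
  have sX := contDiff_devX hω hρ hψ pρ pψ hq hs hsol
  have sY := contDiff_devY hω hρ hψ pρ pψ hq hs hsol
  obtain ⟨X, hX⟩ : ∃ X, X = devX e ρ ψ := ⟨_, rfl⟩
  obtain ⟨Y, hY⟩ : ∃ Y, Y = devY e ρ ψ := ⟨_, rfl⟩
  obtain ⟨θ, hθ⟩ : ∃ θ, θ = thF e ρ ψ := ⟨_, rfl⟩
  rw [← hX, ← hθ] at dXd
  rw [← hY, ← hθ] at dYd
  rw [← hX] at tX1 tX2 sX
  rw [← hY] at tY1 tY2 sY
  rw [← hX, ← hY] at hnorm hbig
  obtain ⟨X1, hX1⟩ : ∃ a, a = X ω₁ := ⟨_, rfl⟩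
  obtain ⟨Y1, hY1⟩ : ∃ a, a = Y ω₁ := ⟨_, rfl⟩
  obtain ⟨X2, hX2⟩ : ∃ a, a = X ω₂ := ⟨_, rfl⟩
  obtain ⟨Y2, hY2⟩ : ∃ a, a = Y ω₂ := ⟨_, rfl⟩
  rw [← hX1, ← hY1, ← hX2, ← hY2] at hbig
  rw [← hX1, ← hY1] at hnorm
  rw [← hX1] at tX1
  rw [← hY1] at tY1
  rw [← hX2] at tX2
  rw [← hY2] at tY2
  obtain ⟨se, hse⟩ : ∃ a, a = sqrt e := ⟨_, rfl⟩
  obtain ⟨n, hn⟩ : ∃ a, a = sqrt (X1 ^ 2 + Y1 ^ 2) := ⟨_, rfl⟩
  rw [← hse, ← hn] at hnorm hbig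
  have hsepos : 0 < se := hse ▸ sqrt_pos.mpr he.1
  have hse2 : se ^ 2 = e := hse ▸ sq_sqrt he.1.le
  have hNpos : (0 : ℝ) < N := by exact_mod_cast hN
  have hnpos : 0 < n := by rw [hnorm]; positivity
  have hn2 : n ^ 2 = X1 ^ 2 + Y1 ^ 2 := hn ▸ sq_sqrt (by positivity)
  obtain ⟨κ, hκ⟩ : ∃ a, a = 1 / (n * se) := ⟨_, rfl⟩
  have hκpos : 0 < κ := by rw [hκ]; positivity
  have hκ1 : κ * (n * se) = 1 := by rw [hκ]; field_simp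
  have hκ2 : κ ^ 2 * (X1 ^ 2 + Y1 ^ 2) * e = 1 := by
    rw [← hn2, ← hse2]
    linear_combination (κ * (n * se) + 1) * hκ1
  have hκN : (X1 ^ 2 + Y1 ^ 2) * κ = 2 * π * N := by
    rw [← hn2, hκ, hnorm]
    field_simp
  have hbig' : 3 * π ≤ |(X1 * Y2 - Y1 * X2) * κ| := by
    rw [abs_mul, abs_of_pos hκpos]
    calc 3 * π = 3 * π * (n * se) * κ := by linear_combination (-(3 * π)) * hκ1
      _ ≤ |X1 * Y2 - Y1 * X2| * κ := mul_le_mul_of_nonneg_right hbig hκpos.le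
  obtain ⟨G, hG, hGn, hGq, hG2, hGI⟩ := hopf_flat' ((X1 * Y2 - Y1 * X2) * κ)
    ((X1 * X2 + Y1 * Y2) * κ) hbig'
  have hGN := invariant_nat hG2 N
  -- the three ingredients
  obtain ⟨a, ha⟩ : ∃ a : ℝ × ℝ → ℝ, a = fun z => se * Real.exp (ρ z) * qq ψ z := ⟨_, rfl⟩
  obtain ⟨Z1, hZ1⟩ : ∃ Z : ℝ × ℝ → ℝ, Z = fun z => (X1 * Y z - Y1 * X z) * κ := ⟨_, rfl⟩
  obtain ⟨Z2, hZ2⟩ : ∃ Z : ℝ × ℝ → ℝ, Z = fun z => (X1 * X z + Y1 * Y z) * κ := ⟨_, rfl⟩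
  have sa : ContDiff ℝ ∞ a := by
    rw [ha]
    exact (contDiff_const.mul hρ.exp).mul (contDiff_qq hψ)
  have sZ1 : ContDiff ℝ ∞ Z1 := by
    rw [hZ1]
    exact ((contDiff_const.mul sY).sub (contDiff_const.mul sX)).mul contDiff_const
  have sZ2 : ContDiff ℝ ∞ Z2 := by
    rw [hZ2]
    exact ((contDiff_const.mul sX).add (contDiff_const.mul sY)).mul contDiff_const
  refine ⟨fun z => a z • G (Z1 z, Z2 z), sa.smul (hG.comp (sZ1.prodMk sZ2)), ?_, ?_, ?_⟩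
  · intro z
    have e1 : a (z + ω₁) = a z := by
      simp only [ha, qq, h1, pψ.1]
    have e2 : Z1 (z + ω₁) = Z1 z := by
      simp only [hZ1, tX1, tY1]
      ring
    have e3 : Z2 (z + ω₁) = Z2 z + 2 * π * N := by
      simp only [hZ2, tX1, tY1]
      linear_combination hκN
    simp only [e1, e2, e3, hGN]
  · intro z
    have e1 : a (z + ω₂) = a z := by
      simp only [ha, qq, h2, pψ.2]
    have e2 : Z1 (z + ω₂) = Z1 z + (X1 * Y2 - Y1 * X2) * κ := by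
      simp only [hZ1, tX2, tY2]
      ring
    have e3 : Z2 (z + ω₂) = Z2 z + (X1 * X2 + Y1 * Y2) * κ := by
      simp only [hZ2, tX2, tY2]
      ring
    simp only [e1, e2, e3, hGq]
  · intro z v w
    have hρd := hasFDerivAt_frm (hρ.differentiable (by simp) z)
    have hψd := hasFDerivAt_frm (hψ.differentiable (by simp) z)
    have hqz := (hq z).ne'
    have hqz' : 1 + ψ z ≠ 0 := by simpa [qq] using hqz
    have da : HasFDerivAt a (frm (a z * tP ρ ψ z) (a z * tR ρ ψ z)) z := by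
      have h := ((hρd.exp).const_mul se).mul (hψd.const_add 1)
      rw [ha]
      refine h.congr_fderiv ?_
      ext <;> simp [frm_apply, tP, tR, qq] <;> field_simp <;> ring
    have d1 : HasFDerivAt Z1 (frm ((X1 * xiY1 e ρ ψ θ z - Y1 * xiX1 e ρ ψ θ z) * κ)
        ((X1 * xiY2 e ρ ψ θ z - Y1 * xiX2 e ρ ψ θ z) * κ)) z := by
      have h := (((dYd z).const_mul X1).sub ((dXd z).const_mul Y1)).mul_const κ
      rw [hZ1]
      refine h.congr_fderiv ?_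
      ext <;> simp [frm_apply] <;> ring
    have d2 : HasFDerivAt Z2 (frm ((X1 * xiX1 e ρ ψ θ z + Y1 * xiY1 e ρ ψ θ z) * κ)
        ((X1 * xiX2 e ρ ψ θ z + Y1 * xiY2 e ρ ψ θ z) * κ)) z := by
      have h := (((dXd z).const_mul X1).add ((dYd z).const_mul Y1)).mul_const κ
      rw [hZ2]
      refine h.congr_fderiv ?_
      ext <;> simp [frm_apply] <;> ring
    rw [inner_coneMap hG hGn hGI da d1 d2 v w]
    have hrot := metric_rotated (θ := θ) hq hs z v w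
    have hrot' : qq ψ z ^ 2 * ((xiX1 e ρ ψ θ z * v.1 + xiX2 e ρ ψ θ z * v.2) *
        (xiX1 e ρ ψ θ z * w.1 + xiX2 e ρ ψ θ z * w.2) +
        (xiY1 e ρ ψ θ z * v.1 + xiY2 e ρ ψ θ z * v.2) *
        (xiY1 e ρ ψ θ z * w.1 + xiY2 e ρ ψ θ z * w.2)) =
        (v.1 * w.1 + v.2 * w.2) - e * qq ψ z ^ 2 * ((tP ρ ψ z * v.1 + tR ρ ψ z * v.2) *
          (tP ρ ψ z * w.1 + tR ρ ψ z * w.2)) := by
      rw [hrot]
      field_simp
    have hE : Real.exp (2 * ρ z) = Real.exp (ρ z) ^ 2 := by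
      rw [← Real.exp_nat_mul]
      norm_num
    have haz : a z = se * Real.exp (ρ z) * qq ψ z := by rw [ha]
    rw [hE, haz]
    generalize Real.exp (ρ z) = E at *
    generalize qq ψ z = Q at *
    generalize tP ρ ψ z = P at *
    generalize tR ρ ψ z = R at *
    generalize xiX1 e ρ ψ θ z = x1 at *
    generalize xiX2 e ρ ψ θ z = x2 at *
    generalize xiY1 e ρ ψ θ z = y1 at *
    generalize xiY2 e ρ ψ θ z = y2 at *
    linear_combination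
      (E ^ 2 * Q ^ 2 * ((P * v.1 + R * v.2) * (P * w.1 + R * w.2)) +
        E ^ 2 * Q ^ 2 * κ ^ 2 * (X1 ^ 2 + Y1 ^ 2) * ((x1 * v.1 + x2 * v.2) * (x1 * w.1 + x2 * w.2) +
          (y1 * v.1 + y2 * v.2) * (y1 * w.1 + y2 * w.2))) * hse2 +
      (E ^ 2 * Q ^ 2 * ((x1 * v.1 + x2 * v.2) * (x1 * w.1 + x2 * w.2) +
          (y1 * v.1 + y2 * v.2) * (y1 * w.1 + y2 * w.2))) * hκ2 + E ^ 2 * hrot'

end Vale.Agent.P205T
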