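import Vale.Agent.P205T.Rv

/-! # P205T : the multipliers `Δ⁻¹`, `∂ᵢ Δ⁻¹`, `∂ᵢ ∂ⱼ Δ⁻¹` and the projection off the constants -/

namespace Vale.Agent.P205T

open Complex

variable (Φ : Freq)

/-- Symbol of `Δ⁻¹` (zero on the constants). -/
noncomputable def sy0 (k : ℤ × ℤ) : ℂ :=
  if k = 0 then 0 else -1 / ((Φ.α k ^ 2 + Φ.β k ^ 2 : ℝ) : ℂ)

noncomputable def sy1 (k : ℤ × ℤ) : ℂ := I * (Φ.α k : ℂ) * sy0 Φ k
noncomputable def sy2 (k : ℤ × ℤ) : ℂ := I * (Φ.β k : ℂ) * sy0 Φ k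
noncomputable def sy11 (k : ℤ × ℤ) : ℂ := I * (Φ.α k : ℂ) * sy1 Φ k
noncomputable def sy12 (k : ℤ × ℤ) : ℂ := I * (Φ.β k : ℂ) * sy1 Φ k
noncomputable def sy22 (k : ℤ × ℤ) : ℂ := I * (Φ.β k : ℂ) * sy2 Φ k

/-- Symbol of the projection off the constants. -/
noncomputable def syP (k : ℤ × ℤ) : ℂ := if k = 0 then 0 else 1

lemma qpos_aux {k : ℤ × ℤ} (hk : k ≠ 0) : 0 < Φ.α k ^ 2 + Φ.β k ^ 2 :=
  lt_of_lt_of_le Φ.hm (Φ.ell k hk)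

lemma sy0_zero_aux : sy0 Φ 0 = 0 := by
  unfold sy0
  rw [if_pos rfl]

lemma norm_sy0_aux {k : ℤ × ℤ} (hk : k ≠ 0) :
    ‖sy0 Φ k‖ = 1 / (Φ.α k ^ 2 + Φ.β k ^ 2) := by
  unfold sy0
  rw [if_neg hk, norm_div, norm_neg, norm_one, Complex.norm_real, Real.norm_eq_abs,
    abs_of_pos (qpos_aux Φ hk)]

lemma norm_sy0_le (k : ℤ × ℤ) : ‖sy0 Φ k‖ ≤ 1 / Φ.m := by
  have hm := Φ.hm
  by_cases hk : k = 0
  · subst hk
    rw [sy0_zero_aux, norm_zero]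
    positivity
  · rw [norm_sy0_aux Φ hk]
    exact one_div_le_one_div_of_le hm (Φ.ell k hk)

lemma norm_lin_aux (a : ℝ) (c : ℂ) : ‖I * (a : ℂ) * c‖ = |a| * ‖c‖ := by
  rw [norm_mul, norm_mul, Complex.norm_I, one_mul, Complex.norm_real, Real.norm_eq_abs]

lemma abs_div_le_aux {a q m : ℝ} (hm : 0 < m) (hq : m ≤ q) (ha : a ^ 2 ≤ q) :
    |a| * (1 / q) ≤ 1 + 1 / m := by
  have hq0 : 0 < q := lt_of_lt_of_le hm hq
  have h1 : |a| ≤ 1 + q := by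
    have h2 : |a| ^ 2 = a ^ 2 := sq_abs a
    nlinarith [sq_nonneg (|a| - 1), abs_nonneg a]
  have h3 : 1 / q ≤ 1 / m := one_div_le_one_div_of_le hm hq
  calc |a| * (1 / q) ≤ (1 + q) * (1 / q) :=
        mul_le_mul_of_nonneg_right h1 (by positivity)
    _ = 1 + 1 / q := by field_simp; ring
    _ ≤ 1 + 1 / m := by linarith

lemma norm_sy1_le (k : ℤ × ℤ) : ‖sy1 Φ k‖ ≤ 1 + 1 / Φ.m := by
  have hm := Φ.hm
  unfold sy1
  rw [norm_lin_aux]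
  by_cases hk : k = 0
  · subst hk
    rw [sy0_zero_aux, norm_zero, mul_zero]
    positivity
  · rw [norm_sy0_aux Φ hk]
    exact abs_div_le_aux hm (Φ.ell k hk) (by nlinarith [sq_nonneg (Φ.β k)])

lemma norm_sy2_le (k : ℤ × ℤ) : ‖sy2 Φ k‖ ≤ 1 + 1 / Φ.m := by
  have hm := Φ.hm
  unfold sy2
  rw [norm_lin_aux]
  by_cases hk : k = 0
  · subst hk
    rw [sy0_zero_aux, norm_zero, mul_zero]
    positivity
  · rw [norm_sy0_aux Φ hk]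
    exact abs_div_le_aux hm (Φ.ell k hk) (by nlinarith [sq_nonneg (Φ.α k)])

lemma abs_abs_div_le_aux {a b q : ℝ} (hq : 0 < q) (h : |a| * |b| ≤ q) :
    |a| * (|b| * (1 / q)) ≤ 1 := by
  rw [← mul_assoc, mul_one_div, div_le_one hq]
  exact h

lemma norm_sy11_le (k : ℤ × ℤ) : ‖sy11 Φ k‖ ≤ 1 := by
  unfold sy11 sy1
  rw [norm_lin_aux, norm_lin_aux]
  by_cases hk : k = 0
  · subst hk
    rw [sy0_zero_aux, norm_zero, mul_zero, mul_zero]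
    exact zero_le_one
  · rw [norm_sy0_aux Φ hk]
    refine abs_abs_div_le_aux (qpos_aux Φ hk) ?_
    have h2 : |Φ.α k| ^ 2 = Φ.α k ^ 2 := sq_abs _
    nlinarith [sq_nonneg (Φ.β k)]

lemma norm_sy12_le (k : ℤ × ℤ) : ‖sy12 Φ k‖ ≤ 1 := by
  unfold sy12 sy1
  rw [norm_lin_aux, norm_lin_aux]
  by_cases hk : k = 0
  · subst hk
    rw [sy0_zero_aux, norm_zero, mul_zero, mul_zero]
    exact zero_le_one
  · rw [norm_sy0_aux Φ hk]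
    refine abs_abs_div_le_aux (qpos_aux Φ hk) ?_
    have h2 : |Φ.α k| ^ 2 = Φ.α k ^ 2 := sq_abs _
    have h3 : |Φ.β k| ^ 2 = Φ.β k ^ 2 := sq_abs _
    nlinarith [sq_nonneg (|Φ.β k| - |Φ.α k|), sq_nonneg (|Φ.β k| + |Φ.α k|)]

lemma norm_sy22_le (k : ℤ × ℤ) : ‖sy22 Φ k‖ ≤ 1 := by
  unfold sy22 sy2
  rw [norm_lin_aux, norm_lin_aux]
  by_cases hk : k = 0
  · subst hk
    rw [sy0_zero_aux, norm_zero, mul_zero, mul_zero]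
    exact zero_le_one
  · rw [norm_sy0_aux Φ hk]
    refine abs_abs_div_le_aux (qpos_aux Φ hk) ?_
    have h3 : |Φ.β k| ^ 2 = Φ.β k ^ 2 := sq_abs _
    nlinarith [sq_nonneg (Φ.α k)]

lemma norm_syP_le (k : ℤ × ℤ) : ‖syP k‖ ≤ 1 := by
  unfold syP
  split_ifs <;> simp

noncomputable def M0 : AA →L[ℝ] AA := mult (sy0 Φ) _ (norm_sy0_le Φ)
noncomputable def M1 : AA →L[ℝ] AA := mult (sy1 Φ) _ (norm_sy1_le Φ)
noncomputable def M2 : AA →L[ℝ] AA := mult (sy2 Φ) _ (norm_sy2_le Φ)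
noncomputable def M11 : AA →L[ℝ] AA := mult (sy11 Φ) _ (norm_sy11_le Φ)
noncomputable def M12 : AA →L[ℝ] AA := mult (sy12 Φ) _ (norm_sy12_le Φ)
noncomputable def M22 : AA →L[ℝ] AA := mult (sy22 Φ) _ (norm_sy22_le Φ)
noncomputable def P0 : AA →L[ℝ] AA := mult syP _ norm_syP_le

lemma conj_sy0_aux (k : ℤ × ℤ) : (starRingEnd ℂ) (sy0 Φ (-k)) = sy0 Φ k := by
  unfold sy0
  by_cases hk : k = 0
  · subst hk
    simp
  · have hk' : -k ≠ 0 := by simpa using hk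
    rw [if_neg hk, if_neg hk', map_div₀, Complex.conj_ofReal, map_neg, map_one, map_neg, map_neg,
      neg_sq, neg_sq]

lemma conj_lin_aux (A : ℤ × ℤ →+ ℝ) (c : ℤ × ℤ → ℂ)
    (hc : ∀ k, (starRingEnd ℂ) (c (-k)) = c k) (k : ℤ × ℤ) :
    (starRingEnd ℂ) (I * (A (-k) : ℂ) * c (-k)) = I * (A k : ℂ) * c k := by
  rw [map_mul, map_mul, Complex.conj_I, Complex.conj_ofReal, hc k, map_neg]
  push_cast
  ring

lemma conj_sy1_aux (k : ℤ × ℤ) : (starRingEnd ℂ) (sy1 Φ (-k)) = sy1 Φ k :=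
  conj_lin_aux Φ.α (sy0 Φ) (conj_sy0_aux Φ) k

lemma conj_sy2_aux (k : ℤ × ℤ) : (starRingEnd ℂ) (sy2 Φ (-k)) = sy2 Φ k :=
  conj_lin_aux Φ.β (sy0 Φ) (conj_sy0_aux Φ) k

lemma cj_M0 (f : AA) : cj (M0 Φ f) = M0 Φ (cj f) :=
  cj_mult _ _ _ (conj_sy0_aux Φ) f

lemma cj_M1 (f : AA) : cj (M1 Φ f) = M1 Φ (cj f) :=
  cj_mult _ _ _ (conj_sy1_aux Φ) f

lemma cj_M2 (f : AA) : cj (M2 Φ f) = M2 Φ (cj f) :=
  cj_mult _ _ _ (conj_sy2_aux Φ) f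

lemma cj_M11 (f : AA) : cj (M11 Φ f) = M11 Φ (cj f) :=
  cj_mult _ _ _ (conj_lin_aux Φ.α (sy1 Φ) (conj_sy1_aux Φ)) f

lemma cj_M12 (f : AA) : cj (M12 Φ f) = M12 Φ (cj f) :=
  cj_mult _ _ _ (conj_lin_aux Φ.β (sy1 Φ) (conj_sy1_aux Φ)) f

lemma cj_M22 (f : AA) : cj (M22 Φ f) = M22 Φ (cj f) :=
  cj_mult _ _ _ (conj_lin_aux Φ.β (sy2 Φ) (conj_sy2_aux Φ)) f

lemma cj_P0 (f : AA) : cj (P0 f) = P0 (cj f) := by
  refine cj_mult _ _ _ (fun k => ?_) f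
  unfold syP
  by_cases hk : k = 0
  · subst hk
    simp
  · have hk' : -k ≠ 0 := by simpa using hk
    rw [if_neg hk, if_neg hk', map_one]

lemma M11_add_M22 (f : AA) : M11 Φ f + M22 Φ f = P0 f := by
  ext k
  rw [lp.coeFn_add, Pi.add_apply]
  unfold M11 M22 P0
  rw [mult_apply, mult_apply, mult_apply]
  unfold sy11 sy22 sy1 sy2 syP sy0
  by_cases hk : k = 0
  · rw [if_pos hk, if_pos hk]
    ring
  · rw [if_neg hk, if_neg hk]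
    have hq : ((Φ.α k ^ 2 + Φ.β k ^ 2 : ℝ) : ℂ) ≠ 0 := by
      exact_mod_cast (qpos_aux Φ hk).ne'
    have hI : I * I = -1 := Complex.I_mul_I
    have e : I * (Φ.α k : ℂ) * (I * (Φ.α k : ℂ) * (-1 / ((Φ.α k ^ 2 + Φ.β k ^ 2 : ℝ) : ℂ)))
        + I * (Φ.β k : ℂ) * (I * (Φ.β k : ℂ) * (-1 / ((Φ.α k ^ 2 + Φ.β k ^ 2 : ℝ) : ℂ))) = 1 := by
      have e1 : I * (Φ.α k : ℂ) * (I * (Φ.α k : ℂ) * (-1 / ((Φ.α k ^ 2 + Φ.β k ^ 2 : ℝ) : ℂ)))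
        + I * (Φ.β k : ℂ) * (I * (Φ.β k : ℂ) * (-1 / ((Φ.α k ^ 2 + Φ.β k ^ 2 : ℝ) : ℂ)))
          = -(I * I) * (((Φ.α k ^ 2 + Φ.β k ^ 2 : ℝ) : ℂ) / ((Φ.α k ^ 2 + Φ.β k ^ 2 : ℝ) : ℂ)) := by
        push_cast
        ring
      rw [e1, hI, div_self hq]
      ring
    rw [← add_mul, e]

lemma P0_P0 (f : AA) : P0 (P0 f) = P0 f := by
  ext k
  unfold P0
  rw [mult_apply, mult_apply]
  unfold syP
  split_ifs <;> ring

variable (w : Wt)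

lemma rv_P0 (b : AA) (z : ℝ × ℝ) : rv Φ w (P0 b) z = rv Φ w b z - (coef w b 0).re := by
  unfold rv evr evs P0
  rw [coef_mult]
  have hs : Summable fun k => coef w b k * chr Φ k z := (RD_coef w b).summable_chr z
  have h1 := hs.tsum_eq_add_tsum_ite 0
  have h2 : (∑' k, syP k * coef w b k * chr Φ k z)
      = ∑' k, ite (k = 0) 0 (coef w b k * chr Φ k z) := by
    refine tsum_congr (fun k => ?_)
    unfold syP
    split_ifs <;> ring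
  rw [h2, h1, chr_zero, mul_one, Complex.add_re]
  ring

lemma dX_rv_aux (b : AA) (z : ℝ × ℝ) : dX (rv Φ w b) z = evr Φ (Da Φ (coef w b)) z :=
  dX_evr (RD_coef w b) z

lemma dY_rv_aux (b : AA) (z : ℝ × ℝ) : dY (rv Φ w b) z = evr Φ (Db Φ (coef w b)) z :=
  dY_evr (RD_coef w b) z

lemma dX_rv_M0 (f : AA) (z : ℝ × ℝ) : dX (rv Φ w (M0 Φ f)) z = rv Φ w (M1 Φ f) z := by
  rw [dX_rv_aux]
  unfold rv M0 M1
  rw [coef_mult, coef_mult]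
  congr 1
  funext k
  unfold Da sy1
  ring

lemma dY_rv_M0 (f : AA) (z : ℝ × ℝ) : dY (rv Φ w (M0 Φ f)) z = rv Φ w (M2 Φ f) z := by
  rw [dY_rv_aux]
  unfold rv M0 M2
  rw [coef_mult, coef_mult]
  congr 1
  funext k
  unfold Db sy2
  ring

lemma dX_rv_M1 (f : AA) (z : ℝ × ℝ) : dX (rv Φ w (M1 Φ f)) z = rv Φ w (M11 Φ f) z := by
  rw [dX_rv_aux]
  unfold rv M1 M11
  rw [coef_mult, coef_mult]
  congr 1
  funext k
  unfold Da sy11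
  ring

lemma dY_rv_M1 (f : AA) (z : ℝ × ℝ) : dY (rv Φ w (M1 Φ f)) z = rv Φ w (M12 Φ f) z := by
  rw [dY_rv_aux]
  unfold rv M1 M12
  rw [coef_mult, coef_mult]
  congr 1
  funext k
  unfold Db sy12
  ring

lemma dY_rv_M2 (f : AA) (z : ℝ × ℝ) : dY (rv Φ w (M2 Φ f)) z = rv Φ w (M22 Φ f) z := by
  rw [dY_rv_aux]
  unfold rv M2 M22
  rw [coef_mult, coef_mult]
  congr 1
  funext k
  unfold Db sy22
  ring

end Vale.Agent.P205T
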