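import Vale.Agent.P205T.Mult

/-! # P205T : the nonlinear map of the fixed point equation -/

namespace Vale.Agent.P205T

/-- The data of `ρ`: elements of `AA` representing `ρ_x, ρ_y, ρ_xx, ρ_xy, ρ_yy`. -/
structure RhoData where
  R1 : AA
  R2 : AA
  R11 : AA
  R12 : AA
  R22 : AA

variable (Φ : Freq) (w : Wt) (D : RhoData) (f : AA)

/-- `q = 1 + ψ`, `ψ = Δ⁻¹ f`. -/
noncomputable def Qf : AA := oneA w + M0 Φ f

/-- `|∇ψ|²`. -/
noncomputable def Gf : AA := conv w (M1 Φ f) (M1 Φ f) + conv w (M2 Φ f) (M2 Φ f)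

/-- `τ₁ = q ρ_x + ψ_x`. -/
noncomputable def T1f : AA := conv w (Qf Φ w f) D.R1 + M1 Φ f

/-- `τ₂ = q ρ_y + ψ_y`. -/
noncomputable def T2f : AA := conv w (Qf Φ w f) D.R2 + M2 Φ f

/-- `B = q Δψ - |∇ψ|²`. -/
noncomputable def Bf : AA := conv w (Qf Φ w f) (M11 Φ f + M22 Φ f) - Gf Φ w f

/-- `q ∇ψ·∇ρ + |∇ψ|²`. -/
noncomputable def Trf : AA :=
  conv w (Qf Φ w f) (conv w (M1 Φ f) D.R1 + conv w (M2 Φ f) D.R2) + Gf Φ w f

noncomputable def H11f : AA :=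
  conv w (conv w (Qf Φ w f) (Qf Φ w f)) D.R11 + conv w (Qf Φ w f) (M11 Φ f) +
    conv w (M1 Φ f) (M1 Φ f) + (2 : ℝ) • conv w (Qf Φ w f) (conv w (M1 Φ f) D.R1) - Trf Φ w D f

noncomputable def H12f : AA :=
  conv w (conv w (Qf Φ w f) (Qf Φ w f)) D.R12 + conv w (Qf Φ w f) (M12 Φ f) +
    conv w (M1 Φ f) (M2 Φ f) +
    conv w (Qf Φ w f) (conv w (M1 Φ f) D.R2 + conv w (M2 Φ f) D.R1)

noncomputable def H22f : AA :=
  conv w (conv w (Qf Φ w f) (Qf Φ w f)) D.R22 + conv w (Qf Φ w f) (M22 Φ f) +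
    conv w (M2 Φ f) (M2 Φ f) + (2 : ℝ) • conv w (Qf Φ w f) (conv w (M2 Φ f) D.R2) - Trf Φ w D f

/-- The part of the nonlinearity which does not depend on `e`: `- ψ Δψ + |∇ψ|²`. -/
noncomputable def N0f : AA := -conv w (M0 Φ f) (M11 Φ f + M22 Φ f) + Gf Φ w f

/-- The coefficient of `e`: `B |τ|² + det Ĥ`. -/
noncomputable def N1f : AA :=
  conv w (Bf Φ w f) (conv w (T1f Φ w D f) (T1f Φ w D f) + conv w (T2f Φ w D f) (T2f Φ w D f)) +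
    (conv w (H11f Φ w D f) (H22f Φ w D f) - conv w (H12f Φ w D f) (H12f Φ w D f))

/-- The fixed point map: `f = Π₀ (N₀ f + e N₁ f)`. -/
noncomputable def NN (x : ℝ × AA) : AA := P0 (N0f Φ w x.2 + x.1 • N1f Φ w D x.2)

end Vale.Agent.P205T
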