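import Vale.Agent.P205T.NNsym

/-! # P205T : the real functions represented by the pieces of the nonlinearity (use `rv_add`, `rv_conv`, `rv_smul`, `dX_rv_M0`, ... and the `cj_` lemmas of NNsym) -/

namespace Vale.Agent.P205T

variable (Φ : Freq) (w : Wt) (D : RhoData)

lemma nnrv_dX0 (f : AA) : dX (rv Φ w (M0 Φ f)) = rv Φ w (M1 Φ f) := funext (dX_rv_M0 Φ w f)

lemma nnrv_dY0 (f : AA) : dY (rv Φ w (M0 Φ f)) = rv Φ w (M2 Φ f) := funext (dY_rv_M0 Φ w f)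

lemma nnrv_cj_conv {a b : AA} (ha : cj a = a) (hb : cj b = b) : cj (conv w a b) = conv w a b := by
  rw [cj_conv, ha, hb]

lemma nnrv_cj_add {a b : AA} (ha : cj a = a) (hb : cj b = b) : cj (a + b) = a + b := by
  rw [map_add, ha, hb]

section

variable {ρ : ℝ × ℝ → ℝ} {f : AA}
  (s1 : cj D.R1 = D.R1) (s2 : cj D.R2 = D.R2) (s11 : cj D.R11 = D.R11)
  (s12 : cj D.R12 = D.R12) (s22 : cj D.R22 = D.R22) (sf : cj f = f)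
  (r1 : ∀ z, dX ρ z = rv Φ w D.R1 z) (r2 : ∀ z, dY ρ z = rv Φ w D.R2 z)
  (r11 : ∀ z, dX (dX ρ) z = rv Φ w D.R11 z) (r12 : ∀ z, dY (dX ρ) z = rv Φ w D.R12 z)
  (r22 : ∀ z, dY (dY ρ) z = rv Φ w D.R22 z)

lemma rv_Qf (z : ℝ × ℝ) : rv Φ w (Qf Φ w f) z = qq (rv Φ w (M0 Φ f)) z := by
  unfold Qf qq
  rw [rv_add, rv_oneA]

include sf in
lemma rv_Gf (z : ℝ × ℝ) : rv Φ w (Gf Φ w f) z =
    dX (rv Φ w (M0 Φ f)) z ^ 2 + dY (rv Φ w (M0 Φ f)) z ^ 2 := by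
  have h1 : cj (M1 Φ f) = M1 Φ f := by rw [cj_M1, sf]
  have h2 : cj (M2 Φ f) = M2 Φ f := by rw [cj_M2, sf]
  unfold Gf
  rw [rv_add, rv_conv Φ w h1 h1, rv_conv Φ w h2 h2, dX_rv_M0, dY_rv_M0]
  ring

include sf s1 r1 in
lemma rv_T1f (z : ℝ × ℝ) : rv Φ w (T1f Φ w D f) z = ta1 ρ (rv Φ w (M0 Φ f)) z := by
  have hQ : cj (Qf Φ w f) = Qf Φ w f := cj_Qf Φ w sf
  unfold T1f ta1
  rw [rv_add, rv_conv Φ w hQ s1, rv_Qf, r1, dX_rv_M0]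

include sf s2 r2 in
lemma rv_T2f (z : ℝ × ℝ) : rv Φ w (T2f Φ w D f) z = ta2 ρ (rv Φ w (M0 Φ f)) z := by
  have hQ : cj (Qf Φ w f) = Qf Φ w f := cj_Qf Φ w sf
  unfold T2f ta2
  rw [rv_add, rv_conv Φ w hQ s2, rv_Qf, r2, dY_rv_M0]

include sf in
lemma rv_Bf (z : ℝ × ℝ) : rv Φ w (Bf Φ w f) z = bB (rv Φ w (M0 Φ f)) z := by
  have hQ : cj (Qf Φ w f) = Qf Φ w f := cj_Qf Φ w sf
  have h11 : cj (M11 Φ f) = M11 Φ f := by rw [cj_M11, sf]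
  have h22 : cj (M22 Φ f) = M22 Φ f := by rw [cj_M22, sf]
  unfold Bf bB
  rw [rv_sub, rv_conv Φ w hQ (nnrv_cj_add h11 h22), rv_add, rv_Gf Φ w sf, rv_Qf,
    nnrv_dX0, nnrv_dY0, dX_rv_M1, dY_rv_M2]

include sf s1 s2 r1 r2 in
lemma rv_Trf (z : ℝ × ℝ) : rv Φ w (Trf Φ w D f) z = trT ρ (rv Φ w (M0 Φ f)) z := by
  have hQ : cj (Qf Φ w f) = Qf Φ w f := cj_Qf Φ w sf
  have h1 : cj (M1 Φ f) = M1 Φ f := by rw [cj_M1, sf]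
  have h2 : cj (M2 Φ f) = M2 Φ f := by rw [cj_M2, sf]
  unfold Trf trT
  rw [rv_add, rv_conv Φ w hQ (nnrv_cj_add (nnrv_cj_conv w h1 s1) (nnrv_cj_conv w h2 s2)),
    rv_add, rv_conv Φ w h1 s1, rv_conv Φ w h2 s2, rv_Gf Φ w sf, rv_Qf, r1, r2,
    dX_rv_M0, dY_rv_M0]

include sf s1 s2 s11 r1 r2 r11 in
lemma rv_H11f (z : ℝ × ℝ) : rv Φ w (H11f Φ w D f) z = h11 ρ (rv Φ w (M0 Φ f)) z := by
  have hQ : cj (Qf Φ w f) = Qf Φ w f := cj_Qf Φ w sf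
  have h1 : cj (M1 Φ f) = M1 Φ f := by rw [cj_M1, sf]
  have hm : cj (M11 Φ f) = M11 Φ f := by rw [cj_M11, sf]
  unfold H11f h11
  rw [rv_sub, rv_add, rv_add, rv_add, rv_smul, rv_conv Φ w (nnrv_cj_conv w hQ hQ) s11,
    rv_conv Φ w hQ hQ, rv_conv Φ w hQ hm, rv_conv Φ w h1 h1,
    rv_conv Φ w hQ (nnrv_cj_conv w h1 s1), rv_conv Φ w h1 s1,
    rv_Trf Φ w D s1 s2 sf r1 r2, rv_Qf, r1, r11, nnrv_dX0, dX_rv_M1]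
  ring

include sf s1 s2 s12 r1 r2 r12 in
lemma rv_H12f (z : ℝ × ℝ) : rv Φ w (H12f Φ w D f) z = h12 ρ (rv Φ w (M0 Φ f)) z := by
  have hQ : cj (Qf Φ w f) = Qf Φ w f := cj_Qf Φ w sf
  have h1 : cj (M1 Φ f) = M1 Φ f := by rw [cj_M1, sf]
  have h2 : cj (M2 Φ f) = M2 Φ f := by rw [cj_M2, sf]
  have hm : cj (M12 Φ f) = M12 Φ f := by rw [cj_M12, sf]
  unfold H12f h12
  rw [rv_add, rv_add, rv_add, rv_conv Φ w (nnrv_cj_conv w hQ hQ) s12,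
    rv_conv Φ w hQ hQ, rv_conv Φ w hQ hm, rv_conv Φ w h1 h2,
    rv_conv Φ w hQ (nnrv_cj_add (nnrv_cj_conv w h1 s2) (nnrv_cj_conv w h2 s1)), rv_add,
    rv_conv Φ w h1 s2, rv_conv Φ w h2 s1, rv_Qf, r1, r2, r12, nnrv_dX0, nnrv_dY0, dY_rv_M1]
  ring

include sf s1 s2 s22 r1 r2 r22 in
lemma rv_H22f (z : ℝ × ℝ) : rv Φ w (H22f Φ w D f) z = h22 ρ (rv Φ w (M0 Φ f)) z := by
  have hQ : cj (Qf Φ w f) = Qf Φ w f := cj_Qf Φ w sf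
  have h2 : cj (M2 Φ f) = M2 Φ f := by rw [cj_M2, sf]
  have hm : cj (M22 Φ f) = M22 Φ f := by rw [cj_M22, sf]
  unfold H22f h22
  rw [rv_sub, rv_add, rv_add, rv_add, rv_smul, rv_conv Φ w (nnrv_cj_conv w hQ hQ) s22,
    rv_conv Φ w hQ hQ, rv_conv Φ w hQ hm, rv_conv Φ w h2 h2,
    rv_conv Φ w hQ (nnrv_cj_conv w h2 s2), rv_conv Φ w h2 s2,
    rv_Trf Φ w D s1 s2 sf r1 r2, rv_Qf, r2, r22, nnrv_dY0, dY_rv_M2]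
  ring

end

end Vale.Agent.P205T
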