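import Vale.Agent.P205T.NNdef

/-! # P205T : `cj`-symmetry of the pieces of the nonlinearity (use `map_add`, `map_sub`, `map_smul`, `cj_conv`, `cj_M0`, ..., `cj_oneA`) -/

namespace Vale.Agent.P205T

variable (Φ : Freq) (w : Wt) (D : RhoData)

section

variable {ρ : ℝ × ℝ → ℝ} {f : AA}
  (s1 : cj D.R1 = D.R1) (s2 : cj D.R2 = D.R2) (s11 : cj D.R11 = D.R11)
  (s12 : cj D.R12 = D.R12) (s22 : cj D.R22 = D.R22) (sf : cj f = f)
  (r1 : ∀ z, dX ρ z = rv Φ w D.R1 z) (r2 : ∀ z, dY ρ z = rv Φ w D.R2 z)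
  (r11 : ∀ z, dX (dX ρ) z = rv Φ w D.R11 z) (r12 : ∀ z, dY (dX ρ) z = rv Φ w D.R12 z)
  (r22 : ∀ z, dY (dY ρ) z = rv Φ w D.R22 z)

include sf in
lemma cj_Qf : cj (Qf Φ w f) = Qf Φ w f := by
  simp only [Qf, map_add, cj_oneA, cj_M0, sf]

include sf in
lemma cj_Gf : cj (Gf Φ w f) = Gf Φ w f := by
  simp only [Gf, map_add, cj_conv, cj_M1, cj_M2, sf]

include sf s1 in
lemma cj_T1f : cj (T1f Φ w D f) = T1f Φ w D f := by
  simp only [T1f, map_add, cj_conv, cj_M1, cj_Qf Φ w sf, s1, sf]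

include sf s2 in
lemma cj_T2f : cj (T2f Φ w D f) = T2f Φ w D f := by
  simp only [T2f, map_add, cj_conv, cj_M2, cj_Qf Φ w sf, s2, sf]

include sf in
lemma cj_Bf : cj (Bf Φ w f) = Bf Φ w f := by
  simp only [Bf, map_add, map_sub, cj_conv, cj_M11, cj_M22, cj_Qf Φ w sf, cj_Gf Φ w sf, sf]

include sf s1 s2 in
lemma cj_Trf : cj (Trf Φ w D f) = Trf Φ w D f := by
  simp only [Trf, map_add, cj_conv, cj_M1, cj_M2, cj_Qf Φ w sf, cj_Gf Φ w sf, s1, s2, sf]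

include sf s1 s2 s11 in
lemma cj_H11f : cj (H11f Φ w D f) = H11f Φ w D f := by
  simp only [H11f, map_add, map_sub, map_smul, cj_conv, cj_M1, cj_M11, cj_Qf Φ w sf,
    cj_Trf Φ w D s1 s2 sf, s1, s11, sf]

include sf s1 s2 s12 in
lemma cj_H12f : cj (H12f Φ w D f) = H12f Φ w D f := by
  simp only [H12f, map_add, cj_conv, cj_M1, cj_M2, cj_M12, cj_Qf Φ w sf, s1, s2, s12, sf]

include sf s1 s2 s22 in
lemma cj_H22f : cj (H22f Φ w D f) = H22f Φ w D f := by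
  simp only [H22f, map_add, map_sub, map_smul, cj_conv, cj_M2, cj_M22, cj_Qf Φ w sf,
    cj_Trf Φ w D s1 s2 sf, s2, s22, sf]

end

end Vale.Agent.P205T
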