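import Vale.Agent.P205T.FamilyDef
import Vale.Agent.P205T.CurlBase

/-! # P205T : joint continuity in `(e, z)` of the jet functions, `e ∈ [0, δ]` -/

namespace Vale.Agent.P205T

open scoped ContDiff
open Set

variable {ω₁ ω₂ : ℝ × ℝ} {ρ : ℝ × ℝ → ℝ} (F : Family ω₁ ω₂ ρ) (hρ : ContDiff ℝ ∞ ρ)

/- All functions below are quotients / square roots of continuous functions with nonvanishing
denominators (`Family.qpos`, `sS_pos` with `Family.slt`).  The parameter space is the subtype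
`Icc 0 F.δ`.  Unfold the definitions; `Continuous.div`, `Continuous.sqrt`; the continuity of the jets of
`ψ` is in the structure `Family` (compose with `Continuous.prodMap continuous_subtype_val continuous_id`),
the jets of `ρ` are continuous by `contDiff_dX`, `contDiff_dY`. -/

private lemma jm : Continuous fun p : Icc (0 : ℝ) F.δ × (ℝ × ℝ) => (((p.1 : ℝ)), p.2) :=
  (continuous_subtype_val.comp continuous_fst).prodMk continuous_snd

private lemma ce : Continuous fun p : Icc (0 : ℝ) F.δ × (ℝ × ℝ) => ((p.1 : ℝ)) :=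
  continuous_subtype_val.comp continuous_fst

private lemma k0 : Continuous fun p : Icc (0 : ℝ) F.δ × (ℝ × ℝ) => F.ψ p.1 p.2 :=
  F.c0.comp (jm F)

private lemma k1 : Continuous fun p : Icc (0 : ℝ) F.δ × (ℝ × ℝ) => dX (F.ψ p.1) p.2 :=
  F.c1.comp (jm F)

private lemma k2 : Continuous fun p : Icc (0 : ℝ) F.δ × (ℝ × ℝ) => dY (F.ψ p.1) p.2 :=
  F.c2.comp (jm F)

private lemma k11 : Continuous fun p : Icc (0 : ℝ) F.δ × (ℝ × ℝ) => dX (dX (F.ψ p.1)) p.2 :=
  F.c11.comp (jm F)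

private lemma k12 : Continuous fun p : Icc (0 : ℝ) F.δ × (ℝ × ℝ) => dY (dX (F.ψ p.1)) p.2 :=
  F.c12.comp (jm F)

private lemma k22 : Continuous fun p : Icc (0 : ℝ) F.δ × (ℝ × ℝ) => dY (dY (F.ψ p.1)) p.2 :=
  F.c22.comp (jm F)

include hρ in
private lemma r1 : Continuous fun p : Icc (0 : ℝ) F.δ × (ℝ × ℝ) => dX ρ p.2 :=
  (contDiff_dX hρ).continuous.comp continuous_snd

include hρ in
private lemma r2 : Continuous fun p : Icc (0 : ℝ) F.δ × (ℝ × ℝ) => dY ρ p.2 :=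
  (contDiff_dY hρ).continuous.comp continuous_snd

include hρ in
private lemma r11 : Continuous fun p : Icc (0 : ℝ) F.δ × (ℝ × ℝ) => dX (dX ρ) p.2 :=
  (contDiff_dX (contDiff_dX hρ)).continuous.comp continuous_snd

include hρ in
private lemma r12 : Continuous fun p : Icc (0 : ℝ) F.δ × (ℝ × ℝ) => dY (dX ρ) p.2 :=
  (contDiff_dY (contDiff_dX hρ)).continuous.comp continuous_snd

include hρ in
private lemma r22 : Continuous fun p : Icc (0 : ℝ) F.δ × (ℝ × ℝ) => dY (dY ρ) p.2 :=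
  (contDiff_dY (contDiff_dY hρ)).continuous.comp continuous_snd

private lemma qne (p : Icc (0 : ℝ) F.δ × (ℝ × ℝ)) : qq (F.ψ p.1) p.2 ≠ 0 :=
  (F.qpos p.1 p.2).ne'

private lemma q2ne (p : Icc (0 : ℝ) F.δ × (ℝ × ℝ)) : qq (F.ψ p.1) p.2 ^ 2 ≠ 0 :=
  pow_ne_zero 2 (qne F p)

private lemma spos (p : Icc (0 : ℝ) F.δ × (ℝ × ℝ)) : 0 < sS p.1 ρ (F.ψ p.1) p.2 :=
  sS_pos (F.qpos p.1) (F.slt p.1.2) p.2

lemma cont_qq : Continuous fun p : Icc (0 : ℝ) F.δ × (ℝ × ℝ) => qq (F.ψ p.1) p.2 := by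
  unfold qq
  exact continuous_const.add (k0 F)

include hρ in
lemma cont_tP : Continuous fun p : Icc (0 : ℝ) F.δ × (ℝ × ℝ) => tP ρ (F.ψ p.1) p.2 := by
  unfold tP
  exact (r1 F hρ).add ((k1 F).div (cont_qq F) (qne F))

include hρ in
lemma cont_tR : Continuous fun p : Icc (0 : ℝ) F.δ × (ℝ × ℝ) => tR ρ (F.ψ p.1) p.2 := by
  unfold tR
  exact (r2 F hρ).add ((k2 F).div (cont_qq F) (qne F))

include hρ in
lemma cont_t11 : Continuous fun p : Icc (0 : ℝ) F.δ × (ℝ × ℝ) => t11 ρ (F.ψ p.1) p.2 := by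
  unfold t11
  exact ((r11 F hρ).add ((k11 F).div (cont_qq F) (qne F))).sub
    (((k1 F).pow 2).div ((cont_qq F).pow 2) (q2ne F))

include hρ in
lemma cont_t12 : Continuous fun p : Icc (0 : ℝ) F.δ × (ℝ × ℝ) => t12 ρ (F.ψ p.1) p.2 := by
  unfold t12
  exact ((r12 F hρ).add ((k12 F).div (cont_qq F) (qne F))).sub
    (((k1 F).mul (k2 F)).div ((cont_qq F).pow 2) (q2ne F))

include hρ in
lemma cont_t22 : Continuous fun p : Icc (0 : ℝ) F.δ × (ℝ × ℝ) => t22 ρ (F.ψ p.1) p.2 := by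
  unfold t22
  exact ((r22 F hρ).add ((k22 F).div (cont_qq F) (qne F))).sub
    (((k2 F).pow 2).div ((cont_qq F).pow 2) (q2ne F))

include hρ in
lemma cont_sS : Continuous fun p : Icc (0 : ℝ) F.δ × (ℝ × ℝ) => sS p.1 ρ (F.ψ p.1) p.2 := by
  unfold sS
  exact (continuous_const.sub (((ce F).mul ((cont_qq F).pow 2)).mul
    (((cont_tP F hρ).pow 2).add ((cont_tR F hρ).pow 2)))).sqrt

include hρ in
lemma cont_muF : Continuous fun p : Icc (0 : ℝ) F.δ × (ℝ × ℝ) => muF p.1 ρ (F.ψ p.1) p.2 := by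
  unfold muF
  refine (((ce F).mul ((cont_qq F).pow 2))).div
    ((cont_sS F hρ).mul (continuous_const.add (cont_sS F hρ))) ?_
  intro p
  have := spos (ρ := ρ) F p
  positivity

include hρ in
lemma cont_kaF : Continuous fun p : Icc (0 : ℝ) F.δ × (ℝ × ℝ) => kaF p.1 ρ (F.ψ p.1) p.2 := by
  unfold kaF
  refine ((ce F).mul (cont_qq F)).div (continuous_const.add (cont_sS F hρ)) ?_
  intro p
  have := spos (ρ := ρ) F p
  positivity

include hρ in
lemma cont_upX : Continuous fun p : Icc (0 : ℝ) F.δ × (ℝ × ℝ) => upX p.1 ρ (F.ψ p.1) p.2 := by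
  unfold upX
  refine ((k2 F).div ((cont_qq F).mul (cont_sS F hρ)) ?_).add
    ((cont_muF F hρ).mul (((cont_tP F hρ).mul (cont_t12 F hρ)).sub
      ((cont_tR F hρ).mul (cont_t11 F hρ))))
  intro p
  exact mul_ne_zero (qne F p) (spos (ρ := ρ) F p).ne'

include hρ in
lemma cont_upY : Continuous fun p : Icc (0 : ℝ) F.δ × (ℝ × ℝ) => upY p.1 ρ (F.ψ p.1) p.2 := by
  unfold upY
  refine ((k1 F).neg.div ((cont_qq F).mul (cont_sS F hρ)) ?_).add
    ((cont_muF F hρ).mul (((cont_tP F hρ).mul (cont_t22 F hρ)).sub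
      ((cont_tR F hρ).mul (cont_t12 F hρ))))
  intro p
  exact mul_ne_zero (qne F p) (spos (ρ := ρ) F p).ne'

include hρ in
lemma cont_eA : Continuous fun p : Icc (0 : ℝ) F.δ × (ℝ × ℝ) => eA p.1 ρ (F.ψ p.1) p.2 := by
  unfold eA
  exact (continuous_const.div (cont_qq F) (qne F)).sub
    ((cont_kaF F hρ).mul ((cont_tP F hρ).pow 2))

include hρ in
lemma cont_eB : Continuous fun p : Icc (0 : ℝ) F.δ × (ℝ × ℝ) => eB p.1 ρ (F.ψ p.1) p.2 := by
  unfold eB
  exact (((cont_kaF F hρ).mul (cont_tP F hρ)).mul (cont_tR F hρ)).neg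

include hρ in
lemma cont_eC : Continuous fun p : Icc (0 : ℝ) F.δ × (ℝ × ℝ) => eC p.1 ρ (F.ψ p.1) p.2 := by
  unfold eC
  exact (continuous_const.div (cont_qq F) (qne F)).sub
    ((cont_kaF F hρ).mul ((cont_tR F hρ).pow 2))

end Vale.Agent.P205T
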