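import Vale.Agent.P205T.SeriesA
import Vale.Agent.P205T.Basic

/-! # P205T : termwise differentiation and smoothness of rapidly convergent trigonometric series -/

namespace Vale.Agent.P205T

open scoped ContDiff

variable {Φ : Freq} {c : ℤ × ℤ → ℂ}

/-- the derivative of one term of the series -/
private noncomputable def trmD (Φ : Freq) (c : ℤ × ℤ → ℂ) (k : ℤ × ℤ) (z : ℝ × ℝ) :
    ℝ × ℝ →L[ℝ] ℂ :=
  (c k * (chr Φ k z * Complex.I)) • (Complex.ofRealCLM.comp (frm (Φ.α k) (Φ.β k)))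

private lemma trmD_apply (k : ℤ × ℤ) (z v : ℝ × ℝ) :
    trmD Φ c k z v = c k * (chr Φ k z * Complex.I) * ((Φ.α k * v.1 + Φ.β k * v.2 : ℝ) : ℂ) := by
  simp [trmD, frm_apply]

private lemma hasFDerivAt_trm (k : ℤ × ℤ) (z : ℝ × ℝ) :
    HasFDerivAt (fun w => c k * chr Φ k w) (trmD Φ c k z) z := by
  have h1 : HasFDerivAt (fun w : ℝ × ℝ => ((Φ.α k * w.1 + Φ.β k * w.2 : ℝ) : ℂ))
      (Complex.ofRealCLM.comp (frm (Φ.α k) (Φ.β k))) z := by
    have h0 : (fun w : ℝ × ℝ => ((Φ.α k * w.1 + Φ.β k * w.2 : ℝ) : ℂ))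
        = fun w => (Complex.ofRealCLM.comp (frm (Φ.α k) (Φ.β k))) w := by
      funext w
      simp [frm_apply]
    rw [h0]
    exact ContinuousLinearMap.hasFDerivAt _
  have h2 := (h1.const_mul Complex.I).cexp
  have h3 := h2.const_mul (c k)
  unfold chr
  refine h3.congr_fderiv (ContinuousLinearMap.ext fun v => ?_)
  simp [trmD, chr, frm_apply]
  ring

private lemma norm_trmD_le (k : ℤ × ℤ) (z : ℝ × ℝ) :
    ‖trmD Φ c k z‖ ≤ ‖c k‖ * (2 * Φ.C * nrm k) := by
  have hn : 0 ≤ nrm k := le_trans zero_le_one (one_le_nrm k)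
  have hC : 0 ≤ Φ.C * nrm k := le_trans (abs_nonneg _) (Φ.hα k)
  refine ContinuousLinearMap.opNorm_le_bound _ (mul_nonneg (norm_nonneg _) (by linarith)) ?_
  intro v
  rw [trmD_apply, norm_mul, norm_mul, norm_mul, norm_chr, Complex.norm_I, Complex.norm_real,
    Real.norm_eq_abs, one_mul, mul_one, mul_assoc]
  refine mul_le_mul_of_nonneg_left ?_ (norm_nonneg _)
  have h1 : |v.1| ≤ ‖v‖ := norm_fst_le v
  have h2 : |v.2| ≤ ‖v‖ := norm_snd_le v
  have hv : 0 ≤ ‖v‖ := norm_nonneg v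
  calc |Φ.α k * v.1 + Φ.β k * v.2| ≤ |Φ.α k| * |v.1| + |Φ.β k| * |v.2| := by
        rw [← abs_mul, ← abs_mul]
        exact abs_add_le _ _
    _ ≤ (Φ.C * nrm k) * ‖v‖ + (Φ.C * nrm k) * ‖v‖ :=
        add_le_add (mul_le_mul (Φ.hα k) h1 (abs_nonneg _) hC)
          (mul_le_mul (Φ.hβ k) h2 (abs_nonneg _) hC)
    _ = 2 * Φ.C * nrm k * ‖v‖ := by ring

private lemma summable_bound (hc : RD c) : Summable fun k => ‖c k‖ * (2 * Φ.C * nrm k) := by
  have h := (hc 1).mul_left (2 * Φ.C)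
  refine h.congr fun k => ?_
  rw [pow_one]
  ring

private lemma hasFDerivAt_evs (hc : RD c) (z : ℝ × ℝ) :
    HasFDerivAt (evs Φ c) (∑' k, trmD Φ c k z) z := by
  unfold evs
  exact hasFDerivAt_tsum (summable_bound hc) (fun k w => hasFDerivAt_trm k w)
    (fun k w => norm_trmD_le k w) (hc.summable_chr (0 : ℝ × ℝ)) z

private lemma tsum_trmD_apply (hc : RD c) (z v : ℝ × ℝ) :
    (∑' k, trmD Φ c k z) v = (v.1 : ℂ) * evs Φ (Da Φ c) z + (v.2 : ℂ) * evs Φ (Db Φ c) z := by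
  have hs : Summable fun k => trmD Φ c k z :=
    Summable.of_norm_bounded (summable_bound hc) (fun k => norm_trmD_le k z)
  have e1 : (∑' k, trmD Φ c k z) v = ∑' k, trmD Φ c k z v :=
    (ContinuousLinearMap.apply ℝ ℂ v).map_tsum hs
  rw [e1]
  unfold evs
  rw [← tsum_mul_left, ← tsum_mul_left,
    ← ((hc.Da.summable_chr z).mul_left _).tsum_add ((hc.Db.summable_chr z).mul_left _)]
  refine tsum_congr fun k => ?_
  rw [trmD_apply]
  unfold Da Db
  push_cast
  ring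

/-- Termwise differentiation (`hasFDerivAt_tsum` with the summable bound
`‖c k‖ * 2 * Φ.C * nrm k`), then take real parts. -/
theorem hasFDerivAt_evr (hc : RD c) (z : ℝ × ℝ) :
    HasFDerivAt (evr Φ c) (frm (evr Φ (Da Φ c) z) (evr Φ (Db Φ c) z)) z := by
  have h1 : HasFDerivAt (fun w => Complex.reCLM (evs Φ c w))
      (Complex.reCLM.comp (∑' k, trmD Φ c k z)) z :=
    Complex.reCLM.hasFDerivAt.comp z (hasFDerivAt_evs hc z)
  have h2 : (fun w => Complex.reCLM (evs Φ c w)) = evr Φ c := by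
    funext w
    rfl
  rw [h2] at h1
  refine h1.congr_fderiv (ContinuousLinearMap.ext fun v => ?_)
  rw [ContinuousLinearMap.comp_apply, tsum_trmD_apply hc, frm_apply]
  simp [evr]
  ring

lemma dX_evr (hc : RD c) (z : ℝ × ℝ) : dX (evr Φ c) z = evr Φ (Da Φ c) z :=
  dX_eq_of_hasFDerivAt (hasFDerivAt_evr hc z)

lemma dY_evr (hc : RD c) (z : ℝ × ℝ) : dY (evr Φ c) z = evr Φ (Db Φ c) z :=
  dY_eq_of_hasFDerivAt (hasFDerivAt_evr hc z)

private lemma contDiff_evr_nat (n : ℕ) : ∀ c : ℤ × ℤ → ℂ, RD c → ContDiff ℝ n (evr Φ c) := by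
  induction n with
  | zero =>
    intro c hc
    rw [Nat.cast_zero, contDiff_zero]
    exact continuous_iff_continuousAt.mpr fun z => (hasFDerivAt_evr hc z).continuousAt
  | succ n ih =>
    intro c hc
    rw [Nat.cast_succ, contDiff_succ_iff_hasFDerivAt]
    refine ⟨fun z => frm (evr Φ (Da Φ c) z) (evr Φ (Db Φ c) z), ?_, fun z => hasFDerivAt_evr hc z⟩
    unfold frm
    exact ((ih _ hc.Da).smul contDiff_const).add ((ih _ hc.Db).smul contDiff_const)

/-- Induction on the order: `∀ n : ℕ, ∀ c, RD c → ContDiff ℝ n (evr Φ c)` with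
`contDiff_succ_iff_fderiv` (or `contDiff_succ_iff_hasFDerivAt`) and `hasFDerivAt_evr`. -/
theorem contDiff_evr (hc : RD c) : ContDiff ℝ ∞ (evr Φ c) :=
  contDiff_infty.mpr fun n => contDiff_evr_nat n c hc

end Vale.Agent.P205T
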