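import Vale.Agent.P205T.SpaceC
import Vale.Agent.P205T.SeriesB

/-! # P205T : the real function `rv Φ w b` represented by `b : AA` -/

namespace Vale.Agent.P205T

open scoped ContDiff

/-- The real function represented by `b`. -/
noncomputable def rv (Φ : Freq) (w : Wt) (b : AA) (z : ℝ × ℝ) : ℝ := evr Φ (coef w b) z

variable (Φ : Freq) (w : Wt)

lemma rv_add (a b : AA) (z : ℝ × ℝ) : rv Φ w (a + b) z = rv Φ w a z + rv Φ w b z := by
  unfold rv evr evs
  rw [coef_add, ← Complex.add_re,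
    ← ((RD_coef w a).summable_chr z).tsum_add ((RD_coef w b).summable_chr z)]
  congr 1
  refine tsum_congr fun k => ?_
  ring

lemma rv_neg (a : AA) (z : ℝ × ℝ) : rv Φ w (-a) z = -rv Φ w a z := by
  unfold rv evr evs
  rw [coef_neg, ← Complex.neg_re, ← tsum_neg]
  congr 1
  refine tsum_congr fun k => ?_
  ring

lemma rv_sub (a b : AA) (z : ℝ × ℝ) : rv Φ w (a - b) z = rv Φ w a z - rv Φ w b z := by
  rw [sub_eq_add_neg, rv_add, rv_neg, sub_eq_add_neg]

lemma rv_smul (t : ℝ) (a : AA) (z : ℝ × ℝ) : rv Φ w (t • a) z = t * rv Φ w a z := by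
  unfold rv evr evs
  rw [coef_smul, ← Complex.re_ofReal_mul, ← tsum_mul_left]
  congr 1
  refine tsum_congr fun k => ?_
  ring

lemma rv_zero (z : ℝ × ℝ) : rv Φ w 0 z = 0 := by
  have h := rv_sub Φ w 0 0 z
  simpa using h

lemma rv_oneA (z : ℝ × ℝ) : rv Φ w (oneA w) z = 1 := by
  unfold rv evr evs
  rw [coef_oneA, tsum_eq_single 0]
  · simp [chr_zero]
  · intro k hk
    simp [hk]

lemma rv_conv {a b : AA} (ha : cj a = a) (hb : cj b = b) (z : ℝ × ℝ) :
    rv Φ w (conv w a b) z = rv Φ w a z * rv Φ w b z := by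
  unfold rv
  have h1 : evr Φ (coef w (conv w a b)) z = (evs Φ (coef w (conv w a b)) z).re := rfl
  rw [h1, evs_conv, evs_eq_evr (RD_coef w a) (herm_coef w ha) z,
    evs_eq_evr (RD_coef w b) (herm_coef w hb) z, ← Complex.ofReal_mul, Complex.ofReal_re]

lemma abs_rv_le (a : AA) (z : ℝ × ℝ) : |rv Φ w a z| ≤ ‖a‖ :=
  (Complex.abs_re_le_norm _).trans
    ((norm_evs_le (RD_coef w a) z).trans (tsum_norm_coef_le w a))

lemma contDiff_rv (a : AA) : ContDiff ℝ ∞ (rv Φ w a) := contDiff_evr (RD_coef w a)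

/-- Joint continuity (`continuous_prod_of_continuous_lipschitzWith`, or an `ε/2` argument:
`|rv a z - rv a' z'| ≤ ‖a - a'‖ + |rv a' z - rv a' z'|`). -/
theorem continuous_rv : Continuous fun p : AA × (ℝ × ℝ) => rv Φ w p.1 p.2 := by
  refine continuous_prod_of_continuous_lipschitzWith
    (fun p : AA × (ℝ × ℝ) => rv Φ w p.1 p.2) 1 (fun a => (contDiff_rv Φ w a).continuous)
    (fun z => LipschitzWith.of_dist_le_mul fun x y => ?_)
  rw [Real.dist_eq, ← rv_sub, dist_eq_norm, NNReal.coe_one, one_mul]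
  exact abs_rv_le Φ w (x - y) z

lemma rv_add_period {p : ℝ × ℝ}
    (h : ∀ k, ∃ n : ℤ, Φ.α k * p.1 + Φ.β k * p.2 = 2 * Real.pi * n) (a : AA) (z : ℝ × ℝ) :
    rv Φ w a (z + p) = rv Φ w a z := by
  unfold rv evr
  rw [evs_add_period h z]

end Vale.Agent.P205T
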