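import Vale.Agent.P205T.SeriesA

/-! # P205T : the Banach space `AA = ℓ¹(ℤ²)`; `b : AA` stands for the function with Fourier
coefficients `coef w b k = b k / W k` -/

namespace Vale.Agent.P205T

/-- `ℓ¹(ℤ × ℤ)`. -/
noncomputable abbrev AA := lp (fun _ : ℤ × ℤ => ℂ) 1

lemma AA.summable_norm (b : AA) : Summable fun k => ‖b k‖ := by
  have h := (memℓp_gen_iff (by simp : 0 < (1 : ENNReal).toReal)).1 (lp.memℓp b)
  simpa using h

lemma AA.norm_eq (b : AA) : ‖b‖ = ∑' k, ‖b k‖ := by
  have h := lp.norm_eq_tsum_rpow (by simp : 0 < (1 : ENNReal).toReal) b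
  simpa using h

/-- Constructor. -/
noncomputable def mkA (c : ℤ × ℤ → ℂ) (h : Summable fun k => ‖c k‖) : AA :=
  ⟨c, by
    have h1 : Memℓp c 1 := (memℓp_gen_iff (by simp : 0 < (1 : ENNReal).toReal)).2 (by simpa using h)
    exact h1⟩

@[simp] lemma mkA_apply (c : ℤ × ℤ → ℂ) (h : Summable fun k => ‖c k‖) (k : ℤ × ℤ) :
    mkA c h k = c k := rfl

/-- The Fourier coefficients of the function represented by `b`. -/
noncomputable def coef (w : Wt) (b : AA) (k : ℤ × ℤ) : ℂ := b k / (w.W k : ℂ)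

lemma Wt.pos (w : Wt) (k : ℤ × ℤ) : 0 < w.W k := lt_of_lt_of_le one_pos (w.one_le k)

lemma spaceA_norm_coef (w : Wt) (b : AA) (k : ℤ × ℤ) : ‖coef w b k‖ = ‖b k‖ / w.W k := by
  unfold coef
  rw [norm_div, Complex.norm_real, Real.norm_eq_abs, abs_of_pos (w.pos k)]

lemma RD_coef (w : Wt) (b : AA) : RD (coef w b) := by
  intro m
  obtain ⟨C, hC⟩ := w.superpoly m
  refine Summable.of_nonneg_of_le (fun k => ?_) (fun k => ?_) ((AA.summable_norm b).mul_right C)
  · have h1 : 0 ≤ nrm k := le_trans zero_le_one (one_le_nrm k)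
    positivity
  · rw [spaceA_norm_coef]
    have hW := w.pos k
    have h2 := hC k
    rw [div_mul_eq_mul_div, div_le_iff₀ hW]
    calc ‖b k‖ * nrm k ^ m ≤ ‖b k‖ * (C * w.W k) :=
          mul_le_mul_of_nonneg_left h2 (norm_nonneg _)
      _ = ‖b k‖ * C * w.W k := by ring

lemma norm_coef_le (w : Wt) (b : AA) (k : ℤ × ℤ) : ‖coef w b k‖ ≤ ‖b k‖ := by
  rw [spaceA_norm_coef]
  exact div_le_self (norm_nonneg _) (w.one_le k)

lemma tsum_norm_coef_le (w : Wt) (b : AA) : ∑' k, ‖coef w b k‖ ≤ ‖b‖ := by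
  rw [AA.norm_eq]
  refine Summable.tsum_le_tsum (fun k => norm_coef_le w b k) ?_ (AA.summable_norm b)
  exact Summable.of_nonneg_of_le (fun k => norm_nonneg _) (fun k => norm_coef_le w b k)
    (AA.summable_norm b)

/-- The element of `AA` with prescribed Fourier coefficients. -/
noncomputable def ofCoef (w : Wt) (c : ℤ × ℤ → ℂ) (h : Summable fun k => ‖c k‖ * w.W k) : AA :=
  mkA (fun k => c k * (w.W k : ℂ)) (by
    refine h.congr (fun k => ?_)
    rw [norm_mul, Complex.norm_real, Real.norm_eq_abs, abs_of_pos (w.pos k)])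

lemma coef_ofCoef (w : Wt) (c : ℤ × ℤ → ℂ) (h : Summable fun k => ‖c k‖ * w.W k) :
    coef w (ofCoef w c h) = c := by
  funext k
  have hW : (w.W k : ℂ) ≠ 0 := by
    exact_mod_cast (w.pos k).ne'
  unfold coef ofCoef
  rw [mkA_apply]
  field_simp

lemma coef_add (w : Wt) (a b : AA) : coef w (a + b) = fun k => coef w a k + coef w b k := by
  funext k
  unfold coef
  rw [lp.coeFn_add, Pi.add_apply, add_div]

lemma coef_sub (w : Wt) (a b : AA) : coef w (a - b) = fun k => coef w a k - coef w b k := by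
  funext k
  unfold coef
  rw [lp.coeFn_sub, Pi.sub_apply, sub_div]

lemma coef_neg (w : Wt) (a : AA) : coef w (-a) = fun k => -coef w a k := by
  funext k
  unfold coef
  rw [lp.coeFn_neg, Pi.neg_apply, neg_div]

lemma coef_smul (w : Wt) (t : ℝ) (a : AA) : coef w (t • a) = fun k => (t : ℂ) * coef w a k := by
  funext k
  unfold coef
  rw [lp.coeFn_smul, Pi.smul_apply, Complex.real_smul, mul_div_assoc]

/-- The constant function `1`. -/
noncomputable def oneA (w : Wt) : AA :=
  mkA (fun k => if k = 0 then (w.W 0 : ℂ) else 0) (by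
    refine summable_of_ne_finset_zero (s := {0}) (fun k hk => ?_)
    have hk0 : k ≠ 0 := by
      simpa using hk
    simp [hk0])

lemma coef_oneA (w : Wt) : coef w (oneA w) = fun k => if k = 0 then 1 else 0 := by
  funext k
  unfold coef oneA
  rw [mkA_apply]
  by_cases hk : k = 0
  · subst hk
    have hW : (w.W 0 : ℂ) ≠ 0 := by
      exact_mod_cast (w.pos 0).ne'
    simp [hW]
  · simp [hk]

end Vale.Agent.P205T
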