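import Vale.Agent.P205T.SpaceA

/-! # P205T : bounded Fourier multipliers and the conjugation on `AA` -/

namespace Vale.Agent.P205T

lemma summable_mult_aux (m : ℤ × ℤ → ℂ) (C : ℝ) (hm : ∀ k, ‖m k‖ ≤ C) (b : AA) :
    Summable fun k => ‖m k * b k‖ := by
  refine Summable.of_nonneg_of_le (fun k => norm_nonneg _) (fun k => ?_)
    ((AA.summable_norm b).mul_left C)
  rw [norm_mul]
  exact mul_le_mul_of_nonneg_right (hm k) (norm_nonneg _)

lemma norm_mult_aux (m : ℤ × ℤ → ℂ) (C : ℝ) (hm : ∀ k, ‖m k‖ ≤ C) (b : AA) :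
    ‖mkA (fun k => m k * b k) (summable_mult_aux m C hm b)‖ ≤ C * ‖b‖ := by
  rw [AA.norm_eq, AA.norm_eq, ← tsum_mul_left]
  refine Summable.tsum_le_tsum (fun k => ?_) (summable_mult_aux m C hm b)
    ((AA.summable_norm b).mul_left C)
  rw [mkA_apply, norm_mul]
  exact mul_le_mul_of_nonneg_right (hm k) (norm_nonneg _)

/-- The Fourier multiplier with bounded symbol `m` (build it with `LinearMap.mkContinuous`). -/
noncomputable def mult (m : ℤ × ℤ → ℂ) (C : ℝ) (hm : ∀ k, ‖m k‖ ≤ C) : AA →L[ℝ] AA :=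
  LinearMap.mkContinuous
    { toFun := fun b => mkA (fun k => m k * b k) (summable_mult_aux m C hm b)
      map_add' := fun a b => by
        ext k
        simp only [mkA_apply, lp.coeFn_add, Pi.add_apply]
        ring
      map_smul' := fun t b => by
        ext k
        simp only [mkA_apply, lp.coeFn_smul, Pi.smul_apply, RingHom.id_apply, Complex.real_smul]
        ring }
    C (fun b => norm_mult_aux m C hm b)

lemma mult_apply (m : ℤ × ℤ → ℂ) (C : ℝ) (hm : ∀ k, ‖m k‖ ≤ C) (b : AA) (k : ℤ × ℤ) :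
    mult m C hm b k = m k * b k := rfl

lemma norm_mult_le (m : ℤ × ℤ → ℂ) (C : ℝ) (hm : ∀ k, ‖m k‖ ≤ C) (b : AA) :
    ‖mult m C hm b‖ ≤ C * ‖b‖ := norm_mult_aux m C hm b

lemma coef_mult (w : Wt) (m : ℤ × ℤ → ℂ) (C : ℝ) (hm : ∀ k, ‖m k‖ ≤ C) (b : AA) :
    coef w (mult m C hm b) = fun k => m k * coef w b k := by
  funext k
  unfold coef
  rw [mult_apply, mul_div_assoc]

lemma summable_cj_aux (b : AA) :
    Summable fun k : ℤ × ℤ => ‖(starRingEnd ℂ) (b (-k))‖ := by
  have h := (Equiv.neg (ℤ × ℤ)).summable_iff.mpr (AA.summable_norm b)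
  refine h.congr (fun k => ?_)
  simp

lemma norm_cj_aux (b : AA) :
    ‖mkA (fun k => (starRingEnd ℂ) (b (-k))) (summable_cj_aux b)‖ = ‖b‖ := by
  rw [AA.norm_eq, AA.norm_eq, ← (Equiv.neg (ℤ × ℤ)).tsum_eq (fun k => ‖b k‖)]
  refine tsum_congr (fun k => ?_)
  simp

/-- Complex conjugation of the represented function: `(cj b) k = conj (b (-k))`. -/
noncomputable def cj : AA →L[ℝ] AA :=
  LinearMap.mkContinuous
    { toFun := fun b => mkA (fun k => (starRingEnd ℂ) (b (-k))) (summable_cj_aux b)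
      map_add' := fun a b => by
        ext k
        simp only [mkA_apply, lp.coeFn_add, Pi.add_apply, map_add]
      map_smul' := fun t b => by
        ext k
        simp only [mkA_apply, lp.coeFn_smul, Pi.smul_apply, RingHom.id_apply, Complex.real_smul,
          map_mul, Complex.conj_ofReal] }
    1 (fun b => by rw [one_mul]; exact le_of_eq (norm_cj_aux b))

lemma cj_apply (b : AA) (k : ℤ × ℤ) : cj b k = (starRingEnd ℂ) (b (-k)) := rfl

lemma norm_cj (b : AA) : ‖cj b‖ = ‖b‖ := norm_cj_aux b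

lemma cj_mult (m : ℤ × ℤ → ℂ) (C : ℝ) (hm : ∀ k, ‖m k‖ ≤ C)
    (hsym : ∀ k, (starRingEnd ℂ) (m (-k)) = m k) (b : AA) :
    cj (mult m C hm b) = mult m C hm (cj b) := by
  ext k
  rw [cj_apply, mult_apply, mult_apply, cj_apply, map_mul, hsym]

lemma herm_coef (w : Wt) {b : AA} (h : cj b = b) : Herm (coef w b) := by
  intro k
  have hk : b (-k) = (starRingEnd ℂ) (b k) := by
    have h1 : cj b (-k) = b (-k) := by rw [h]
    rw [cj_apply, neg_neg] at h1
    exact h1.symm
  unfold coef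
  rw [hk, w.even, map_div₀, Complex.conj_ofReal]

lemma ofCoef_applyB (w : Wt) (c : ℤ × ℤ → ℂ) (h : Summable fun k => ‖c k‖ * w.W k) (k : ℤ × ℤ) :
    ofCoef w c h k = c k * (w.W k : ℂ) := rfl

lemma cj_ofCoef (w : Wt) (c : ℤ × ℤ → ℂ) (h : Summable fun k => ‖c k‖ * w.W k) (hc : Herm c) :
    cj (ofCoef w c h) = ofCoef w c h := by
  ext k
  rw [cj_apply, ofCoef_applyB, ofCoef_applyB, map_mul, Complex.conj_ofReal, w.even, hc k,
    Complex.conj_conj]

lemma oneA_applyB (w : Wt) (k : ℤ × ℤ) :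
    oneA w k = if k = 0 then (w.W 0 : ℂ) else 0 := rfl

lemma cj_oneA (w : Wt) : cj (oneA w) = oneA w := by
  ext k
  rw [cj_apply, oneA_applyB, oneA_applyB]
  by_cases hk : k = 0
  · subst hk
    simp
  · have hk' : -k ≠ 0 := by simpa using hk
    rw [if_neg hk, if_neg hk', map_zero]

end Vale.Agent.P205T
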