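import Vale.Agent.P205T.SpaceB

/-! # P205T : the product on `AA` (twisted convolution) -/

namespace Vale.Agent.P205T

/-- The weight ratio. -/
private noncomputable def rat (w : Wt) (p : (ℤ × ℤ) × (ℤ × ℤ)) : ℝ :=
  w.W (p.1 + p.2) / (w.W p.1 * w.W p.2)

private lemma rat_nonneg (w : Wt) (p : (ℤ × ℤ) × (ℤ × ℤ)) : 0 ≤ rat w p :=
  div_nonneg (w.pos _).le (mul_pos (w.pos _) (w.pos _)).le

private lemma rat_le_one (w : Wt) (p : (ℤ × ℤ) × (ℤ × ℤ)) : rat w p ≤ 1 :=
  (div_le_one (mul_pos (w.pos _) (w.pos _))).2 (w.submul _ _)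

/-- The general term of the series defining the product. -/
private noncomputable def ctm (w : Wt) (a b : AA) (p : (ℤ × ℤ) × (ℤ × ℤ)) : AA :=
  lp.single 1 (p.1 + p.2) (a p.1 * b p.2 * (rat w p : ℂ))

private lemma norm_ctm_le (w : Wt) (a b : AA) (p : (ℤ × ℤ) × (ℤ × ℤ)) :
    ‖ctm w a b p‖ ≤ ‖a p.1‖ * ‖b p.2‖ := by
  unfold ctm
  rw [lp.norm_single (by norm_num), norm_mul, norm_mul, Complex.norm_real, Real.norm_eq_abs,
    abs_of_nonneg (rat_nonneg w p)]
  exact mul_le_of_le_one_right (by positivity) (rat_le_one w p)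

private lemma summable_prod_norm (a b : AA) :
    Summable fun p : (ℤ × ℤ) × (ℤ × ℤ) => ‖a p.1‖ * ‖b p.2‖ :=
  (AA.summable_norm a).mul_of_nonneg (AA.summable_norm b) (fun _ => norm_nonneg _)
    (fun _ => norm_nonneg _)

private lemma summable_norm_ctm (w : Wt) (a b : AA) : Summable fun p => ‖ctm w a b p‖ :=
  Summable.of_nonneg_of_le (fun _ => norm_nonneg _) (norm_ctm_le w a b) (summable_prod_norm a b)

private lemma summable_ctm (w : Wt) (a b : AA) : Summable (ctm w a b) :=
  (summable_norm_ctm w a b).of_norm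

private lemma norm_tsum_ctm_le (w : Wt) (a b : AA) : ‖∑' p, ctm w a b p‖ ≤ ‖a‖ * ‖b‖ := by
  refine (norm_tsum_le_tsum_norm (summable_norm_ctm w a b)).trans ?_
  refine ((summable_norm_ctm w a b).tsum_le_tsum (norm_ctm_le w a b)
    (summable_prod_norm a b)).trans ?_
  rw [AA.norm_eq a, AA.norm_eq b,
    (AA.summable_norm a).tsum_mul_tsum (AA.summable_norm b) (summable_prod_norm a b)]

private lemma ctm_add_left (w : Wt) (a a' b : AA) (p : (ℤ × ℤ) × (ℤ × ℤ)) :
    ctm w (a + a') b p = ctm w a b p + ctm w a' b p := by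
  unfold ctm
  rw [← lp.single_add]
  congr 1
  simp only [lp.coeFn_add, Pi.add_apply]
  ring

private lemma ctm_add_right (w : Wt) (a b b' : AA) (p : (ℤ × ℤ) × (ℤ × ℤ)) :
    ctm w a (b + b') p = ctm w a b p + ctm w a b' p := by
  unfold ctm
  rw [← lp.single_add]
  congr 1
  simp only [lp.coeFn_add, Pi.add_apply]
  ring

private lemma ctm_smul_left (w : Wt) (t : ℝ) (a b : AA) (p : (ℤ × ℤ) × (ℤ × ℤ)) :
    ctm w (t • a) b p = t • ctm w a b p := by
  unfold ctm
  rw [← lp.single_smul]
  congr 1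
  simp only [lp.coeFn_smul, Pi.smul_apply, Complex.real_smul]
  ring

private lemma ctm_smul_right (w : Wt) (t : ℝ) (a b : AA) (p : (ℤ × ℤ) × (ℤ × ℤ)) :
    ctm w a (t • b) p = t • ctm w a b p := by
  unfold ctm
  rw [← lp.single_smul]
  congr 1
  simp only [lp.coeFn_smul, Pi.smul_apply, Complex.real_smul]
  ring

/-- The product.  Suggested definition (no fibre sums needed):
`conv w a b = ∑' p : (ℤ × ℤ) × (ℤ × ℤ), lp.single 1 (p.1 + p.2)
   (a p.1 * b p.2 * (W (p.1 + p.2) / (W p.1 * W p.2)))`,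
an absolutely convergent series in `AA` (the norm of the term is at most `‖a p.1‖ * ‖b p.2‖`);
bilinearity from `tsum_add`, `tsum_const_smul`; bound `‖conv w a b‖ ≤ ‖a‖ * ‖b‖`;
bundle with `LinearMap.mkContinuous₂`. -/
noncomputable def conv (w : Wt) : AA →L[ℝ] AA →L[ℝ] AA :=
  LinearMap.mkContinuous₂
    (LinearMap.mk₂ ℝ (fun a b => ∑' p, ctm w a b p)
      (fun a a' b => by
        simp only [ctm_add_left]
        exact (summable_ctm w a b).tsum_add (summable_ctm w a' b))
      (fun t a b => by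
        simp only [ctm_smul_left]
        exact (summable_ctm w a b).tsum_const_smul t)
      (fun a b b' => by
        simp only [ctm_add_right]
        exact (summable_ctm w a b).tsum_add (summable_ctm w a b'))
      (fun t a b => by
        simp only [ctm_smul_right]
        exact (summable_ctm w a b).tsum_const_smul t))
    1 (fun a b => by
      rw [one_mul]
      exact norm_tsum_ctm_le w a b)

private lemma conv_eq (w : Wt) (a b : AA) : conv w a b = ∑' p, ctm w a b p := rfl

lemma norm_conv_le (w : Wt) (a b : AA) : ‖conv w a b‖ ≤ ‖a‖ * ‖b‖ := by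
  rw [conv_eq]
  exact norm_tsum_ctm_le w a b


private lemma summable_evterm (Φ : Freq) (w : Wt) (b : AA) (z : ℝ × ℝ) :
    Summable fun k => ‖coef w b k * chr Φ k z‖ := by
  refine Summable.of_nonneg_of_le (fun _ => norm_nonneg _) (fun k => ?_) (AA.summable_norm b)
  rw [norm_mul, norm_chr, mul_one]
  exact norm_coef_le w b k

/-- Evaluation at a point as a continuous linear functional. -/
private noncomputable def evL (Φ : Freq) (w : Wt) (z : ℝ × ℝ) : AA →L[ℝ] ℂ :=
  LinearMap.mkContinuous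
    { toFun := fun b => evs Φ (coef w b) z
      map_add' := fun a b => by
        unfold evs
        rw [coef_add]
        simp only [add_mul]
        exact (summable_evterm Φ w a z).of_norm.tsum_add (summable_evterm Φ w b z).of_norm
      map_smul' := fun t b => by
        unfold evs
        rw [coef_smul]
        simp only [mul_assoc, RingHom.id_apply, Complex.real_smul]
        exact tsum_mul_left }
    1 (fun b => by
      rw [one_mul]
      exact (norm_evs_le (RD_coef w b) z).trans (tsum_norm_coef_le w b))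

private lemma evL_apply (Φ : Freq) (w : Wt) (z : ℝ × ℝ) (b : AA) :
    evL Φ w z b = evs Φ (coef w b) z := rfl

private lemma evs_single (Φ : Freq) (w : Wt) (z : ℝ × ℝ) (k : ℤ × ℤ) (x : ℂ) :
    evs Φ (coef w (lp.single 1 k x)) z = x / (w.W k : ℂ) * chr Φ k z := by
  unfold evs
  rw [tsum_eq_single k]
  · unfold coef
    rw [lp.single_apply_self]
  · intro j hj
    unfold coef
    rw [lp.single_apply_ne _ _ _ hj]
    simp

/-- `conv` represents the pointwise product.  (For fixed `z` the map `b ↦ evs Φ (coef w b) z` is a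
continuous linear functional on `AA`, so it commutes with the `tsum`; then
`tsum_mul_tsum_of_summable_norm` and `chr_add`.) -/
theorem evs_conv (Φ : Freq) (w : Wt) (a b : AA) (z : ℝ × ℝ) :
    evs Φ (coef w (conv w a b)) z = evs Φ (coef w a) z * evs Φ (coef w b) z := by
  rw [← evL_apply, conv_eq, (evL Φ w z).map_tsum (summable_ctm w a b)]
  unfold evs
  rw [tsum_mul_tsum_of_summable_norm (summable_evterm Φ w a z) (summable_evterm Φ w b z)]
  refine tsum_congr fun p => ?_
  rw [evL_apply]
  unfold ctm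
  rw [evs_single, chr_add]
  unfold coef rat
  have h1 : (w.W p.1 : ℂ) ≠ 0 := by exact_mod_cast (w.pos p.1).ne'
  have h2 : (w.W p.2 : ℂ) ≠ 0 := by exact_mod_cast (w.pos p.2).ne'
  have h3 : (w.W (p.1 + p.2) : ℂ) ≠ 0 := by exact_mod_cast (w.pos (p.1 + p.2)).ne'
  push_cast
  field_simp

private lemma cj_single (k : ℤ × ℤ) (x : ℂ) :
    cj (lp.single 1 k x) = lp.single 1 (-k) ((starRingEnd ℂ) x) := by
  ext j
  rw [cj_apply]
  by_cases h : j = -k
  · subst h
    rw [neg_neg, lp.single_apply_self, lp.single_apply_self]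
  · rw [lp.single_apply_ne _ _ _ h, lp.single_apply_ne _ _ _ (fun h' => h (by rw [← h', neg_neg])),
      map_zero]

theorem cj_conv (w : Wt) (a b : AA) : cj (conv w a b) = conv w (cj a) (cj b) := by
  rw [conv_eq, conv_eq, cj.map_tsum (summable_ctm w a b),
    ← (Equiv.neg ((ℤ × ℤ) × (ℤ × ℤ))).tsum_eq (ctm w (cj a) (cj b))]
  refine tsum_congr fun p => ?_
  unfold ctm
  rw [cj_single]
  have e1 : ((Equiv.neg ((ℤ × ℤ) × (ℤ × ℤ))) p).1 = -p.1 := rfl
  have e2 : ((Equiv.neg ((ℤ × ℤ) × (ℤ × ℤ))) p).2 = -p.2 := rfl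
  have e3 : rat w ((Equiv.neg ((ℤ × ℤ) × (ℤ × ℤ))) p) = rat w p := by
    unfold rat
    rw [e1, e2, ← neg_add, w.even, w.even, w.even]
  rw [e3, e1, e2, cj_apply, cj_apply, neg_neg, neg_neg, ← neg_add, map_mul, map_mul,
    Complex.conj_ofReal]

end Vale.Agent.P205T
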