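import Vale.Agent.P205T.CurlBase

/-! # P205T : the structure equations (star star) and closedness of the rotated coframe -/

namespace Vale.Agent.P205T

open scoped ContDiff

variable {e : ℝ} {ρ ψ : ℝ × ℝ → ℝ}

lemma dX_kaF_aux (hρ : ContDiff ℝ ∞ ρ) (hψ : ContDiff ℝ ∞ ψ) (hq : ∀ z, 0 < qq ψ z)
    (hs : ∀ z, e * (ta1 ρ ψ z ^ 2 + ta2 ρ ψ z ^ 2) < 1) (z : ℝ × ℝ) :
    dX (kaF e ρ ψ) z =
      (e * dX ψ z * (1 + sS e ρ ψ z) - e * qq ψ z * dX (sS e ρ ψ) z) / (1 + sS e ρ ψ z) ^ 2 := by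
  have dq : DifferentiableAt ℝ (qq ψ) z := ((contDiff_qq hψ).differentiable (by simp)) z
  have ds : DifferentiableAt ℝ (sS e ρ ψ) z :=
    ((contDiff_sS hρ hψ hq hs).differentiable (by simp)) z
  have hsp := sS_pos hq hs z
  have h1 : DifferentiableAt ℝ (fun w => e * qq ψ w) z := dq.const_mul e
  have h2 : DifferentiableAt ℝ (fun w => 1 + sS e ρ ψ w) z := ds.const_add 1
  have h3 : dX (fun w => e * qq ψ w) z = e * dX ψ z := by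
    rw [dX_mul (differentiableAt_const e) dq, dX_const, dX_qq hψ]; ring
  have h4 : dX (fun w => 1 + sS e ρ ψ w) z = dX (sS e ρ ψ) z := by
    rw [dX_add (differentiableAt_const 1) ds, dX_const]; ring
  have h5 : kaF e ρ ψ = fun w => (fun w => e * qq ψ w) w / (fun w => 1 + sS e ρ ψ w) w := rfl
  rw [h5, dX_div h1 h2 (by positivity), h3, h4]

lemma dY_kaF_aux (hρ : ContDiff ℝ ∞ ρ) (hψ : ContDiff ℝ ∞ ψ) (hq : ∀ z, 0 < qq ψ z)
    (hs : ∀ z, e * (ta1 ρ ψ z ^ 2 + ta2 ρ ψ z ^ 2) < 1) (z : ℝ × ℝ) :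
    dY (kaF e ρ ψ) z =
      (e * dY ψ z * (1 + sS e ρ ψ z) - e * qq ψ z * dY (sS e ρ ψ) z) / (1 + sS e ρ ψ z) ^ 2 := by
  have dq : DifferentiableAt ℝ (qq ψ) z := ((contDiff_qq hψ).differentiable (by simp)) z
  have ds : DifferentiableAt ℝ (sS e ρ ψ) z :=
    ((contDiff_sS hρ hψ hq hs).differentiable (by simp)) z
  have hsp := sS_pos hq hs z
  have h1 : DifferentiableAt ℝ (fun w => e * qq ψ w) z := dq.const_mul e
  have h2 : DifferentiableAt ℝ (fun w => 1 + sS e ρ ψ w) z := ds.const_add 1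
  have h3 : dY (fun w => e * qq ψ w) z = e * dY ψ z := by
    rw [dY_mul (differentiableAt_const e) dq, dY_const, dY_qq hψ]; ring
  have h4 : dY (fun w => 1 + sS e ρ ψ w) z = dY (sS e ρ ψ) z := by
    rw [dY_add (differentiableAt_const 1) ds, dY_const]; ring
  have h5 : kaF e ρ ψ = fun w => (fun w => e * qq ψ w) w / (fun w => 1 + sS e ρ ψ w) w := rfl
  rw [h5, dY_div h1 h2 (by positivity), h3, h4]

lemma dY_eA_aux (hρ : ContDiff ℝ ∞ ρ) (hψ : ContDiff ℝ ∞ ψ) (hq : ∀ z, 0 < qq ψ z)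
    (hs : ∀ z, e * (ta1 ρ ψ z ^ 2 + ta2 ρ ψ z ^ 2) < 1) (z : ℝ × ℝ) :
    dY (eA e ρ ψ) z = -(dY ψ z) / qq ψ z ^ 2 -
      (dY (kaF e ρ ψ) z * tP ρ ψ z ^ 2 + kaF e ρ ψ z * (2 * tP ρ ψ z * t12 ρ ψ z)) := by
  have dq : DifferentiableAt ℝ (qq ψ) z := ((contDiff_qq hψ).differentiable (by simp)) z
  have dk : DifferentiableAt ℝ (kaF e ρ ψ) z :=
    ((contDiff_kaF hρ hψ hq hs).differentiable (by simp)) z
  have dP : DifferentiableAt ℝ (tP ρ ψ) z :=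
    ((contDiff_tP hρ hψ hq).differentiable (by simp)) z
  have hq0 : qq ψ z ≠ 0 := (hq z).ne'
  have h1 : DifferentiableAt ℝ (fun w => 1 / qq ψ w) z := by
    fun_prop (disch := assumption)
  have h2 : DifferentiableAt ℝ (fun w => tP ρ ψ w ^ 2) z := dP.pow 2
  have h3 : DifferentiableAt ℝ (fun w => kaF e ρ ψ w * tP ρ ψ w ^ 2) z := dk.mul h2
  have h5 : eA e ρ ψ = fun w => (fun w => 1 / qq ψ w) w -
      (fun w => kaF e ρ ψ w * tP ρ ψ w ^ 2) w := rfl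
  rw [h5, dY_sub h1 h3, dY_div (differentiableAt_const 1) dq hq0, dY_const, dY_qq hψ,
    dY_mul dk h2, dY_pow dP, dY_tP hρ hψ hq]
  simp only [Nat.cast_ofNat, Nat.add_one_sub_one, pow_one]
  ring

lemma dX_eC_aux (hρ : ContDiff ℝ ∞ ρ) (hψ : ContDiff ℝ ∞ ψ) (hq : ∀ z, 0 < qq ψ z)
    (hs : ∀ z, e * (ta1 ρ ψ z ^ 2 + ta2 ρ ψ z ^ 2) < 1) (z : ℝ × ℝ) :
    dX (eC e ρ ψ) z = -(dX ψ z) / qq ψ z ^ 2 -
      (dX (kaF e ρ ψ) z * tR ρ ψ z ^ 2 + kaF e ρ ψ z * (2 * tR ρ ψ z * t12 ρ ψ z)) := by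
  have dq : DifferentiableAt ℝ (qq ψ) z := ((contDiff_qq hψ).differentiable (by simp)) z
  have dk : DifferentiableAt ℝ (kaF e ρ ψ) z :=
    ((contDiff_kaF hρ hψ hq hs).differentiable (by simp)) z
  have dP : DifferentiableAt ℝ (tR ρ ψ) z :=
    ((contDiff_tR hρ hψ hq).differentiable (by simp)) z
  have hq0 : qq ψ z ≠ 0 := (hq z).ne'
  have h1 : DifferentiableAt ℝ (fun w => 1 / qq ψ w) z := by
    fun_prop (disch := assumption)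
  have h2 : DifferentiableAt ℝ (fun w => tR ρ ψ w ^ 2) z := dP.pow 2
  have h3 : DifferentiableAt ℝ (fun w => kaF e ρ ψ w * tR ρ ψ w ^ 2) z := dk.mul h2
  have h5 : eC e ρ ψ = fun w => (fun w => 1 / qq ψ w) w -
      (fun w => kaF e ρ ψ w * tR ρ ψ w ^ 2) w := rfl
  rw [h5, dX_sub h1 h3, dX_div (differentiableAt_const 1) dq hq0, dX_const, dX_qq hψ,
    dX_mul dk h2, dX_pow dP, dX_tR hρ hψ hq]
  simp only [Nat.cast_ofNat, Nat.add_one_sub_one, pow_one]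
  ring

lemma dX_eB_aux (hρ : ContDiff ℝ ∞ ρ) (hψ : ContDiff ℝ ∞ ψ) (hq : ∀ z, 0 < qq ψ z)
    (hs : ∀ z, e * (ta1 ρ ψ z ^ 2 + ta2 ρ ψ z ^ 2) < 1) (z : ℝ × ℝ) :
    dX (eB e ρ ψ) z = -(dX (kaF e ρ ψ) z * tP ρ ψ z * tR ρ ψ z +
      kaF e ρ ψ z * t11 ρ ψ z * tR ρ ψ z + kaF e ρ ψ z * tP ρ ψ z * t12 ρ ψ z) := by
  have dk : DifferentiableAt ℝ (kaF e ρ ψ) z :=
    ((contDiff_kaF hρ hψ hq hs).differentiable (by simp)) z
  have dP : DifferentiableAt ℝ (tP ρ ψ) z :=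
    ((contDiff_tP hρ hψ hq).differentiable (by simp)) z
  have dR : DifferentiableAt ℝ (tR ρ ψ) z :=
    ((contDiff_tR hρ hψ hq).differentiable (by simp)) z
  have h1 : DifferentiableAt ℝ (fun w => kaF e ρ ψ w * tP ρ ψ w) z := dk.mul dP
  have h5 : eB e ρ ψ = fun w => -((fun w => (fun w => kaF e ρ ψ w * tP ρ ψ w) w * tR ρ ψ w) w) :=
    rfl
  rw [h5, dX_neg, dX_mul h1 dR, dX_mul dk dP, dX_tP hρ hψ hq, dX_tR hρ hψ hq]
  ring

lemma dY_eB_aux (hρ : ContDiff ℝ ∞ ρ) (hψ : ContDiff ℝ ∞ ψ) (hq : ∀ z, 0 < qq ψ z)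
    (hs : ∀ z, e * (ta1 ρ ψ z ^ 2 + ta2 ρ ψ z ^ 2) < 1) (z : ℝ × ℝ) :
    dY (eB e ρ ψ) z = -(dY (kaF e ρ ψ) z * tP ρ ψ z * tR ρ ψ z +
      kaF e ρ ψ z * t12 ρ ψ z * tR ρ ψ z + kaF e ρ ψ z * tP ρ ψ z * t22 ρ ψ z) := by
  have dk : DifferentiableAt ℝ (kaF e ρ ψ) z :=
    ((contDiff_kaF hρ hψ hq hs).differentiable (by simp)) z
  have dP : DifferentiableAt ℝ (tP ρ ψ) z :=
    ((contDiff_tP hρ hψ hq).differentiable (by simp)) z
  have dR : DifferentiableAt ℝ (tR ρ ψ) z :=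
    ((contDiff_tR hρ hψ hq).differentiable (by simp)) z
  have h1 : DifferentiableAt ℝ (fun w => kaF e ρ ψ w * tP ρ ψ w) z := dk.mul dP
  have h5 : eB e ρ ψ = fun w => -((fun w => (fun w => kaF e ρ ψ w * tP ρ ψ w) w * tR ρ ψ w) w) :=
    rfl
  rw [h5, dY_neg, dY_mul h1 dR, dY_mul dk dP, dY_tP hρ hψ hq, dY_tR hρ hψ hq]
  ring

/-- The pointwise algebra behind `struct1`. -/
lemma struct_alg1 (e q s P R a b c u v : ℝ) (hq : 0 < q) (hs : 0 < s)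
    (h : s ^ 2 = 1 - e * q ^ 2 * (P ^ 2 + R ^ 2)) :
    (-v / q ^ 2 -
      ((e * v * (1 + s) - e * q * (-(e * q * (v * (P ^ 2 + R ^ 2) + q * (P * b + R * c))) / s))
          / (1 + s) ^ 2 * P ^ 2 + e * q / (1 + s) * (2 * P * b))) -
      -((e * u * (1 + s) - e * q * (-(e * q * (u * (P ^ 2 + R ^ 2) + q * (P * a + R * b))) / s))
          / (1 + s) ^ 2 * P * R + e * q / (1 + s) * a * R + e * q / (1 + s) * P * b) =
    (-u / (q * s) + e * q ^ 2 / (s * (1 + s)) * (P * c - R * b)) * -(e * q / (1 + s) * P * R) -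
      (v / (q * s) + e * q ^ 2 / (s * (1 + s)) * (P * b - R * a)) *
        (1 / q - e * q / (1 + s) * R ^ 2) := by
  have h1 : (1 + s) ≠ 0 := by positivity
  by_cases hN : P ^ 2 + R ^ 2 = 0
  · have hP : P = 0 := by nlinarith [sq_nonneg P, sq_nonneg R]
    have hR : R = 0 := by nlinarith [sq_nonneg P, sq_nonneg R]
    have hs1 : s = 1 := by
      rw [hN] at h
      nlinarith
    subst hP hR hs1
    field_simp
    ring
  · have he : e = (1 - s ^ 2) / (q ^ 2 * (P ^ 2 + R ^ 2)) := by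
      field_simp
      linarith
    rw [he]
    field_simp
    ring

theorem struct1 (hρ : ContDiff ℝ ∞ ρ) (hψ : ContDiff ℝ ∞ ψ) (hq : ∀ z, 0 < qq ψ z)
    (hs : ∀ z, e * (ta1 ρ ψ z ^ 2 + ta2 ρ ψ z ^ 2) < 1) (z : ℝ × ℝ) :
    dY (eA e ρ ψ) z - dX (eB e ρ ψ) z =
      upY e ρ ψ z * eB e ρ ψ z - upX e ρ ψ z * eC e ρ ψ z := by
  rw [dY_eA_aux hρ hψ hq hs, dX_eB_aux hρ hψ hq hs, dX_kaF_aux hρ hψ hq hs,
    dY_kaF_aux hρ hψ hq hs, dX_sS hρ hψ hq hs, dY_sS hρ hψ hq hs]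
  exact struct_alg1 e (qq ψ z) (sS e ρ ψ z) (tP ρ ψ z) (tR ρ ψ z) (t11 ρ ψ z) (t12 ρ ψ z)
    (t22 ρ ψ z) (dX ψ z) (dY ψ z) (hq z) (sS_pos hq hs z) (sS_sq hq hs z)

/-- The pointwise algebra behind `struct2`. -/
lemma struct_alg2 (e q s P R a b c u v : ℝ) (hq : 0 < q) (hs : 0 < s)
    (h : s ^ 2 = 1 - e * q ^ 2 * (P ^ 2 + R ^ 2)) :
    -((e * v * (1 + s) - e * q * (-(e * q * (v * (P ^ 2 + R ^ 2) + q * (P * b + R * c))) / s))
          / (1 + s) ^ 2 * P * R + e * q / (1 + s) * b * R + e * q / (1 + s) * P * c) -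
      (-u / q ^ 2 -
        ((e * u * (1 + s) - e * q * (-(e * q * (u * (P ^ 2 + R ^ 2) + q * (P * a + R * b))) / s))
          / (1 + s) ^ 2 * R ^ 2 + e * q / (1 + s) * (2 * R * b))) =
    -((-u / (q * s) + e * q ^ 2 / (s * (1 + s)) * (P * c - R * b)) *
        (1 / q - e * q / (1 + s) * P ^ 2) -
      (v / (q * s) + e * q ^ 2 / (s * (1 + s)) * (P * b - R * a)) *
        -(e * q / (1 + s) * P * R)) := by
  have h1 : (1 + s) ≠ 0 := by positivity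
  by_cases hN : P ^ 2 + R ^ 2 = 0
  · have hP : P = 0 := by nlinarith [sq_nonneg P, sq_nonneg R]
    have hR : R = 0 := by nlinarith [sq_nonneg P, sq_nonneg R]
    have hs1 : s = 1 := by
      rw [hN] at h
      nlinarith
    subst hP hR hs1
    field_simp
    ring
  · have he : e = (1 - s ^ 2) / (q ^ 2 * (P ^ 2 + R ^ 2)) := by
      field_simp
      linarith
    rw [he]
    field_simp
    ring

theorem struct2 (hρ : ContDiff ℝ ∞ ρ) (hψ : ContDiff ℝ ∞ ψ) (hq : ∀ z, 0 < qq ψ z)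
    (hs : ∀ z, e * (ta1 ρ ψ z ^ 2 + ta2 ρ ψ z ^ 2) < 1) (z : ℝ × ℝ) :
    dY (eB e ρ ψ) z - dX (eC e ρ ψ) z =
      -(upY e ρ ψ z * eA e ρ ψ z - upX e ρ ψ z * eB e ρ ψ z) := by
  rw [dY_eB_aux hρ hψ hq hs, dX_eC_aux hρ hψ hq hs, dX_kaF_aux hρ hψ hq hs,
    dY_kaF_aux hρ hψ hq hs, dX_sS hρ hψ hq hs, dY_sS hρ hψ hq hs]
  exact struct_alg2 e (qq ψ z) (sS e ρ ψ z) (tP ρ ψ z) (tR ρ ψ z) (t11 ρ ψ z) (t12 ρ ψ z)
    (t22 ρ ψ z) (dX ψ z) (dY ψ z) (hq z) (sS_pos hq hs z) (sS_sq hq hs z)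

end Vale.Agent.P205T
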